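import Vale.Agent.P252.B.Calc

open Matrix MeasureTheory
open scoped ContDiff

namespace Vale.Agent.P252

variable {n : ℕ} {U : Set (Fin n → ℝ)} {u f F : (Fin n → ℝ) → ℝ} {y P a : Fin n → ℝ}
  {V : Matrix (Fin n) (Fin n) ℝ} {c b : ℝ}

/-- The preimage of a set under `y ↦ P + V y`. -/
def pre (P : Fin n → ℝ) (V : Matrix (Fin n) (Fin n) ℝ) (U : Set (Fin n → ℝ)) :
    Set (Fin n → ℝ) := {y | P + V *ᵥ y ∈ U}

/-- The function `y ↦ c u(P + V y) + a·y + b`. -/
def tr (u : (Fin n → ℝ) → ℝ) (P : Fin n → ℝ) (V : Matrix (Fin n) (Fin n) ℝ) (c : ℝ)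
    (a : Fin n → ℝ) (b : ℝ) (y : Fin n → ℝ) : ℝ := c * u (P + V *ᵥ y) + a ⬝ᵥ y + b

theorem aff_hasFDerivAt (P : Fin n → ℝ) (V : Matrix (Fin n) (Fin n) ℝ) (y : Fin n → ℝ) :
    HasFDerivAt (fun z => P + V *ᵥ z) (LinearMap.toContinuousLinearMap (toLin' V)) y :=
  (LinearMap.toContinuousLinearMap (toLin' V)).hasFDerivAt.const_add P

theorem aff_contDiff (P : Fin n → ℝ) (V : Matrix (Fin n) (Fin n) ℝ) :
    ContDiff ℝ ∞ fun z => P + V *ᵥ z :=
  contDiff_const.add (LinearMap.toContinuousLinearMap (toLin' V)).contDiff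

theorem aff_inv (hV : V.det ≠ 0) (P x : Fin n → ℝ) : P + V *ᵥ (V⁻¹ *ᵥ (x - P)) = x := by
  rw [mulVec_mulVec, mul_nonsing_inv _ hV.isUnit, one_mulVec, add_sub_cancel]

theorem aff_inv' (hV : V.det ≠ 0) (P y : Fin n → ℝ) : V⁻¹ *ᵥ (P + V *ᵥ y - P) = y := by
  rw [add_sub_cancel_left, mulVec_mulVec, nonsing_inv_mul _ hV.isUnit, one_mulVec]

theorem aff_sm (hF : Sm U F) : Sm (pre P V U) (fun z => F (P + V *ᵥ z)) :=
  hF.comp (aff_contDiff P V).contDiffOn fun _ hy => hy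

theorem aff_diff (hU : IsOpen U) (hF : Sm U F) (hy : y ∈ pre P V U) :
    DifferentiableAt ℝ (fun z => F (P + V *ᵥ z)) y :=
  (hF.diff hU hy).comp y (aff_hasFDerivAt P V y).differentiableAt

theorem aff_gr (hU : IsOpen U) (hF : Sm U F) (hy : y ∈ pre P V U) :
    gr (fun z => F (P + V *ᵥ z)) y = Vᵀ *ᵥ gr F (P + V *ᵥ y) := by
  ext i
  have h := ((hF.diff hU hy).hasFDerivAt.comp y (aff_hasFDerivAt P V y)).fderiv
  rw [gr, pd, show (fun z => F (P + V *ᵥ z)) = F ∘ fun z => P + V *ᵥ z from rfl, h,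
    ContinuousLinearMap.comp_apply, fderiv_eq_dot]
  simp [mulVec, dotProduct, Pi.single_apply]

theorem isOpen_pre (hU : IsOpen U) : IsOpen (pre P V U) := by
  exact hU.preimage (aff_contDiff P V).continuous

theorem convex_pre (hU : Convex ℝ U) : Convex ℝ (pre P V U) := by
  intro x hx y hy s t hs ht hst
  have h := hU hx hy hs ht hst
  have e : P + V *ᵥ (s • x + t • y) = s • (P + V *ᵥ x) + t • (P + V *ᵥ y) := by
    rw [mulVec_add, mulVec_smul, mulVec_smul, smul_add, smul_add, add_add_add_comm, ← add_smul,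
      hst, one_smul]
  rwa [← e] at h

theorem isCompact_pre (hV : V.det ≠ 0) (hU : IsCompact U) : IsCompact (pre P V U) := by
  have e : pre P V U = (fun x => V⁻¹ *ᵥ (x - P)) '' U := by
    ext y
    exact ⟨fun hy => ⟨_, hy, aff_inv' hV P y⟩, fun ⟨x, hx, e⟩ => by
      rw [← e, pre, Set.mem_ofPred_eq, aff_inv hV]; exact hx⟩
  rw [e]
  exact hU.image (by fun_prop)

theorem Sm.tr (hf : Sm U f) : Sm (pre P V U) (tr f P V c a b) := by
  exact ((contDiffOn_const.mul (aff_sm hf)).add (sm_dot a)).add contDiffOn_const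

theorem gr_tr (hU : IsOpen U) (hf : Sm U f) (hy : y ∈ pre P V U) :
    gr (tr f P V c a b) y = c • Vᵀ *ᵥ gr f (P + V *ᵥ y) + a := by
  have d := aff_diff hU hf hy
  unfold tr
  rw [gr_add_const, gr_add (d.const_mul c) (diff_dot a y), gr_const_mul c d, gr_dot,
    aff_gr hU hf hy]

theorem hess_tr (hU : IsOpen U) (hf : Sm U f) (hy : y ∈ pre P V U) :
    hess (tr f P V c a b) y = c • (Vᵀ * hess f (P + V *ᵥ y) * V) := by
  ext i j
  have h1 : ∀ z ∈ pre P V U, pd j (tr f P V c a b) z =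
      c * dd (V *ᵥ Pi.single j 1) f (P + V *ᵥ z) + a j := fun z hz => by
    have := congrFun (gr_tr (c := c) (a := a) (b := b) hU hf hz) j
    simpa [gr, dd, mulVec, dotProduct, Pi.single_apply] using this
  have h2 := gr_congr_on (isOpen_pre hU) h1 hy
  rw [gr_add_const, gr_const_mul c (aff_diff hU (hf.dd hU _) hy), aff_gr hU (hf.dd hU _) hy,
    gr_dd hU hf hy, mulVec_mulVec, mulVec_mulVec] at h2
  simpa [gr, hess] using congrFun h2 i

theorem det_hess_tr (hU : IsOpen U) (hf : Sm U f) (hy : y ∈ pre P V U) :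
    (hess (tr f P V c a b) y).det = c ^ n * V.det ^ 2 * (hess f (P + V *ᵥ y)).det := by
  rw [hess_tr hU hf hy, det_smul, det_mul, det_mul, det_transpose, Fintype.card_fin]
  ring

theorem q2_tr (hU : IsOpen U) (hf : Sm U f) (hy : y ∈ pre P V U) (e : Fin n → ℝ) :
    q2 (tr f P V c a b) e y = c * q2 f (V *ᵥ e) (P + V *ᵥ y) := by
  rw [q2, q2, hess_tr hU hf hy, smul_mulVec, dotProduct_smul, smul_eq_mul, ← mulVec_mulVec,
    ← mulVec_mulVec, dotProduct_mulVec, vecMul_transpose]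

theorem breg_tr (hU : IsOpen U) (hf : Sm U f) {x : Fin n → ℝ} (hy : y ∈ pre P V U) :
    breg (tr f P V c a b) x y = c * breg f (P + V *ᵥ x) (P + V *ᵥ y) := by
  rw [breg, breg, gr_tr hU hf hy, add_sub_add_left_eq_sub, ← mulVec_sub, add_dotProduct,
    smul_dotProduct, mulVec_transpose, ← dotProduct_mulVec, dotProduct_sub a, tr, tr, smul_eq_mul]
  ring

theorem Good.tr (h : Good U u) (hV : V.det ≠ 0) (hc : 0 < c) :
    Good (pre P V U) (tr u P V c a b) := by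
  refine ⟨isOpen_pre h.op, h.sm.tr, fun y hy => ?_⟩
  rw [hess_tr h.op h.sm hy]
  refine PosDef.smul ?_ hc
  simpa using (h.pos _ hy).conjTranspose_mul_mul_same (B := V)
    (mulVec_injective_iff_isUnit.2 ((isUnit_iff_isUnit_det V).2 hV.isUnit))

theorem aff_inv_hess (h : Good U u) (hV : V.det ≠ 0) (hc : 0 < c) (hy : y ∈ pre P V U) :
    (hess (tr u P V c a b) y)⁻¹ = c⁻¹ • (V⁻¹ * (hess u (P + V *ᵥ y))⁻¹ * Vᵀ⁻¹) := by
  have hT : IsUnit Vᵀ.det := by rw [det_transpose]; exact hV.isUnit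
  refine inv_eq_left_inv ?_
  rw [hess_tr h.op h.sm hy, smul_mul_smul_comm, inv_mul_cancel₀ hc.ne', one_smul]
  simp only [Matrix.mul_assoc, nonsing_inv_mul_cancel_left _ _ hT,
    nonsing_inv_mul_cancel_left _ _ (h.det_pos hy).ne'.isUnit, nonsing_inv_mul _ hV.isUnit]

theorem ip_tr (h : Good U u) (hV : V.det ≠ 0) (hc : 0 < c) (hy : y ∈ pre P V U)
    (p q : Fin n → ℝ) :
    ip (tr u P V c a b) y (Vᵀ *ᵥ p) (Vᵀ *ᵥ q) = c⁻¹ * ip u (P + V *ᵥ y) p q := by
  have hT : IsUnit Vᵀ.det := by rw [det_transpose]; exact hV.isUnit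
  rw [ip, ip, aff_inv_hess h hV hc hy, smul_mulVec, dotProduct_smul, smul_eq_mul, mulVec_mulVec,
    nonsing_inv_mul_cancel_right _ _ hT, mulVec_transpose, ← dotProduct_mulVec, mulVec_mulVec,
    mul_nonsing_inv_cancel_left _ _ hV.isUnit]

theorem gr_comp_aff (hU : IsOpen U) (hF : Sm U F) (hy : y ∈ pre P V U) :
    gr (fun z => F (P + V *ᵥ z)) y = Vᵀ *ᵥ gr F (P + V *ᵥ y) := by
  exact aff_gr hU hF hy

theorem Sm.comp_aff (hF : Sm U F) : Sm (pre P V U) (fun z => F (P + V *ᵥ z)) := by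
  exact aff_sm hF

theorem Lop_tr (h : Good U u) (hV : V.det ≠ 0) (hc : 0 < c) (hF : Sm U F) (hy : y ∈ pre P V U) :
    Lop (tr u P V c a b) (fun z => F (P + V *ᵥ z)) y = c⁻¹ * Lop u F (P + V *ᵥ y) := by
  have hT : IsUnit Vᵀ.det := by rw [det_transpose]; exact hV.isUnit
  have e : (fun z => F (P + V *ᵥ z)) = tr F P V 1 0 0 := by funext z; simp [tr]
  rw [Lop, Lop, e, aff_inv_hess h hV hc hy, hess_tr h.op hF hy, one_smul, smul_mul_assoc,
    trace_smul, smul_eq_mul, ← Matrix.mul_assoc, trace_mul_comm]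
  simp only [Matrix.mul_assoc, nonsing_inv_mul_cancel_left _ _ hT,
    mul_nonsing_inv_cancel_left _ _ hV.isUnit]

theorem aff_eqn {β α β' α' : ℝ} (h : Good U u) (he : Eqn U u β α) (hV : V.det ≠ 0) (hc : 0 < c)
    (hβ : β' = β / c) (hα : ∀ y, β' * tr u P V c a b y + α' = β * u (P + V *ᵥ y) + α) :
    Eqn (pre P V U) (tr u P V c a b) β' α' := by
  intro y hy
  have hs := h.sm_lh fun x hx => (he x hx).1
  have h1 : ∀ z ∈ pre P V U, lh (tr u P V c a b) β' α' z =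
      lh u β α (P + V *ᵥ z) + Real.log (c ^ n * V.det ^ 2) := fun z hz => by
    rw [lh, lh, ld, ld, hα, det_hess_tr h.op h.sm hz,
      Real.log_mul (by positivity) (h.det_pos hz).ne']
    ring
  rw [Lop_congr_on (isOpen_pre h.op) h1 hy, gr_congr_on (isOpen_pre h.op) h1 hy, gr_add_const,
    Lop_add (isOpen_pre h.op) (aff_sm hs) contDiffOn_const hy, Lop_const, add_zero,
    Lop_tr h hV hc hs hy, aff_gr h.op hs hy, ip_tr h hV hc hy, hα, (he _ hy).2, hβ]
  exact ⟨(he _ hy).1, by ring⟩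

theorem Eqn.tr {β α : ℝ} (h : Good U u) (he : Eqn U u β α) (hV : V.det ≠ 0) (hc : 0 < c) :
    Eqn (pre P V U) (tr u P V c 0 b) (β / c) (α - β * b / c) := by
  refine aff_eqn h he hV hc rfl fun y => ?_
  simp only [Vale.Agent.P252.tr, zero_dotProduct]
  field_simp
  ring

theorem Eqn.tr_zero (h : Good U u) (he : Eqn U u 0 1) (hV : V.det ≠ 0) (hc : 0 < c) :
    Eqn (pre P V U) (Vale.Agent.P252.tr u P V c a b) 0 1 := by
  exact aff_eqn h he hV hc (by simp) fun y => by simp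

theorem Sol.tr (h : Sol U u) (hV : V.det ≠ 0) (hc : 0 < c) :
    Sol (pre P V U) (tr u P V c a b) := by
  refine ⟨h.good.tr hV hc, convex_pre h.conv, h.eqn.tr_zero h.good hV hc, fun y hy t => ?_⟩
  have e : {x | x ∈ pre P V U ∧ breg (Vale.Agent.P252.tr u P V c a b) x y ≤ t} =
      pre P V {x | x ∈ U ∧ breg u x (P + V *ᵥ y) ≤ t / c} := by
    ext x
    simp only [Set.mem_ofPred_eq, breg_tr h.good.op h.good.sm hy, pre, le_div_iff₀' hc]
  rw [e]
  exact isCompact_pre hV (h.cpt _ hy _)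

theorem QS.tr {C₀ : ℝ} (h : Good U u) (hq : QS C₀ U u) (hc : 0 < c) :
    QS C₀ (pre P V U) (tr u P V c a b) := by
  intro x hx y hy
  rw [breg_tr h.op h.sm hy, breg_tr h.op h.sm hx, mul_left_comm]
  exact mul_le_mul_of_nonneg_left (hq _ hx _ hy) hc.le

theorem setIntegral_pre (hV : V.det ≠ 0) {K : Set (Fin n → ℝ)} (hK : MeasurableSet K)
    (g : (Fin n → ℝ) → ℝ) :
    ∫ x in K, g x = |V.det| * ∫ y in pre P V K, g (P + V *ᵥ y) := by
  have e : (fun y => P + V *ᵥ y) '' pre P V K = K := by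
    ext x
    exact ⟨fun ⟨y, hy, e⟩ => e ▸ hy, fun hx => ⟨V⁻¹ *ᵥ (x - P), by
      rw [pre, Set.mem_ofPred_eq, aff_inv hV]; exact hx, aff_inv hV P x⟩⟩
  have h := integral_image_eq_integral_abs_det_fderiv_smul volume
    (hK.preimage (aff_contDiff P V).continuous.measurable)
    (fun y _ => (aff_hasFDerivAt P V y).hasFDerivWithinAt)
    (fun y _ z _ e => (aff_inv' hV P y).symm.trans
      ((congrArg (fun w => V⁻¹ *ᵥ (w - P)) e).trans (aff_inv' hV P z))) g
  rw [show (fun z => P + V *ᵥ z) ⁻¹' K = pre P V K from rfl, e] at h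
  rw [h, ← integral_const_mul]
  simp [ContinuousLinearMap.det, LinearMap.det_toLin']

end Vale.Agent.P252
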