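import Vale.Agent.P252.B.Mat

open Matrix
open scoped ContDiff

namespace Vale.Agent.P252

variable {n : ℕ} {U : Set (Fin n → ℝ)} {u f g F G : (Fin n → ℝ) → ℝ} {x e a b : Fin n → ℝ}

/-! ### Smoothness -/

theorem Sm.at (hU : IsOpen U) (hf : Sm U f) (hx : x ∈ U) : ContDiffAt ℝ ∞ f x := by
  exact hf.contDiffAt (hU.mem_nhds hx)

theorem Sm.diff (hU : IsOpen U) (hf : Sm U f) (hx : x ∈ U) : DifferentiableAt ℝ f x := by
  exact (hf.at hU hx).differentiableAt (by simp)

theorem Sm.pd (hU : IsOpen U) (hf : Sm U f) (i : Fin n) : Sm U (pd i f) := by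
  have h1 : ContDiffOn ℝ ∞ (fderiv ℝ f) U := hf.fderiv_of_isOpen hU (by simp)
  exact h1.clm_apply contDiffOn_const

theorem Sm.gr (hU : IsOpen U) (hf : Sm U f) : ContDiffOn ℝ ∞ (gr f) U := by
  exact contDiffOn_pi.2 fun i => hf.pd hU i

theorem Sm.hess (hU : IsOpen U) (hf : Sm U f) (i j : Fin n) : Sm U (fun x => hess f x i j) := by
  exact (hf.pd hU j).pd hU i

theorem Sm.dd (hU : IsOpen U) (hf : Sm U f) (e : Fin n → ℝ) : Sm U (dd e f) := by
  have : Vale.Agent.P252.dd e f = fun x => ∑ i, e i * Vale.Agent.P252.pd i f x := rfl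
  rw [this]
  exact ContDiffOn.sum fun i _ => contDiffOn_const.mul (hf.pd hU i)

theorem Sm.q2 (hU : IsOpen U) (hf : Sm U f) (e : Fin n → ℝ) : Sm U (q2 f e) := by
  have : Vale.Agent.P252.q2 f e
      = fun x => ∑ i, e i * ∑ j, Vale.Agent.P252.hess f x i j * e j := rfl
  rw [this]
  exact ContDiffOn.sum fun i _ => contDiffOn_const.mul
    (ContDiffOn.sum fun j _ => (hf.hess hU i j).mul contDiffOn_const)

theorem sm_det_of {M : (Fin n → ℝ) → Matrix (Fin n) (Fin n) ℝ}
    (h : ∀ i j, Sm U (fun x => M x i j)) : Sm U (fun x => (M x).det) := by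
  simp only [Matrix.det_apply']
  exact ContDiffOn.sum fun σ _ => contDiffOn_const.mul (contDiffOn_prod fun i _ => h _ _)

theorem Sm.det (hU : IsOpen U) (hf : Sm U f) : Sm U (fun x => (Vale.Agent.P252.hess f x).det) := by
  exact sm_det_of fun i j => hf.hess hU i j

theorem Sm.trace (hU : IsOpen U) (hf : Sm U f) :
    Sm U (fun x => (Vale.Agent.P252.hess f x).trace) := by
  exact ContDiffOn.sum fun i _ => hf.hess hU i i

theorem Good.mono (h : Good U u) {U' : Set (Fin n → ℝ)} (hU' : IsOpen U') (hs : U' ⊆ U) :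
    Good U' u := ⟨hU', h.sm.mono hs, fun x hx => h.pos x (hs hx)⟩

theorem Good.det_pos (h : Good U u) (hx : x ∈ U) : 0 < (hess u x).det := (h.pos x hx).det_pos

theorem Good.sm_inv (h : Good U u) (i j : Fin n) : Sm U (fun x => (hess u x)⁻¹ i j) := by
  have h1 : Sm U (fun x => (hess u x).adjugate i j) := by
    simp only [Matrix.adjugate_apply]
    refine sm_det_of fun a b => ?_
    by_cases ha : a = j
    · simp only [ha, Matrix.updateRow_self]; exact contDiffOn_const
    · simp only [Matrix.updateRow_ne ha]; exact h.sm.hess h.op a b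
  have h2 := ((h.sm.det h.op).inv fun x hx => (h.det_pos hx).ne').mul h1
  refine h2.congr fun x _ => ?_
  simp [Matrix.inv_def]

theorem Good.sm_trinv (h : Good U u) : Sm U (fun x => ((hess u x)⁻¹).trace) := by
  exact ContDiffOn.sum fun i _ => h.sm_inv i i

theorem Good.sm_ld (h : Good U u) : Sm U (ld u) := by
  exact (h.sm.det h.op).log fun x hx => (h.det_pos hx).ne'

theorem Good.sm_lh (h : Good U u) {β α : ℝ} (hp : ∀ x ∈ U, 0 < β * u x + α) :
    Sm U (lh u β α) := by
  exact h.sm_ld.add (contDiffOn_const.mul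
    (((contDiffOn_const.mul h.sm).add contDiffOn_const).log fun x hx => (hp x hx).ne'))

theorem Good.sm_ip (h : Good U u) (hF : Sm U F) (hG : Sm U G) :
    Sm U (fun x => ip u x (gr F x) (gr G x)) := by
  have : (fun x => ip u x (gr F x) (gr G x))
      = fun x => ∑ i, pd i F x * ∑ j, (hess u x)⁻¹ i j * pd j G x := rfl
  rw [this]
  exact ContDiffOn.sum fun i _ => (hF.pd h.op i).mul
    (ContDiffOn.sum fun j _ => (h.sm_inv i j).mul (hG.pd h.op j))

theorem Good.sm_Lop (h : Good U u) (hF : Sm U F) : Sm U (Lop u F) := by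
  have : Lop u F = fun x => ∑ i, ∑ j, (hess u x)⁻¹ i j * hess F x j i := rfl
  rw [this]
  exact ContDiffOn.sum fun i _ => ContDiffOn.sum fun j _ => (h.sm_inv i j).mul (hF.hess h.op j i)

theorem Good.q2_pos (h : Good U u) (hx : x ∈ U) (he : e ≠ 0) : 0 < q2 u e x := by
  have := (h.pos x hx).dotProduct_mulVec_pos he
  simpa [q2] using this

/-! ### First derivatives -/

theorem fderiv_eq_dot (f : (Fin n → ℝ) → ℝ) (x v : Fin n → ℝ) :
    fderiv ℝ f x v = v ⬝ᵥ gr f x := by
  conv_lhs => rw [show v = ∑ i, v i • (Pi.single i 1 : Fin n → ℝ) from by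
    ext j; simp [Finset.sum_apply, Pi.single_apply]]
  simp [map_sum, dotProduct, gr, pd]

theorem gr_congr (h : f =ᶠ[nhds x] g) : gr f x = gr g x := by
  ext i; simp only [gr, pd, h.fderiv_eq]

theorem gr_congr_on (hU : IsOpen U) (h : ∀ y ∈ U, f y = g y) (hx : x ∈ U) : gr f x = gr g x := by
  exact gr_congr (Filter.eventually_of_mem (hU.mem_nhds hx) h)

theorem gr_const (c : ℝ) : gr (fun _ : Fin n → ℝ => c) x = 0 := by
  ext i; simp [gr, pd]

theorem hasFDerivAt_dot (a x : Fin n → ℝ) : HasFDerivAt (fun y => a ⬝ᵥ y)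
    (LinearMap.toContinuousLinearMap (dotProductBilin ℝ ℝ a)) x :=
  (LinearMap.toContinuousLinearMap (dotProductBilin ℝ ℝ a)).hasFDerivAt

theorem diff_dot (a x : Fin n → ℝ) : DifferentiableAt ℝ (fun y => a ⬝ᵥ y) x :=
  (hasFDerivAt_dot a x).differentiableAt

theorem sm_dot (a : Fin n → ℝ) : Sm U (fun y => a ⬝ᵥ y) :=
  (LinearMap.toContinuousLinearMap (dotProductBilin ℝ ℝ a)).contDiff.contDiffOn

theorem sm_coord (i : Fin n) : Sm U (fun y => y i) := (contDiff_apply ℝ ℝ i).contDiffOn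

theorem sm_sq : Sm U (fun y => y ⬝ᵥ y) :=
  ContDiffOn.sum fun i _ => (sm_coord i).mul (sm_coord i)

theorem gr_dot (a : Fin n → ℝ) : gr (fun y => a ⬝ᵥ y) x = a := by
  ext i
  simp only [gr, pd, (hasFDerivAt_dot a x).fderiv]
  simp

theorem gr_add (hf : DifferentiableAt ℝ f x) (hg : DifferentiableAt ℝ g x) :
    gr (fun y => f y + g y) x = gr f x + gr g x := by
  ext i; simp [gr, pd, fderiv_fun_add hf hg]

theorem gr_sub (hf : DifferentiableAt ℝ f x) (hg : DifferentiableAt ℝ g x) :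
    gr (fun y => f y - g y) x = gr f x - gr g x := by
  ext i; simp [gr, pd, fderiv_fun_sub hf hg]

theorem gr_neg : gr (fun y => -f y) x = -gr f x := by
  ext i; simp [gr, pd, fderiv_fun_neg]

theorem gr_add_const (c : ℝ) : gr (fun y => f y + c) x = gr f x := by
  ext i; simp [gr, pd, fderiv_add_const]

theorem gr_const_mul (c : ℝ) (hf : DifferentiableAt ℝ f x) :
    gr (fun y => c * f y) x = c • gr f x := by
  ext i; simp [gr, pd, fderiv_const_mul hf]

theorem gr_mul (hf : DifferentiableAt ℝ f x) (hg : DifferentiableAt ℝ g x) :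
    gr (fun y => f y * g y) x = f x • gr g x + g x • gr f x := by
  ext i; simp [gr, pd, fderiv_fun_mul hf hg]

theorem gr_comp {h : ℝ → ℝ} {h' : ℝ} (hh : HasDerivAt h h' (f x))
    (hf : DifferentiableAt ℝ f x) : gr (fun y => h (f y)) x = h' • gr f x := by
  ext i
  have := (hh.comp_hasFDerivAt x hf.hasFDerivAt).fderiv
  simp only [gr, pd]
  rw [show (fun y => h (f y)) = h ∘ f from rfl, this]
  simp [gr, pd]

theorem gr_log (hf : DifferentiableAt ℝ f x) (h0 : f x ≠ 0) :
    gr (fun y => Real.log (f y)) x = (f x)⁻¹ • gr f x := by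
  exact gr_comp (Real.hasDerivAt_log h0) hf

theorem gr_exp (hf : DifferentiableAt ℝ f x) :
    gr (fun y => Real.exp (f y)) x = Real.exp (f x) • gr f x := by
  exact gr_comp (Real.hasDerivAt_exp _) hf

theorem gr_inv (hf : DifferentiableAt ℝ f x) (h0 : f x ≠ 0) :
    gr (fun y => (f y)⁻¹) x = (-((f x) ^ 2)⁻¹) • gr f x := by
  exact gr_comp (hasDerivAt_inv h0) hf

theorem gr_sum {ι : Type*} (s : Finset ι) {f : ι → (Fin n → ℝ) → ℝ}
    (hf : ∀ i ∈ s, DifferentiableAt ℝ (f i) x) :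
    gr (fun y => ∑ i ∈ s, f i y) x = ∑ i ∈ s, gr (f i) x := by
  ext i; simp [gr, pd, fderiv_fun_sum hf, Finset.sum_apply]

/-! ### Second derivatives -/

theorem hess_congr (h : f =ᶠ[nhds x] g) : hess f x = hess g x := by
  ext i j
  have h1 : pd j f =ᶠ[nhds x] pd j g := by
    filter_upwards [h.eventuallyEq_nhds] with y hy
    simp only [pd, hy.fderiv_eq]
  simp only [hess, Matrix.of_apply]
  exact congrFun (gr_congr h1) i

theorem hess_congr_on (hU : IsOpen U) (h : ∀ y ∈ U, f y = g y) (hx : x ∈ U) :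
    hess f x = hess g x := by
  exact hess_congr (Filter.eventually_of_mem (hU.mem_nhds hx) h)

theorem hess_apply (hU : IsOpen U) (hf : Sm U f) (hx : x ∈ U) (i j : Fin n) :
    hess f x i j = fderiv ℝ (fderiv ℝ f) x (Pi.single i 1) (Pi.single j 1) := by
  have h1 : ContDiffOn ℝ ∞ (fderiv ℝ f) U := hf.fderiv_of_isOpen hU (by simp)
  have h2 : DifferentiableAt ℝ (fderiv ℝ f) x :=
    (h1.contDiffAt (hU.mem_nhds hx)).differentiableAt (by simp)
  have h3 : pd j f = fun y => fderiv ℝ f y (Pi.single j 1) := rfl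
  simp only [hess, Matrix.of_apply, h3]
  rw [pd, fderiv_clm_apply h2 (differentiableAt_const _)]
  simp

theorem hess_symm (hU : IsOpen U) (hf : Sm U f) (hx : x ∈ U) : (hess f x).IsSymm := by
  ext i j
  have h1 : IsSymmSndFDerivAt ℝ f x := (hf.at hU hx).isSymmSndFDerivAt
    (by simp only [minSmoothness_of_isRCLikeNormedField]; exact WithTop.coe_le_coe.2 le_top)
  rw [Matrix.transpose_apply, hess_apply hU hf hx, hess_apply hU hf hx, h1.eq]

theorem hess_const (c : ℝ) : hess (fun _ : Fin n → ℝ => c) x = 0 := by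
  ext i j
  have : pd j (fun _ : Fin n → ℝ => c) = fun _ => 0 := by
    funext y; exact congrFun (gr_const c) j
  simp only [hess, Matrix.of_apply, this]
  exact congrFun (gr_const 0) i

theorem hess_dot (a : Fin n → ℝ) : hess (fun y => a ⬝ᵥ y) x = 0 := by
  ext i j
  have : pd j (fun y : Fin n → ℝ => a ⬝ᵥ y) = fun _ => a j := by
    funext y; exact congrFun (gr_dot a) j
  simp only [hess, Matrix.of_apply, this]
  exact congrFun (gr_const _) i

theorem hess_add (hU : IsOpen U) (hf : Sm U f) (hg : Sm U g) (hx : x ∈ U) :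
    hess (fun y => f y + g y) x = hess f x + hess g x := by
  ext i j
  have h1 : ∀ y ∈ U, pd j (fun y => f y + g y) y = pd j f y + pd j g y := fun y hy =>
    congrFun (gr_add (hf.diff hU hy) (hg.diff hU hy)) j
  have h2 := gr_congr_on hU h1 hx
  rw [gr_add ((hf.pd hU j).diff hU hx) ((hg.pd hU j).diff hU hx)] at h2
  exact congrFun h2 i

theorem hess_sub (hU : IsOpen U) (hf : Sm U f) (hg : Sm U g) (hx : x ∈ U) :
    hess (fun y => f y - g y) x = hess f x - hess g x := by
  ext i j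
  have h1 : ∀ y ∈ U, pd j (fun y => f y - g y) y = pd j f y - pd j g y := fun y hy =>
    congrFun (gr_sub (hf.diff hU hy) (hg.diff hU hy)) j
  have h2 := gr_congr_on hU h1 hx
  rw [gr_sub ((hf.pd hU j).diff hU hx) ((hg.pd hU j).diff hU hx)] at h2
  exact congrFun h2 i

theorem hess_const_mul (hU : IsOpen U) (c : ℝ) (hf : Sm U f) (hx : x ∈ U) :
    hess (fun y => c * f y) x = c • hess f x := by
  ext i j
  have h1 : ∀ y ∈ U, pd j (fun y => c * f y) y = c * pd j f y := fun y hy =>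
    congrFun (gr_const_mul c (hf.diff hU hy)) j
  have h2 := gr_congr_on hU h1 hx
  rw [gr_const_mul c ((hf.pd hU j).diff hU hx)] at h2
  exact congrFun h2 i

theorem hess_mul (hU : IsOpen U) (hf : Sm U f) (hg : Sm U g) (hx : x ∈ U) :
    hess (fun y => f y * g y) x = f x • hess g x + g x • hess f x
      + vecMulVec (gr f x) (gr g x) + vecMulVec (gr g x) (gr f x) := by
  ext i j
  have h1 : ∀ y ∈ U, pd j (fun y => f y * g y) y = f y * pd j g y + g y * pd j f y :=
    fun y hy => congrFun (gr_mul (hf.diff hU hy) (hg.diff hU hy)) j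
  have h2 := gr_congr_on hU h1 hx
  have df := hf.diff hU hx
  have dg := hg.diff hU hx
  have dpf := (hf.pd hU j).diff hU hx
  have dpg := (hg.pd hU j).diff hU hx
  rw [gr_add (df.fun_mul dpg) (dg.fun_mul dpf), gr_mul df dpg, gr_mul dg dpf] at h2
  have h3 := congrFun h2 i
  simp only [gr, Pi.add_apply, Pi.smul_apply, smul_eq_mul] at h3
  simp only [hess, Matrix.of_apply, Matrix.add_apply, Matrix.smul_apply, smul_eq_mul,
    vecMulVec_apply, gr, h3]
  ring

theorem hess_comp {h h' h'' : ℝ → ℝ} {T : Set ℝ} (hT : IsOpen T)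
    (h1 : ∀ t ∈ T, HasDerivAt h (h' t) t) (h2 : ∀ t ∈ T, HasDerivAt h' (h'' t) t)
    (hU : IsOpen U) (hf : Sm U f) (hx : x ∈ U) (hfx : f x ∈ T) :
    hess (fun y => h (f y)) x = h' (f x) • hess f x + h'' (f x) • vecMulVec (gr f x) (gr f x) := by
  ext i j
  have hc : ContinuousAt f x := (hf.at hU hx).continuousAt
  have e1 : pd j (fun y => h (f y)) =ᶠ[nhds x] fun y => h' (f y) * pd j f y := by
    filter_upwards [hU.mem_nhds hx, hc.preimage_mem_nhds (hT.mem_nhds hfx)] with y hy hy2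
    exact congrFun (gr_comp (h1 _ hy2) (hf.diff hU hy)) j
  have h3 := gr_congr e1
  have df := hf.diff hU hx
  have dh : DifferentiableAt ℝ (fun y => h' (f y)) x :=
    (h2 _ hfx).differentiableAt.comp x df
  rw [gr_mul dh ((hf.pd hU j).diff hU hx), gr_comp (h2 _ hfx) df] at h3
  have h4 := congrFun h3 i
  simp only [gr, Pi.add_apply, Pi.smul_apply, smul_eq_mul] at h4
  simp only [hess, Matrix.of_apply, Matrix.add_apply, Matrix.smul_apply, smul_eq_mul,
    vecMulVec_apply, gr, h4]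
  ring

theorem gr_coord (i : Fin n) : gr (fun y : Fin n → ℝ => y i) x = Pi.single i 1 := by
  have : (fun y : Fin n → ℝ => y i) = fun y => (Pi.single i 1 : Fin n → ℝ) ⬝ᵥ y := by
    funext y; simp
  rw [this, gr_dot]

theorem gr_sq' : gr (fun y : Fin n → ℝ => y ⬝ᵥ y) x = (2 : ℝ) • x := by
  have d : ∀ i, DifferentiableAt ℝ (fun y : Fin n → ℝ => y i) x := fun i =>
    differentiableAt_apply i x
  have : (fun y : Fin n → ℝ => y ⬝ᵥ y) = fun y => ∑ i, y i * y i := rfl
  rw [this, gr_sum _ fun i _ => (d i).fun_mul (d i)]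
  simp only [gr_mul (d _) (d _), gr_coord]
  ext j
  simp [Finset.sum_apply, Pi.single_apply, Finset.sum_add_distrib]; ring

theorem hess_sq : hess (fun y : Fin n → ℝ => y ⬝ᵥ y) x = (2 : ℝ) • (1 : Matrix (Fin n) (Fin n) ℝ) := by
  ext i j
  have : pd j (fun y : Fin n → ℝ => y ⬝ᵥ y)
      = fun y => ((2 : ℝ) • (Pi.single j 1 : Fin n → ℝ)) ⬝ᵥ y := by
    funext y
    have := congrFun (gr_sq' (x := y)) j
    simp only [gr] at this
    rw [this]; simp
  simp only [hess, Matrix.of_apply, this]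
  have h2 := congrFun (gr_dot (x := x) ((2 : ℝ) • (Pi.single j 1 : Fin n → ℝ))) i
  simp only [gr] at h2
  rw [h2]
  simp [Matrix.one_apply, Pi.single_apply]

theorem gr_sq : gr (fun y : Fin n → ℝ => y ⬝ᵥ y) x = (2 : ℝ) • x := by
  exact gr_sq'

theorem gr_dd (hU : IsOpen U) (hf : Sm U f) (hx : x ∈ U) : gr (dd e f) x = hess f x *ᵥ e := by
  have : dd e f = fun y => ∑ j, e j * pd j f y := rfl
  rw [this, gr_sum _ fun j _ => (((hf.pd hU j).diff hU hx).const_mul _)]
  ext i
  simp only [Finset.sum_apply, Matrix.mulVec, dotProduct, hess, Matrix.of_apply]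
  refine Finset.sum_congr rfl fun j _ => ?_
  rw [gr_const_mul _ ((hf.pd hU j).diff hU hx)]
  simp [gr, mul_comm]

/-- The derivative of the gradient map. -/
theorem hasFDerivAt_gr (hU : IsOpen U) (hf : Sm U f) (hx : x ∈ U) :
    HasFDerivAt (gr f) (LinearMap.toContinuousLinearMap (Matrix.toLin' (hess f x))) x := by
  refine hasFDerivAt_pi'.2 fun j => ?_
  have h1 := ((hf.pd hU j).diff hU hx).hasFDerivAt
  refine h1.congr_fderiv ?_
  ext v
  rw [fderiv_eq_dot]
  have hs := hess_symm hU hf hx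
  simp only [ContinuousLinearMap.comp_apply, ContinuousLinearMap.proj_apply,
    LinearMap.coe_toContinuousLinearMap', Matrix.toLin'_apply, Matrix.mulVec, dotProduct]
  refine Finset.sum_congr rfl fun i _ => ?_
  rw [hs.apply i j, mul_comm]; rfl

/-! ### The inner product and the operator -/

theorem Good.inv_symm (h : Good U u) (hx : x ∈ U) : ((hess u x)⁻¹)ᵀ = (hess u x)⁻¹ := by
  rw [Matrix.transpose_nonsing_inv, (hess_symm h.op h.sm hx).eq]

theorem trace_mul_vecMulVec (N : Matrix (Fin n) (Fin n) ℝ) (a b : Fin n → ℝ) :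
    (N * vecMulVec a b).trace = b ⬝ᵥ N *ᵥ a := by
  simp only [Matrix.trace, Matrix.diag, Matrix.mul_apply, vecMulVec_apply, dotProduct,
    Matrix.mulVec, Finset.mul_sum]
  exact Finset.sum_congr rfl fun i _ => Finset.sum_congr rfl fun j _ => by ring

theorem Good.ip_comm (h : Good U u) (hx : x ∈ U) : ip u x a b = ip u x b a := by
  have hs : ((hess u x)⁻¹)ᵀ = (hess u x)⁻¹ := h.inv_symm hx
  simp only [ip]
  rw [dotProduct_mulVec, ← mulVec_transpose, hs, dotProduct_comm]

theorem Good.ip_nonneg (h : Good U u) (hx : x ∈ U) : 0 ≤ ip u x a a := by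
  have := (h.pos x hx).inv.posSemidef.dotProduct_mulVec_nonneg a
  simpa [ip] using this

theorem Good.ip_hess (h : Good U u) (hx : x ∈ U) : ip u x a (hess u x *ᵥ e) = a ⬝ᵥ e := by
  simp only [ip, mulVec_mulVec, Matrix.nonsing_inv_mul _ (h.det_pos hx).ne'.isUnit, one_mulVec]

theorem ip_add_left (c : Fin n → ℝ) : ip u x (a + b) c = ip u x a c + ip u x b c := by
  simp [ip, add_dotProduct]

theorem ip_add_right (c : Fin n → ℝ) : ip u x c (a + b) = ip u x c a + ip u x c b := by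
  simp [ip, mulVec_add, dotProduct_add]

theorem ip_sub_left (c : Fin n → ℝ) : ip u x (a - b) c = ip u x a c - ip u x b c := by
  simp [ip, sub_dotProduct]

theorem ip_sub_right (c : Fin n → ℝ) : ip u x c (a - b) = ip u x c a - ip u x c b := by
  simp [ip, mulVec_sub, dotProduct_sub]

theorem ip_neg_left : ip u x (-a) b = -ip u x a b := by simp [ip]

theorem ip_neg_right : ip u x a (-b) = -ip u x a b := by simp [ip, mulVec_neg]

theorem ip_smul_left (c : ℝ) : ip u x (c • a) b = c * ip u x a b := by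
  simp [ip, smul_dotProduct]

theorem ip_smul_right (c : ℝ) : ip u x a (c • b) = c * ip u x a b := by
  simp [ip, mulVec_smul, dotProduct_smul]

theorem ip_zero_left : ip u x 0 b = 0 := by simp [ip]

theorem ip_zero_right : ip u x a 0 = 0 := by simp [ip]

theorem Lop_congr_on (hU : IsOpen U) (h : ∀ y ∈ U, F y = G y) (hx : x ∈ U) :
    Lop u F x = Lop u G x := by
  simp only [Lop, hess_congr_on hU h hx]

theorem Lop_const (c : ℝ) : Lop u (fun _ => c) x = 0 := by
  simp [Lop, hess_const]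

theorem Lop_dot (a : Fin n → ℝ) : Lop u (fun y => a ⬝ᵥ y) x = 0 := by
  simp [Lop, hess_dot]

theorem Good.Lop_self (h : Good U u) (hx : x ∈ U) : Lop u u x = n := by
  simp [Lop, Matrix.nonsing_inv_mul _ (h.det_pos hx).ne'.isUnit]

theorem Lop_add (hU : IsOpen U) (hF : Sm U F) (hG : Sm U G) (hx : x ∈ U) :
    Lop u (fun y => F y + G y) x = Lop u F x + Lop u G x := by
  simp [Lop, hess_add hU hF hG hx, Matrix.mul_add]

theorem Lop_sub (hU : IsOpen U) (hF : Sm U F) (hG : Sm U G) (hx : x ∈ U) :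
    Lop u (fun y => F y - G y) x = Lop u F x - Lop u G x := by
  simp [Lop, hess_sub hU hF hG hx, Matrix.mul_sub]

theorem Lop_const_mul (hU : IsOpen U) (c : ℝ) (hF : Sm U F) (hx : x ∈ U) :
    Lop u (fun y => c * F y) x = c * Lop u F x := by
  simp [Lop, hess_const_mul hU c hF hx]

theorem Good.Lop_mul (h : Good U u) (hF : Sm U F) (hG : Sm U G) (hx : x ∈ U) :
    Lop u (fun y => F y * G y) x
      = F x * Lop u G x + G x * Lop u F x + 2 * ip u x (gr F x) (gr G x) := by
  simp only [Lop, hess_mul h.op hF hG hx, Matrix.mul_add, Matrix.trace_add, Matrix.mul_smul,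
    Matrix.trace_smul, smul_eq_mul, trace_mul_vecMulVec]
  have := h.ip_comm hx (a := gr F x) (b := gr G x)
  simp only [ip] at this ⊢
  rw [← this]; ring

theorem Lop_comp {h h' h'' : ℝ → ℝ} {T : Set ℝ} (hT : IsOpen T)
    (h1 : ∀ t ∈ T, HasDerivAt h (h' t) t) (h2 : ∀ t ∈ T, HasDerivAt h' (h'' t) t)
    (hU : IsOpen U) (hF : Sm U F) (hx : x ∈ U) (hFx : F x ∈ T) :
    Lop u (fun y => h (F y)) x = h' (F x) * Lop u F x + h'' (F x) * ip u x (gr F x) (gr F x) := by
  simp only [Lop, hess_comp hT h1 h2 hU hF hx hFx, Matrix.mul_add, Matrix.trace_add,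
    Matrix.mul_smul, Matrix.trace_smul, smul_eq_mul, trace_mul_vecMulVec, ip]

theorem Lop_log (hU : IsOpen U) (hF : Sm U F) (hx : x ∈ U) (hFx : 0 < F x) :
    Lop u (fun y => Real.log (F y)) x
      = Lop u F x / F x - ip u x (gr F x) (gr F x) / F x ^ 2 := by
  rw [Lop_comp (h := Real.log) (h' := fun t => t⁻¹) (h'' := fun t => -(t ^ 2)⁻¹) isOpen_Ioi
    (fun t ht => Real.hasDerivAt_log (ne_of_gt ht)) (fun t ht => hasDerivAt_inv (ne_of_gt ht))
    hU hF hx hFx]
  ring

theorem Lop_exp (hU : IsOpen U) (hF : Sm U F) (hx : x ∈ U) :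
    Lop u (fun y => Real.exp (F y)) x
      = Real.exp (F x) * (Lop u F x + ip u x (gr F x) (gr F x)) := by
  rw [Lop_comp (h := Real.exp) (h' := Real.exp) (h'' := Real.exp) isOpen_univ
    (fun t _ => Real.hasDerivAt_exp t) (fun t _ => Real.hasDerivAt_exp t) hU hF hx trivial]
  ring

theorem Lop_sq : Lop u (fun y => y ⬝ᵥ y) x = 2 * ((hess u x)⁻¹).trace := by
  simp [Lop, hess_sq]

/-! ### Third and fourth order identities -/

theorem pd_comm (hU : IsOpen U) (hf : Sm U f) (hx : x ∈ U) (i j : Fin n) :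
    pd i (pd j f) x = pd j (pd i f) x := (hess_symm hU hf hx).apply j i

theorem dd_eq_fderiv (e : Fin n → ℝ) (f : (Fin n → ℝ) → ℝ) (x : Fin n → ℝ) :
    dd e f x = fderiv ℝ f x e := (fderiv_eq_dot f x e).symm

theorem dd_congr_on (hU : IsOpen U) (h : ∀ y ∈ U, f y = g y) (hx : x ∈ U) :
    dd e f x = dd e g x := by simp only [dd, gr_congr_on hU h hx]

theorem dd_single (i : Fin n) : dd (Pi.single i 1) f x = pd i f x := by simp [dd, gr]

theorem dd_add (hf : DifferentiableAt ℝ f x) (hg : DifferentiableAt ℝ g x) :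
    dd e (fun y => f y + g y) x = dd e f x + dd e g x := by simp [dd, gr_add hf hg]

theorem dd_mul (hf : DifferentiableAt ℝ f x) (hg : DifferentiableAt ℝ g x) :
    dd e (fun y => f y * g y) x = f x * dd e g x + g x * dd e f x := by simp [dd, gr_mul hf hg]

theorem dd_sum {ι : Type*} (s : Finset ι) {f : ι → (Fin n → ℝ) → ℝ}
    (hf : ∀ i ∈ s, DifferentiableAt ℝ (f i) x) :
    dd e (fun y => ∑ i ∈ s, f i y) x = ∑ i ∈ s, dd e (f i) x := by
  simp [dd, gr_sum s hf, dotProduct_sum]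

theorem pd_dd (hU : IsOpen U) (hf : Sm U f) (hx : x ∈ U) (j : Fin n) :
    pd j (dd e f) x = dd e (pd j f) x := by
  have h1 := congrFun (gr_dd (e := e) hU hf hx) j
  simp only [gr] at h1
  rw [h1]
  simp only [Matrix.mulVec, dotProduct, dd, gr, hess, Matrix.of_apply]
  exact Finset.sum_congr rfl fun k _ => by rw [pd_comm hU hf hx j k, mul_comm]

theorem hess_dd_apply (hU : IsOpen U) (hf : Sm U f) (hx : x ∈ U) (i j : Fin n) :
    hess (dd e f) x i j = dd e (fun y => hess f y i j) x := by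
  have h1 : ∀ y ∈ U, pd j (dd e f) y = dd e (pd j f) y := fun y hy => pd_dd hU hf hy j
  have h2 := congrFun (gr_congr_on hU h1 hx) i
  simp only [gr] at h2
  simp only [hess, Matrix.of_apply]
  rw [h2, pd_dd hU (hf.pd hU j) hx i]

theorem hasDerivAt_det_line (M X : Matrix (Fin n) (Fin n) ℝ) (hM : M.det ≠ 0) :
    HasDerivAt (fun t : ℝ => (M + t • X).det) (M.det * (M⁻¹ * X).trace) 0 := by
  have h1 : ∀ t : ℝ, (M + t • X).det = M.det * (1 + t • (M⁻¹ * X)).det := by
    intro t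
    rw [← Matrix.det_mul, Matrix.mul_add, Matrix.mul_one, Matrix.mul_smul, ← Matrix.mul_assoc,
      Matrix.mul_nonsing_inv _ hM.isUnit, Matrix.one_mul]
  obtain ⟨P, hP⟩ : ∃ P : Polynomial ℝ, ∀ t : ℝ, (1 + t • (M⁻¹ * X)).det
      = 1 + (M⁻¹ * X).trace * t + P.eval t * t ^ 2 := ⟨_, fun t => Matrix.det_one_add_smul t _⟩
  simp only [h1, hP]
  refine HasDerivAt.const_mul _ ?_
  have h2 : HasDerivAt (fun t : ℝ => P.eval t * t ^ 2) 0 0 := by
    have := (P.hasDerivAt (0 : ℝ)).fun_mul (hasDerivAt_pow 2 (0 : ℝ))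
    simpa using this
  have h3 : HasDerivAt (fun t : ℝ => 1 + (M⁻¹ * X).trace * t) ((M⁻¹ * X).trace) 0 := by
    simpa using ((hasDerivAt_id (0 : ℝ)).const_mul ((M⁻¹ * X).trace)).const_add 1
  simpa using h3.fun_add h2

theorem dd_det_of (hU : IsOpen U) {M : (Fin n → ℝ) → Matrix (Fin n) (Fin n) ℝ}
    (h : ∀ i j, Sm U (fun x => M x i j)) (hx : x ∈ U) (h0 : (M x).det ≠ 0) :
    dd e (fun y => (M y).det) x
      = (M x).det * ((M x)⁻¹ * Matrix.of fun i j => dd e (fun y => M y i j) x).trace := by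
  let D : (Fin n → Fin n → ℝ) → ℝ := fun A => (Matrix.of A).det
  have hD : ContDiff ℝ ∞ D := by
    simp only [D, Matrix.det_apply']
    exact ContDiff.sum fun σ _ => contDiff_const.mul (contDiff_prod fun i _ => by
      simp only [Matrix.of_apply]; fun_prop)
  have hDd : Differentiable ℝ D := hD.differentiable (by simp)
  let m : (Fin n → ℝ) → (Fin n → Fin n → ℝ) := fun y i j => M y i j
  have hm : DifferentiableAt ℝ m x :=
    differentiableAt_pi.2 fun i => differentiableAt_pi.2 fun j => (h i j).diff hU hx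
  let X : Fin n → Fin n → ℝ := fun i j => dd e (fun y => M y i j) x
  have hX : fderiv ℝ m x e = X := by
    ext i j
    have h1 : HasFDerivAt (fun y => m y i j) _ x :=
      hasFDerivAt_pi'.1 (hasFDerivAt_pi'.1 hm.hasFDerivAt i) j
    simp only [X, dd_eq_fderiv]
    rw [show (fun y => M y i j) = fun y => m y i j from rfl, h1.fderiv]
    simp
  have h1 : dd e (fun y => (M y).det) x = fderiv ℝ D (m x) X := by
    rw [dd_eq_fderiv, show (fun y => (M y).det) = D ∘ m from rfl,
      fderiv_comp x (hDd _) hm, ContinuousLinearMap.comp_apply, hX]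
  have h2 : HasDerivAt (fun t : ℝ => D (m x + t • X)) (fderiv ℝ D (m x) X) 0 :=
    (hDd (m x)).hasFDerivAt.hasLineDerivAt X
  have h3 := hasDerivAt_det_line (M x) (Matrix.of X) h0
  rw [h1]
  exact h2.unique h3

theorem Good.dd_det (h : Good U u) (hx : x ∈ U) :
    dd e (fun y => (hess u y).det) x = (hess u x).det * Lop u (dd e u) x := by
  rw [dd_det_of h.op (fun i j => h.sm.hess h.op i j) hx (h.det_pos hx).ne', Lop]
  congr 3
  ext i j
  rw [hess_dd_apply h.op h.sm hx]; rfl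

theorem Good.gr_ld (h : Good U u) (hx : x ∈ U) :
    gr (ld u) x = ((hess u x).det)⁻¹ • gr (fun y => (hess u y).det) x :=
  gr_log ((h.sm.det h.op).diff h.op hx) (h.det_pos hx).ne'

theorem gr_det (_hU : IsOpen U) (h : Good U u) (hx : x ∈ U) :
    gr (fun y => (hess u y).det) x = (hess u x).det • gr (ld u) x := by
  rw [h.gr_ld hx, smul_smul, mul_inv_cancel₀ (h.det_pos hx).ne', one_smul]

theorem Good.Lop_dd (h : Good U u) (hx : x ∈ U) : Lop u (dd e u) x = dd e (ld u) x := by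
  have h1 := h.dd_det (e := e) hx
  rw [dd, gr_det h.op h hx, dotProduct_smul, smul_eq_mul] at h1
  exact (mul_left_cancel₀ (h.det_pos hx).ne' h1).symm

theorem q2_eq_dd (hU : IsOpen U) (hf : Sm U f) (hx : x ∈ U) : q2 f e x = dd e (dd e f) x := by
  rw [dd, gr_dd hU hf hx, q2]

theorem Good.dd_inv (h : Good U u) (hx : x ∈ U) :
    (Matrix.of fun i j => dd e (fun y => (hess u y)⁻¹ i j) x)
      = -((hess u x)⁻¹ * hess (dd e u) x * (hess u x)⁻¹) := by
  set D := Matrix.of fun i j => dd e (fun y => (hess u y)⁻¹ i j) x with hD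
  have h1 : D * hess u x + (hess u x)⁻¹ * hess (dd e u) x = 0 := by
    ext i j
    have e1 : ∀ y ∈ U, ∑ k, (hess u y)⁻¹ i k * hess u y k j
        = (1 : Matrix (Fin n) (Fin n) ℝ) i j := by
      intro y hy
      rw [← Matrix.mul_apply, Matrix.nonsing_inv_mul _ (h.det_pos hy).ne'.isUnit]
    have e2 := dd_congr_on (e := e) h.op e1 hx
    have d1 := fun a b => (h.sm_inv a b).diff h.op hx
    have d2 := fun a b => (h.sm.hess h.op a b).diff h.op hx
    rw [dd_sum _ fun k _ => (d1 i k).fun_mul (d2 k j)] at e2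
    simp only [dd_mul (d1 _ _) (d2 _ _)] at e2
    have e3 : dd e (fun _ : Fin n → ℝ => (1 : Matrix (Fin n) (Fin n) ℝ) i j) x = 0 := by
      simp [dd, gr_const]
    rw [e3] at e2
    rw [Matrix.add_apply, Matrix.mul_apply, Matrix.mul_apply, ← Finset.sum_add_distrib,
      Matrix.zero_apply, ← e2]
    refine Finset.sum_congr rfl fun k _ => ?_
    rw [hess_dd_apply h.op h.sm hx, hD, Matrix.of_apply]; ring
  have h2 : D * hess u x = -((hess u x)⁻¹ * hess (dd e u) x) := eq_neg_of_add_eq_zero_left h1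
  calc D = D * hess u x * (hess u x)⁻¹ := by
        rw [Matrix.mul_assoc, Matrix.mul_nonsing_inv _ (h.det_pos hx).ne'.isUnit, Matrix.mul_one]
    _ = _ := by rw [h2, Matrix.neg_mul]

theorem Good.gr_q2 (h : Good U u) (hx : x ∈ U) :
    gr (q2 u e) x = hess (dd e u) x *ᵥ e := by
  rw [gr_congr_on h.op (fun y hy => q2_eq_dd h.op h.sm hy) hx, gr_dd h.op (h.sm.dd h.op e) hx]

/-- The cofactor matrix is divergence free. -/
theorem Good.div_free (h : Good U u) (hx : x ∈ U) (j : Fin n) :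
    ∑ i, pd i (fun y => (hess u y).det * (hess u y)⁻¹ i j) x = 0 := by
  set N := (hess u x)⁻¹ with hN
  have hNs : Nᵀ = N := h.inv_symm hx
  have d0 := (h.sm.det h.op).diff h.op hx
  have d1 := fun a b => (h.sm_inv a b).diff h.op hx
  let t : Fin n → Fin n → Fin n → ℝ := fun a b i => pd a (pd b (pd i u)) x
  have hdd : ∀ i, dd (Pi.single i 1) u = pd i u := fun i => funext fun y => dd_single i
  have ht : ∀ a b i, t a b i = t i a b := by
    intro a b i
    have e1 := congrFun (gr_congr_on h.op (fun y hy => pd_comm h.op h.sm hy b i) hx) a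
    simp only [gr] at e1
    simp only [t]
    rw [e1, pd_comm h.op (h.sm.pd h.op b) hx a i]
  have hφ : ∀ b, pd b (ld u) x = ∑ i, ∑ a, N i a * t a i b := by
    intro b
    rw [← dd_single, ← h.Lop_dd hx, hdd]; rfl
  have hinv : ∀ i, pd i (fun y => (hess u y)⁻¹ i j) x = -∑ b, (∑ a, N i a * t a b i) * N b j := by
    intro i
    have := congrFun (congrFun (h.dd_inv (e := Pi.single i 1) hx) i) j
    rw [Matrix.of_apply, dd_single, hdd] at this
    rw [this]; rfl
  have hterm : ∀ i, pd i (fun y => (hess u y).det * (hess u y)⁻¹ i j) x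
      = (hess u x).det * (N i j * pd i (ld u) x - ∑ b, (∑ a, N i a * t a b i) * N b j) := by
    intro i
    have e1 := congrFun (gr_mul d0 (d1 i j)) i
    have e2 := congrFun (gr_det h.op h hx) i
    simp only [gr, Pi.add_apply, Pi.smul_apply, smul_eq_mul] at e1 e2
    rw [e1, e2, hinv]; ring
  simp only [hterm]
  rw [← Finset.mul_sum, Finset.sum_sub_distrib, Finset.sum_comm]
  have : ∑ b, ∑ i, (∑ a, N i a * t a b i) * N b j = ∑ b, N b j * pd b (ld u) x := by
    refine Finset.sum_congr rfl fun b _ => ?_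
    rw [hφ, ← Finset.sum_mul, mul_comm]
    congr 1
    rw [Finset.sum_comm]
    refine Finset.sum_congr rfl fun i _ => Finset.sum_congr rfl fun a _ => ?_
    have := congrFun (congrFun hNs i) a
    rw [Matrix.transpose_apply] at this
    rw [this, ht i b a]
  rw [this, sub_self, mul_zero]

theorem Good.Lop_q2 (h : Good U u) (hx : x ∈ U) :
    Lop u (q2 u e) x = dd e (dd e (ld u)) x
      + ((hess u x)⁻¹ * hess (dd e u) x * (hess u x)⁻¹ * hess (dd e u) x).trace := by
  have hT := h.sm.dd h.op e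
  have e1 : ∀ y ∈ U, dd e (ld u) y = ∑ i, ∑ j, (hess u y)⁻¹ i j * hess (dd e u) y j i :=
    fun y hy => (h.Lop_dd hy).symm
  have d1 := fun a b => (h.sm_inv a b).diff h.op hx
  have d2 := fun a b => (hT.hess h.op a b).diff h.op hx
  rw [dd_congr_on h.op e1 hx, dd_sum _ fun i _ => DifferentiableAt.fun_sum fun j _ =>
    (d1 i j).fun_mul (d2 j i)]
  have e2 : ∀ i, dd e (fun y => ∑ j, (hess u y)⁻¹ i j * hess (dd e u) y j i) x
      = ∑ j, (hess u x)⁻¹ i j * hess (dd e (dd e u)) x j i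
        - ∑ j, ((hess u x)⁻¹ * hess (dd e u) x * (hess u x)⁻¹) i j * hess (dd e u) x j i := by
    intro i
    rw [dd_sum _ fun j _ => (d1 i j).fun_mul (d2 j i), ← Finset.sum_sub_distrib]
    refine Finset.sum_congr rfl fun j _ => ?_
    have := congrFun (congrFun (h.dd_inv (e := e) hx) i) j
    rw [Matrix.of_apply, Matrix.neg_apply] at this
    rw [dd_mul (d1 _ _) (d2 _ _), this, ← hess_dd_apply h.op hT hx]; ring
  simp only [e2, Finset.sum_sub_distrib]
  rw [Lop_congr_on h.op (fun y hy => q2_eq_dd h.op h.sm hy) hx]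
  have e3 : Lop u (dd e (dd e u)) x
      = ∑ i, ∑ j, (hess u x)⁻¹ i j * hess (dd e (dd e u)) x j i := rfl
  have e4 : ((hess u x)⁻¹ * hess (dd e u) x * (hess u x)⁻¹ * hess (dd e u) x).trace
      = ∑ i, ∑ j, ((hess u x)⁻¹ * hess (dd e u) x * (hess u x)⁻¹) i j
        * hess (dd e u) x j i := rfl
  rw [e3, e4]; ring

/-- Pogorelov's inequality. -/
theorem Good.pog (hn : 2 ≤ n) (h : Good U u) (hx : x ∈ U) (he : e ≠ 0) :
    dd e (dd e (ld u)) x / q2 u e x
      + (ip u x (gr (fun y => Real.log (q2 u e y)) x) (gr (fun y => Real.log (q2 u e y)) x)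
          - (dd e (fun y => Real.log (q2 u e y)) x) ^ 2 / q2 u e x)
      + (dd e (ld u) x - dd e (fun y => Real.log (q2 u e y)) x) ^ 2 / (((n : ℝ) - 1) * q2 u e x)
      ≤ Lop u (fun y => Real.log (q2 u e y)) x := by
  have hq := h.q2_pos hx he
  have hs := h.sm.q2 h.op e
  have hT := hess_symm h.op (h.sm.dd h.op e) hx
  have hp := pog_ineq hn (h.pos x hx) hT he
  have hg : gr (fun y => Real.log (q2 u e y)) x = (q2 u e x)⁻¹ • hess (dd e u) x *ᵥ e := by
    rw [gr_log (hs.diff h.op hx) hq.ne', h.gr_q2 hx]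
  rw [Lop_log h.op hs hx hq, h.Lop_q2 hx, dd.eq_1 e (fun y => Real.log (q2 u e y)), hg,
    h.gr_q2 hx, ip_smul_left, ip_smul_right, dotProduct_smul, smul_eq_mul, ← h.Lop_dd hx]
  change _ ≤ _ at hp
  have e1 : e ⬝ᵥ hess u x *ᵥ e = q2 u e x := rfl
  have e2 : ((hess u x)⁻¹ * hess (dd e u) x).trace = Lop u (dd e u) x := rfl
  have e3 : (hess (dd e u) x *ᵥ e) ⬝ᵥ (hess u x)⁻¹ *ᵥ hess (dd e u) x *ᵥ e
      = ip u x (hess (dd e u) x *ᵥ e) (hess (dd e u) x *ᵥ e) := rfl
  rw [e1, e2, e3] at hp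
  have hn1 : (0 : ℝ) < (n : ℝ) - 1 := by
    have : (2 : ℝ) ≤ n := by exact_mod_cast hn
    linarith
  set q := q2 u e x
  set I := ip u x (hess (dd e u) x *ᵥ e) (hess (dd e u) x *ᵥ e)
  set E := e ⬝ᵥ hess (dd e u) x *ᵥ e
  set L := Lop u (dd e u) x
  set S := ((hess u x)⁻¹ * hess (dd e u) x * (hess u x)⁻¹ * hess (dd e u) x).trace
  set Z := dd e (dd e (ld u)) x
  have h5 := div_le_div_of_nonneg_right hp hq.le
  have h6 : Z / q + (q⁻¹ * (q⁻¹ * I) - (q⁻¹ * E) ^ 2 / q) + (L - q⁻¹ * E) ^ 2 / (((n : ℝ) - 1) * q)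
      = Z / q + ((L - E / q) ^ 2 / ((n : ℝ) - 1) + 2 * I / q - (E / q) ^ 2) / q - I / q ^ 2 := by
    field_simp; ring
  rw [h6, add_div Z S]; linarith

theorem Good.sm_sig (h : Good U u) : Sm U (fun y => y ⬝ᵥ gr u y - u y) := by
  exact (ContDiffOn.sum fun i _ => (sm_coord i).mul (h.sm.pd h.op i)).sub h.sm

theorem Good.gr_sig (h : Good U u) (hx : x ∈ U) :
    gr (fun y => y ⬝ᵥ gr u y - u y) x = hess u x *ᵥ x := by
  have d1 : ∀ i, DifferentiableAt ℝ (fun y : Fin n → ℝ => y i) x := fun i =>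
    differentiableAt_apply i x
  have d2 := fun i => (h.sm.pd h.op i).diff h.op hx
  have e1 : (fun y => y ⬝ᵥ gr u y - u y) = fun y => ∑ i, y i * pd i u y - u y := rfl
  rw [e1, gr_sub (DifferentiableAt.fun_sum fun i _ => (d1 i).fun_mul (d2 i)) (h.sm.diff h.op hx),
    gr_sum _ fun i _ => (d1 i).fun_mul (d2 i)]
  simp only [gr_mul (d1 _) (d2 _), gr_coord]
  ext j
  simp [Finset.sum_apply, Pi.single_apply, Finset.sum_add_distrib, gr, Matrix.mulVec,
    dotProduct, hess, mul_comm]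

theorem Lop_sum {ι : Type*} (s : Finset ι) {F : ι → (Fin n → ℝ) → ℝ} (hU : IsOpen U)
    (hF : ∀ i, Sm U (F i)) (hx : x ∈ U) :
    Lop u (fun y => ∑ i ∈ s, F i y) x = ∑ i ∈ s, Lop u (F i) x := by
  classical
  induction s using Finset.induction_on with
  | empty => simp [Lop_const]
  | insert a s ha ih =>
    simp only [Finset.sum_insert ha]
    rw [Lop_add hU (hF a) (ContDiffOn.sum fun i _ => hF i) hx, ih]

theorem Lop_coord (i : Fin n) : Lop u (fun y => y i) x = 0 := by
  have : (fun y : Fin n → ℝ => y i) = fun y => (Pi.single i 1 : Fin n → ℝ) ⬝ᵥ y := by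
    funext y; simp
  rw [this, Lop_dot]

theorem Good.Lop_pd (h : Good U u) (hx : x ∈ U) (i : Fin n) :
    Lop u (pd i u) x = pd i (ld u) x := by
  have hdd : dd (Pi.single i 1) u = pd i u := funext fun y => dd_single i
  rw [← hdd, h.Lop_dd hx, dd_single]

theorem gr_pd (hU : IsOpen U) (hf : Sm U f) (hx : x ∈ U) (i : Fin n) :
    gr (pd i f) x = hess f x *ᵥ Pi.single i 1 := by
  have hdd : dd (Pi.single i 1) f = pd i f := funext fun y => dd_single i
  rw [← hdd, gr_dd hU hf hx]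

theorem Good.Lop_sig (h : Good U u) (hx : x ∈ U) :
    Lop u (fun y => y ⬝ᵥ gr u y - u y) x = n + x ⬝ᵥ gr (ld u) x := by
  have s1 : ∀ i, Sm U (fun y => y i * pd i u y) := fun i => (sm_coord i).mul (h.sm.pd h.op i)
  have e1 : (fun y => y ⬝ᵥ gr u y - u y) = fun y => ∑ i, y i * pd i u y - u y := rfl
  rw [e1, Lop_sub h.op (ContDiffOn.sum fun i _ => s1 i) h.sm hx, Lop_sum _ h.op s1 hx,
    h.Lop_self hx]
  simp only [h.Lop_mul (sm_coord _) (h.sm.pd h.op _) hx, Lop_coord, h.Lop_pd hx, gr_coord,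
    gr_pd h.op h.sm hx, h.ip_hess hx]
  simp only [dotProduct_single, Pi.single_eq_same, mul_one, mul_zero, add_zero,
    Finset.sum_add_distrib, Finset.sum_const, Finset.card_univ, Fintype.card_fin, nsmul_eq_mul]
  simp only [dotProduct, gr]; ring

theorem Good.sm_grsq (h : Good U u) : Sm U (fun y => gr u y ⬝ᵥ gr u y) := by
  exact ContDiffOn.sum fun i _ => (h.sm.pd h.op i).mul (h.sm.pd h.op i)

theorem Good.gr_grsq (h : Good U u) (hx : x ∈ U) :
    gr (fun y => gr u y ⬝ᵥ gr u y) x = (2 : ℝ) • hess u x *ᵥ gr u x := by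
  have d2 := fun i => (h.sm.pd h.op i).diff h.op hx
  have e1 : (fun y => gr u y ⬝ᵥ gr u y) = fun y => ∑ i, pd i u y * pd i u y := rfl
  rw [e1, gr_sum _ fun i _ => (d2 i).fun_mul (d2 i)]
  simp only [gr_mul (d2 _) (d2 _)]
  ext j
  simp [Finset.sum_apply, gr, Matrix.mulVec, dotProduct, hess, mul_comm, Finset.mul_sum,
    two_mul, Finset.sum_add_distrib]

theorem Good.Lop_grsq (h : Good U u) (hx : x ∈ U) :
    Lop u (fun y => gr u y ⬝ᵥ gr u y) x = 2 * (hess u x).trace + 2 * (gr u x ⬝ᵥ gr (ld u) x) := by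
  have s1 : ∀ i, Sm U (fun y => pd i u y * pd i u y) := fun i =>
    (h.sm.pd h.op i).mul (h.sm.pd h.op i)
  have e1 : (fun y => gr u y ⬝ᵥ gr u y) = fun y => ∑ i, pd i u y * pd i u y := rfl
  rw [e1, Lop_sum _ h.op s1 hx]
  simp only [h.Lop_mul (h.sm.pd h.op _) (h.sm.pd h.op _) hx, h.Lop_pd hx,
    gr_pd h.op h.sm hx, h.ip_hess hx]
  simp only [dotProduct_single, mul_one, Matrix.mulVec_single_one, Finset.sum_add_distrib]
  simp only [dotProduct, gr, Matrix.trace, Matrix.diag, Matrix.col, Matrix.transpose_apply,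
    ← Finset.mul_sum]
  ring

theorem lh_zero_one : lh u 0 1 = ld u := by
  funext y; simp [lh]

theorem Eqn.ld (h : Eqn U u 0 1) (hx : x ∈ U) :
    Lop u (ld u) x = th n * ip u x (gr (ld u) x) (gr (ld u) x) := by
  have := (h x hx).2
  rw [lh_zero_one] at this
  simpa using this

end Vale.Agent.P252
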