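import Vale.Agent.P252.B.Defs

namespace Vale.Agent.P252

/-- Exponents and multipliers of the two integral estimates. -/
structure Par where
  p : ℝ
  μ : ℝ
  a : ℝ
  k0 : ℝ
  lB : ℝ
  tB : ℝ
  aB : ℝ
  bB : ℝ
  dB : ℝ
  CB : ℝ
  K0 : ℝ
  K1 : ℝ
  T0 : ℝ
  T1 : ℝ
  Z0 : ℝ
  Z1 : ℝ
  E0 : ℝ
  E1 : ℝ
  Zl : ℝ
  El : ℝ
  dA : ℝ
  CA : ℝ

noncomputable def QB1 (n : ℕ) (P : Par) (A G x Y R : ℝ) : ℝ :=
  (P.p * G - A / 2 - 2 * P.p * x + Y) * (G - A) - A ^ 2 + A * G + (A - G) ^ 2 / ((n : ℝ) - 1)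
    + P.lB * ((P.p * G - A / 2 - 2 * P.p * x + Y) * (A + R) + th n * (A + R) ^ 2)
    + P.tB * (x * (P.p * G - A / 2 - 2 * P.p * x + Y + A - x))
    + P.aB * ((P.p * G - A / 2 - 2 * P.p * x + Y) * Y)
    + P.bB * (Y * (P.p * G - A / 2 - 2 * P.p * x + Y + A - G))

noncomputable def QB2 (n : ℕ) (P : Par) (A G Y R : ℝ) : ℝ :=
  (P.p * G - A / 2 + Y + G) * G
    + P.lB * ((P.p * G - A / 2 + Y) * (A + R) + th n * (A + R) ^ 2)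
    + P.aB * ((P.p * G - A / 2 + Y) * Y)

noncomputable def QA1 (n : ℕ) (P : Par) (t A G y z x Y R w : ℝ) : ℝ :=
  let L := P.p * G - A / 2 - 2 * P.p * x - P.μ * (1 - t) * y - P.μ * t * z + Y
  let D := P.a * t * (1 - t) * (z - y)
  L * (G - A) - A ^ 2 + A * G + (A - G) ^ 2 / ((n : ℝ) - 1)
    + (P.K0 * (1 - t) + P.K1 * t) * (L * (A + R) + th n * (A + R) ^ 2) + (P.K1 - P.K0) * D * (A + R)
    + (P.T0 * (1 - t) + P.T1 * t) * (x * (L + A - x)) + (P.T1 - P.T0) * D * x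
    + (P.Z0 * (1 - t) + P.Z1 * t) * ((L - y) * y + n * (x * y)) + (P.Z1 - P.Z0) * D * y
    + (P.E0 * (1 - t) + P.E1 * t) * (x * y + y * (L + A - G - y)) + (P.E1 - P.E0) * D * y
    + P.Zl * (t * ((L - z) * z) + D * z + n * w)
    + P.El * (w + t * (z * (L + A - G - z)) + D * z)

noncomputable def QA2 (n : ℕ) (P : Par) (t A G y z Y R : ℝ) : ℝ :=
  let L := P.p * G - A / 2 - P.μ * (1 - t) * y - P.μ * t * z + Y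
  let D := P.a * t * (1 - t) * (z - y)
  (L + G) * G
    + (P.K0 * (1 - t) + P.K1 * t) * (L * (A + R) + th n * (A + R) ^ 2) + (P.K1 - P.K0) * D * (A + R)
    + (P.Z0 * (1 - t) + P.Z1 * t) * ((L - y) * y) + (P.Z1 - P.Z0) * D * y
    + P.Zl * (t * ((L - z) * z) + D * z)

/-- The algebraic inequalities needed in dimension `n`. -/
structure Cert (n : ℕ) (P : Par) : Prop where
  p_nonneg : 0 ≤ P.p
  μ_nonneg : 0 ≤ P.μ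
  a_pos : 0 < P.a
  a_le : P.a ≤ 1
  k0_pos : 0 < P.k0
  dB_pos : 0 < P.dB
  dA_pos : 0 < P.dA
  CB_nonneg : 0 ≤ P.CB
  CA_nonneg : 0 ≤ P.CA
  big : ((n : ℝ) - 2) / 2 < P.p + P.μ
  B1 : ∀ A G x Y R : ℝ, P.dB * (x ^ 2 + Y ^ 2) ≤ QB1 n P A G x Y R + P.CB * R ^ 2
  B2 : ∀ A G Y R : ℝ, P.dB * Y ^ 2 ≤ QB2 n P A G Y R + P.CB * R ^ 2
  A1 : ∀ t A G y z x Y R w : ℝ, 0 ≤ t → t ≤ 1 → 0 ≤ x * y → w ≤ P.k0 * (x * y) →
    P.dA * (x ^ 2 + y ^ 2 + t * z ^ 2) ≤ QA1 n P t A G y z x Y R w + P.CA * (Y ^ 2 + R ^ 2)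
  A2 : ∀ t A G y z Y R : ℝ, 0 ≤ t → t ≤ 1 →
    P.dA * (y ^ 2 + t * z ^ 2) ≤ QA2 n P t A G y z Y R + P.CA * (Y ^ 2 + R ^ 2)

end Vale.Agent.P252
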