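import Vale.Agent.P252.B.Conv

open Matrix MeasureTheory
open scoped ContDiff

namespace Vale.Agent.P252

variable {n : ℕ} {Ω : Set (Fin n → ℝ)} {u : (Fin n → ℝ) → ℝ}

theorem compl_th_pos (n : ℕ) : 0 < th n := by
  unfold th
  positivity

theorem compl_Lop_w (h : Good Ω u) {x : Fin n → ℝ} (hx : x ∈ Ω) :
    Lop u (fun y => Real.exp (-th n * ld u y)) x = Real.exp (-th n * ld u x) *
      (-th n * (Lop u (ld u) x - th n * ip u x (gr (ld u) x) (gr (ld u) x))) := by
  have h1 : Sm Ω fun y => -th n * ld u y := contDiffOn_const.mul h.sm_ld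
  rw [Lop_exp h.op h1 hx, Lop_const_mul h.op _ h.sm_ld hx,
    gr_const_mul _ (h.sm_ld.diff h.op hx), ip_smul_left, ip_smul_right]
  ring

theorem Good.eqn_of_AM (h : Good Ω u) (ha : AM Ω u) : Eqn Ω u 0 1 := by
  intro x hx
  refine ⟨by norm_num, ?_⟩
  have h1 : Sm Ω fun y => Real.exp (-th n * ld u y) := (contDiffOn_const.mul h.sm_ld).exp
  have h2 := ha x hx
  have h3 : ∀ y ∈ Ω, (hess u y).det ^ (-((n : ℝ) + 1) / ((n : ℝ) + 2)) =
      Real.exp (-th n * ld u y) := by
    intro y hy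
    rw [Real.rpow_def_of_pos (h.det_pos hy), ld, th, neg_div, mul_comm]
  rw [hess_congr_on h.op h3 hx] at h2
  have h4 : (hess u x).det * Lop u (fun y => Real.exp (-th n * ld u y)) x = 0 := by
    rw [← h2]
    have e : Lop u (fun y => Real.exp (-th n * ld u y)) x = ∑ i, ∑ j, (hess u x)⁻¹ i j *
      hess (fun y => Real.exp (-th n * ld u y)) x j i := rfl
    rw [e, Finset.mul_sum]
    refine Finset.sum_congr rfl fun i _ => ?_
    rw [Finset.mul_sum]
    refine Finset.sum_congr rfl fun j _ => ?_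
    rw [(hess_symm h.op h1 hx).apply i j, mul_assoc]
  rw [compl_Lop_w h hx] at h4
  have h5 := (mul_eq_zero.1 h4).resolve_left (h.det_pos hx).ne'
  have h6 := (mul_eq_zero.1 h5).resolve_left (Real.exp_pos _).ne'
  have h7 := (mul_eq_zero.1 h6).resolve_left (neg_ne_zero.2 (compl_th_pos n).ne')
  rw [lh_zero_one, mul_zero, zero_div, sub_zero]
  linarith

theorem compl_pathLen_nonneg (γ : ℝ → Fin n → ℝ) : 0 ≤ pathLen u γ :=
  intervalIntegral.integral_nonneg zero_le_one fun _ _ => Real.sqrt_nonneg _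

theorem compl_gdist_nonneg (x y : Fin n → ℝ) : 0 ≤ gdist Ω u x y := by
  refine Real.sInf_nonneg ?_
  rintro L ⟨γ, -, -, -, -, rfl⟩
  exact compl_pathLen_nonneg γ

theorem compl_seg_mem (hc : Convex ℝ Ω) {p p' : Fin n → ℝ} (hp : p ∈ Ω) (hp' : p' ∈ Ω) :
    pathLen u (fun t => p + t • (p' - p)) ∈ {L | ∃ γ : ℝ → Fin n → ℝ, ContDiff ℝ 1 γ ∧
      (∀ t ∈ Set.Icc (0 : ℝ) 1, γ t ∈ Ω) ∧ γ 0 = p ∧ γ 1 = p' ∧ L = pathLen u γ} :=
  ⟨fun t => p + t • (p' - p), by fun_prop, fun t ht => hc.add_smul_sub_mem hp hp' ht,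
    by simp, by simp, rfl⟩

theorem compl_cont_integrand (hU : IsOpen Ω) (hu : Sm Ω u) {γ : ℝ → Fin n → ℝ}
    (hγ : ContDiff ℝ 1 γ) (hm : ∀ t ∈ Set.Icc (0 : ℝ) 1, γ t ∈ Ω) :
    IntervalIntegrable (fun t => Real.sqrt (∑ i, (deriv (fun s => γ s i) t) ^ 2 +
      (∑ i, pd i u (γ t) * deriv (fun s => γ s i) t) ^ 2)) volume 0 1 := by
  have h1 : ∀ i, Continuous (deriv fun s => γ s i) := fun i =>
    (contDiff_pi.1 hγ i).continuous_deriv le_rfl
  have h2 : ∀ i, ContinuousOn (fun t => pd i u (γ t)) (Set.Icc 0 1) := fun i =>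
    (hu.pd hU i).continuousOn.comp hγ.continuous.continuousOn hm
  refine ContinuousOn.intervalIntegrable_of_Icc zero_le_one ?_
  exact ((continuousOn_finsetSum _ fun i _ => (h1 i).continuousOn.pow 2).add
    ((continuousOn_finsetSum _ fun i _ => (h2 i).mul (h1 i).continuousOn).pow 2)).sqrt

theorem compl_norm_le (hU : IsOpen Ω) (hu : Sm Ω u) (hc : Convex ℝ Ω) {p p' : Fin n → ℝ}
    (hp : p ∈ Ω) (hp' : p' ∈ Ω) : dist p p' ≤ gdist Ω u p p' := by
  refine le_csInf ⟨_, compl_seg_mem hc hp hp'⟩ ?_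
  rintro L ⟨γ, hγ, hm, rfl, rfl, rfl⟩
  rw [dist_pi_le_iff (compl_pathLen_nonneg γ)]
  intro i
  have h0 := contDiff_pi.1 hγ i
  have h1 : Continuous (deriv fun s => γ s i) := h0.continuous_deriv le_rfl
  have h2 := intervalIntegral.integral_deriv_eq_sub (f := fun s => γ s i) (a := 0) (b := 1)
    (fun t _ => h0.differentiable one_ne_zero t) (h1.intervalIntegrable 0 1)
  rw [dist_comm, Real.dist_eq, ← h2]
  refine (intervalIntegral.abs_integral_le_integral_abs zero_le_one).trans ?_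
  refine intervalIntegral.integral_mono_on zero_le_one (h1.abs.intervalIntegrable 0 1)
    (compl_cont_integrand hU hu hγ hm) fun t _ => ?_
  refine Real.abs_le_sqrt ?_
  have h3 := Finset.single_le_sum (f := fun i => (deriv (fun s => γ s i) t) ^ 2)
    (fun _ _ => sq_nonneg _) (Finset.mem_univ i)
  exact h3.trans (le_add_of_nonneg_right (sq_nonneg _))

theorem compl_seg_le (hU : IsOpen Ω) (hu : Sm Ω u) (hc : Convex ℝ Ω) {p p' : Fin n → ℝ}
    (hp : p ∈ Ω) (hp' : p' ∈ Ω) {c ε : ℝ} (hε : |ε| = 1)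
    (hs : ∀ t ∈ Set.Icc (0 : ℝ) 1, 0 ≤ ε * ((p' - p) ⬝ᵥ gr u (p + t • (p' - p)) - c)) :
    gdist Ω u p p' ≤ √((p' - p) ⬝ᵥ (p' - p)) + |c| + ε * (u p' - u p - c) := by
  refine (csInf_le ⟨0, ?_⟩ (compl_seg_mem hc hp hp')).trans ?_
  · rintro L ⟨γ, -, -, -, -, rfl⟩
    exact compl_pathLen_nonneg γ
  have hm : ∀ t ∈ Set.Icc (0 : ℝ) 1, p + t • (p' - p) ∈ Ω := fun t ht =>
    hc.add_smul_sub_mem hp hp' ht
  have hγ : ContDiff ℝ 1 fun t : ℝ => p + t • (p' - p) := by fun_prop
  have hd : ∀ i t, deriv (fun s : ℝ => (p + s • (p' - p)) i) t = (p' - p) i := by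
    intro i t
    have := ((hasDerivAt_id t).mul_const ((p' - p) i)).const_add (p i)
    rw [one_mul] at this
    exact this.deriv
  have hg : ContinuousOn (fun t : ℝ => (p' - p) ⬝ᵥ gr u (p + t • (p' - p))) (Set.Icc 0 1) :=
    (hu.dd hU (p' - p)).continuousOn.comp hγ.continuous.continuousOn hm
  have hi := hg.intervalIntegrable_of_Icc (μ := volume) zero_le_one
  have hF : ∫ t in (0 : ℝ)..1, (p' - p) ⬝ᵥ gr u (p + t • (p' - p)) = u p' - u p := by
    rw [intervalIntegral.integral_eq_sub_of_hasDerivAt (f := fun t : ℝ => u (p + t • (p' - p)))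
      (fun t ht => ?_) hi]
    · simp
    · rw [Set.uIcc_of_le zero_le_one] at ht
      have h1 : HasDerivAt (fun t : ℝ => p + t • (p' - p)) (p' - p) t := by
        simpa using ((hasDerivAt_id t).smul_const (p' - p)).const_add p
      rw [← fderiv_eq_dot]
      exact (hu.diff hU (hm t ht)).hasFDerivAt.comp_hasDerivAt t h1
  have hi2 : IntervalIntegrable (fun t : ℝ => (p' - p) ⬝ᵥ gr u (p + t • (p' - p)) - c)
      volume 0 1 := hi.sub intervalIntegrable_const
  refine (intervalIntegral.integral_mono_on zero_le_one (compl_cont_integrand hU hu hγ hm)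
    ((intervalIntegrable_const (c := √((p' - p) ⬝ᵥ (p' - p)) + |c|)).add (hi2.const_mul ε))
    fun t ht => ?_).trans_eq ?_
  · simp only [hd]
    have e1 : ∑ i, (p' - p) i ^ 2 = (p' - p) ⬝ᵥ (p' - p) :=
      Finset.sum_congr rfl fun i _ => sq _
    have e2 : ∑ i, pd i u (p + t • (p' - p)) * (p' - p) i =
        (p' - p) ⬝ᵥ gr u (p + t • (p' - p)) := Finset.sum_congr rfl fun i _ => mul_comm _ _
    rw [e1, e2]
    have e3 := hs t ht
    set B := (p' - p) ⬝ᵥ gr u (p + t • (p' - p))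
    have e4 : 0 ≤ (p' - p) ⬝ᵥ (p' - p) := e1 ▸ Finset.sum_nonneg fun _ _ => sq_nonneg _
    set A := (p' - p) ⬝ᵥ (p' - p)
    have e5 : ε * (B - c) = |B - c| := by
      rw [← abs_of_nonneg e3, abs_mul, hε, one_mul]
    have e6 : |B| ≤ |c| + |B - c| := by
      have := abs_add_le c (B - c)
      rwa [add_sub_cancel] at this
    have e7 : √(A + B ^ 2) ≤ √A + |B| := by
      rw [Real.sqrt_le_left (by positivity), add_sq, Real.sq_sqrt e4, sq_abs]
      have : 0 ≤ 2 * √A * |B| := by positivity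
      linarith
    linarith
  · rw [intervalIntegral.integral_add intervalIntegrable_const (hi2.const_mul ε),
      intervalIntegral.integral_const_mul,
      intervalIntegral.integral_sub hi intervalIntegrable_const, hF]
    simp

theorem compl_breg_seg (h : Good Ω u) (hc : Convex ℝ Ω) {x y : Fin n → ℝ} (hx : x ∈ Ω)
    (hy : y ∈ Ω) {s : ℝ} (h0 : 0 ≤ s) (h1 : s ≤ 1) :
    breg u (y + s • (x - y)) y ≤ s * breg u x y := by
  have e := (h.convexOn hc).2 hy hx (sub_nonneg.2 h1) h0 (sub_add_cancel 1 s)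
  have e2 : (1 - s) • y + s • x = y + s • (x - y) := by module
  rw [e2] at e
  simp only [breg, add_sub_cancel_left, dotProduct_smul, smul_eq_mul] at e ⊢
  linarith

theorem compl_cont_breg (h : Good Ω u) {x : Fin n → ℝ} (hx : x ∈ Ω) (y : Fin n → ℝ) :
    ContinuousAt (fun z => breg u z y) x := by
  have h1 := (h.sm.at h.op hx).continuousAt
  have h2 : Continuous fun z : Fin n → ℝ => gr u y ⬝ᵥ (z - y) := by fun_prop
  exact (h1.sub continuousAt_const).sub h2.continuousAt

theorem compl_mem_of_closure (h : Good Ω u) (hc : Convex ℝ Ω) (hcomp : EucComplete Ω u)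
    {y b : Fin n → ℝ} (hy : y ∈ Ω) {t : ℝ}
    (hb : b ∈ closure {x | x ∈ Ω ∧ breg u x y ≤ t}) : b ∈ Ω := by
  have hb' : b ∈ closure Ω := closure_mono (fun x hx => hx.1) hb
  set d := b - y with hd
  have ha : ∀ s : ℝ, 0 ≤ s → s < 1 → y + s • d ∈ Ω := by
    intro s h0 h1
    have := hc.add_smul_sub_mem_interior' hb' (h.op.interior_eq.symm ▸ hy)
      (t := 1 - s) ⟨by linarith, by linarith⟩
    rw [h.op.interior_eq] at this
    have e : b + (1 - s) • (y - b) = y + s • d := by
      rw [hd]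
      module
    rwa [e] at this
  have hbd : ∀ s : ℝ, 0 ≤ s → s < 1 → breg u (y + s • d) y ≤ |t| := by
    intro s h0 h1
    have c1 : ContinuousAt (fun x : Fin n → ℝ => breg u (y + s • (x - y)) y) b :=
      ContinuousAt.comp (f := fun x : Fin n → ℝ => y + s • (x - y))
        (g := fun z => breg u z y) (compl_cont_breg h (ha s h0 h1) y) (by fun_prop)
    refine ContinuousWithinAt.closure_le hb c1.continuousWithinAt continuousWithinAt_const
      fun x hx => (compl_breg_seg h hc hx.1 hy h0 h1.le).trans ?_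
    have := hx.2.trans (le_abs_self t)
    have := abs_nonneg t
    nlinarith
  have hmono : ∀ s s' : ℝ, 0 ≤ s → s ≤ s' → s' < 1 →
      breg u (y + s • d) y ≤ breg u (y + s' • d) y := by
    intro s s' h0 h1 h2
    rcases (h0.trans h1).eq_or_lt with h3 | h3
    · rw [le_antisymm h1 (h3 ▸ h0)]
    have e1 := compl_breg_seg h hc (ha s' h3.le h2) hy (div_nonneg h0 h3.le)
      ((div_le_one h3).2 h1)
    rw [add_sub_cancel_left, smul_smul, div_mul_cancel₀ _ h3.ne'] at e1
    exact e1.trans (mul_le_of_le_one_left (h.breg_nonneg hc (ha s' h3.le h2) hy)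
      ((div_le_one h3).2 h1))
  have hder : ∀ s : ℝ, 0 ≤ s → s < 1 → 0 ≤ d ⬝ᵥ gr u (y + s • d) - d ⬝ᵥ gr u y := by
    intro s h0 h1
    rcases h0.eq_or_lt with h3 | h3
    · simp [← h3]
    have e1 := h.breg_nonneg hc (ha s h0 h1) hy
    have e2 := h.breg_nonneg hc hy (ha s h0 h1)
    simp only [breg, add_sub_cancel_left, sub_add_cancel_left, dotProduct_neg, dotProduct_smul,
      smul_eq_mul] at e1 e2
    rw [dotProduct_comm d, dotProduct_comm d]
    refine nonneg_of_mul_nonneg_right ?_ h3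
    linarith
  set C := √(d ⬝ᵥ d) + |d ⬝ᵥ gr u y| with hC
  have hlen : ∀ s s' : ℝ, 0 ≤ s → s < 1 → 0 ≤ s' → s' < 1 →
      gdist Ω u (y + s • d) (y + s' • d) ≤
        C * |s' - s| + |breg u (y + s' • d) y - breg u (y + s • d) y| := by
    intro s s' h0 h1 h0' h1'
    have e0 : y + s' • d - (y + s • d) = (s' - s) • d := by module
    obtain ⟨ε, hε, hε'⟩ : ∃ ε : ℝ, |ε| = 1 ∧ 0 ≤ ε * (s' - s) := by
      rcases le_total s s' with h2 | h2
      · exact ⟨1, abs_one, by linarith⟩
      · exact ⟨-1, by simp, by linarith⟩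
    refine (compl_seg_le h.op h.sm hc (ha s h0 h1) (ha s' h0' h1')
      (c := (s' - s) * (d ⬝ᵥ gr u y)) hε fun τ hτ => ?_).trans ?_
    · rw [e0, smul_smul, add_assoc, ← add_smul, smul_dotProduct, smul_eq_mul, ← mul_sub,
        ← mul_assoc]
      refine mul_nonneg hε' (hder _ ?_ ?_)
      · nlinarith [hτ.1, hτ.2]
      · rcases le_total s s' with h2 | h2 <;> nlinarith [hτ.1, hτ.2]
    · have e1 : √(((s' - s) • d) ⬝ᵥ ((s' - s) • d)) = |s' - s| * √(d ⬝ᵥ d) := by
        rw [smul_dotProduct, dotProduct_smul, smul_eq_mul, smul_eq_mul, ← mul_assoc,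
          Real.sqrt_mul (mul_self_nonneg _), Real.sqrt_mul_self_eq_abs]
      have e2 : u (y + s' • d) - u (y + s • d) - (s' - s) * (d ⬝ᵥ gr u y) =
          breg u (y + s' • d) y - breg u (y + s • d) y := by
        simp only [breg, add_sub_cancel_left, dotProduct_smul, smul_eq_mul,
          dotProduct_comm d]
        ring
      rw [e0, e1, e2, abs_mul]
      have e3 := le_abs_self (ε * (breg u (y + s' • d) y - breg u (y + s • d) y))
      rw [abs_mul, hε, one_mul] at e3
      rw [hC]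
      linarith
  let s : ℕ → ℝ := fun k => 1 - 1 / ((k : ℝ) + 1)
  have s0 : ∀ k, 0 ≤ s k := fun k => by
    have : 1 / ((k : ℝ) + 1) ≤ 1 := by
      rw [div_le_one (by positivity)]
      linarith [Nat.cast_nonneg (α := ℝ) k]
    simp only [s]
    linarith
  have s1 : ∀ k, s k < 1 := fun k => by
    have : 0 < 1 / ((k : ℝ) + 1) := by positivity
    simp only [s]
    linarith
  have sm : Monotone s := fun k l hkl => by
    have : 1 / ((l : ℝ) + 1) ≤ 1 / ((k : ℝ) + 1) := by gcongr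
    simp only [s]
    linarith
  have st : Filter.Tendsto s Filter.atTop (nhds 1) := by
    have := tendsto_one_div_add_atTop_nhds_zero_nat.const_sub (1 : ℝ)
    rwa [sub_zero] at this
  have gt := tendsto_atTop_ciSup (f := fun k => breg u (y + s k • d) y)
    (fun k l hkl => hmono _ _ (s0 k) (sm hkl) (s1 l))
    ⟨|t|, by rintro _ ⟨k, rfl⟩; exact hbd _ (s0 k) (s1 k)⟩
  have hC0 : 0 ≤ C := by positivity
  obtain ⟨z, hz, hzt⟩ := hcomp (fun k => y + s k • d) (fun k => ha _ (s0 k) (s1 k)) (by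
    intro ε hε
    obtain ⟨N₁, hN₁⟩ := Metric.cauchySeq_iff.1 (st.const_mul C).cauchySeq (ε / 2) (by positivity)
    obtain ⟨N₂, hN₂⟩ := Metric.cauchySeq_iff.1 gt.cauchySeq (ε / 2) (by positivity)
    refine ⟨max N₁ N₂, fun k hk l hl => (hlen _ _ (s0 k) (s1 k) (s0 l) (s1 l)).trans_lt ?_⟩
    have e1 := hN₁ l (le_of_max_le_left hl) k (le_of_max_le_left hk)
    have e2 := hN₂ l (le_of_max_le_right hl) k (le_of_max_le_right hk)
    rw [Real.dist_eq] at e1 e2
    rw [← mul_sub, abs_mul, abs_of_nonneg hC0] at e1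
    linarith)
  have t1 : Filter.Tendsto (fun k => y + s k • d) Filter.atTop (nhds z) :=
    tendsto_iff_dist_tendsto_zero.2 (squeeze_zero (fun _ => dist_nonneg)
      (fun k => compl_norm_le h.op h.sm hc (ha _ (s0 k) (s1 k)) hz) hzt)
  have t2 : Filter.Tendsto (fun k => y + s k • d) Filter.atTop (nhds b) := by
    have := (st.smul_const d).const_add y
    rwa [one_smul, hd, add_sub_cancel] at this
  exact tendsto_nhds_unique t1 t2 ▸ hz

theorem Good.cpt_of_complete (h : Good Ω u) (hc : Convex ℝ Ω) (hcomp : EucComplete Ω u) :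
    ∀ y ∈ Ω, ∀ t : ℝ, IsCompact {x | x ∈ Ω ∧ breg u x y ≤ t} := by
  intro y hy t
  refine Metric.isCompact_of_isClosed_isBounded ?_ ?_
  · refine isClosed_of_closure_subset fun b hb => ?_
    have hb' := compl_mem_of_closure h hc hcomp hy hb
    exact ⟨hb', ContinuousWithinAt.closure_le hb (compl_cont_breg h hb' y).continuousWithinAt
      continuousWithinAt_const fun x hx => hx.2⟩
  · obtain ⟨ρ, hρ, hball⟩ := Metric.nhds_basis_closedBall.mem_iff.1 (h.op.mem_nhds hy)
    have hS : Metric.sphere y ρ ⊆ Ω := Metric.sphere_subset_closedBall.trans hball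
    obtain ⟨m, hm0, hm⟩ := (isCompact_sphere y ρ).exists_forall_le'
      (f := fun z => breg u z y) (a := 0)
      (fun z hz => (compl_cont_breg h (hS hz) y).continuousWithinAt)
      (fun z hz => h.breg_pos hc (hS hz) hy (by
        rintro rfl
        rw [Metric.mem_sphere, dist_self] at hz
        exact hρ.ne hz))
    refine (Metric.isBounded_closedBall (x := y) (r := max ρ (ρ * t / m))).subset
      fun x hx => ?_
    rw [Metric.mem_closedBall, dist_eq_norm]
    by_cases hxy : ‖x - y‖ ≤ ρ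
    · exact le_max_of_le_left hxy
    refine le_max_of_le_right ?_
    have h1 := not_le.1 hxy
    have h2 : 0 < ‖x - y‖ := hρ.trans h1
    have h3 := compl_breg_seg h hc hx.1 hy (s := ρ / ‖x - y‖) (by positivity)
      ((div_le_one h2).2 h1.le)
    have h4 := hm (y + (ρ / ‖x - y‖) • (x - y)) (by
      rw [mem_sphere_iff_norm, add_sub_cancel_left, norm_smul, Real.norm_of_nonneg (by positivity),
        div_mul_cancel₀ _ h2.ne'])
    have h5 : m ≤ ρ / ‖x - y‖ * t :=
      h4.trans (h3.trans (mul_le_mul_of_nonneg_left hx.2 (by positivity)))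
    rw [div_mul_eq_mul_div, le_div_iff₀ h2] at h5
    rw [le_div_iff₀ hm0]
    linarith

theorem complete_univ (hu : ContDiff ℝ ∞ u) : EucComplete Set.univ u := by
  intro x _ hx
  have hs : Sm Set.univ u := hu.contDiffOn
  have hcs : CauchySeq x := by
    refine Metric.cauchySeq_iff.2 fun ε hε => ?_
    obtain ⟨N, hN⟩ := hx ε hε
    exact ⟨N, fun k hk l hl =>
      (compl_norm_le isOpen_univ hs convex_univ trivial trivial).trans_lt (hN k hk l hl)⟩
  obtain ⟨y, hy⟩ := cauchySeq_tendsto_of_complete hcs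
  refine ⟨y, trivial, ?_⟩
  have hg : Continuous (gr u) := continuousOn_univ.1 (hs.gr isOpen_univ).continuousOn
  obtain ⟨R, hR⟩ := (isCompact_closedBall y 1).exists_bound_of_continuousOn hg.continuousOn
  let φ : (Fin n → ℝ) → ℝ := fun p => √((y - p) ⬝ᵥ (y - p)) + |-(n * (‖y - p‖ * R))| +
    1 * (u y - u p - -(n * (‖y - p‖ * R)))
  have hφ : Continuous φ := by
    have := hu.continuous
    fun_prop
  have hφ0 : φ y = 0 := by simp [φ]
  have ht := (hφ.tendsto y).comp hy
  rw [hφ0] at ht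
  refine squeeze_zero' (Filter.Eventually.of_forall fun _ => compl_gdist_nonneg _ _) ?_ ht
  filter_upwards [hy (Metric.closedBall_mem_nhds y one_pos)] with k hk
  refine compl_seg_le isOpen_univ hs convex_univ trivial trivial abs_one fun τ hτ => ?_
  have h1 := hR _ ((convex_closedBall y 1).add_smul_sub_mem hk
    (Metric.mem_closedBall_self zero_le_one) hτ)
  have h2 : ∀ i ∈ Finset.univ, -(‖y - x k‖ * R) ≤
      (y - x k) i * gr u (x k + τ • (y - x k)) i := by
    intro i _
    refine neg_le_of_abs_le ?_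
    rw [abs_mul]
    exact mul_le_mul (norm_le_pi_norm (y - x k) i) ((norm_le_pi_norm _ i).trans h1)
      (abs_nonneg _) (norm_nonneg _)
  have h3 := Finset.card_nsmul_le_sum _ _ _ h2
  rw [Finset.card_univ, Fintype.card_fin, nsmul_eq_mul] at h3
  rw [dotProduct]
  linarith

end Vale.Agent.P252
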