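import Vale.Agent.P252.B.Calc

open Matrix MeasureTheory
open scoped ContDiff

namespace Vale.Agent.P252

variable {n : ℕ} {U : Set (Fin n → ℝ)} {u F : (Fin n → ℝ) → ℝ} {x y : Fin n → ℝ}

theorem conv_line {e : Fin n → ℝ} {t : ℝ} (hd : DifferentiableAt ℝ F (y + t • e)) :
    HasDerivAt (fun s : ℝ => F (y + s • e)) (dd e F (y + t • e)) t := by
  have h1 : HasDerivAt (fun s : ℝ => y + s • e) e t := by
    simpa using ((hasDerivAt_id t).smul_const e).const_add y
  rw [dd_eq_fderiv]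
  exact hd.hasFDerivAt.comp_hasDerivAt t h1

theorem conv_line2 {e : Fin n → ℝ} {t : ℝ} (hU : IsOpen U) (hF : Sm U F) (hm : y + t • e ∈ U) :
    HasDerivAt (fun s : ℝ => dd e F (y + s • e)) (q2 F e (y + t • e)) t := by
  have h1 := conv_line (e := e) ((hF.dd hU e).diff hU hm)
  have h2 : dd e (dd e F) (y + t • e) = q2 F e (y + t • e) := by
    rw [dd, gr_dd hU hF hm, q2]
  rwa [h2] at h1

theorem Good.breg_pos (h : Good U u) (hc : Convex ℝ U) (hx : x ∈ U) (hy : y ∈ U) (hxy : x ≠ y) :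
    0 < breg u x y := by
  have he : x - y ≠ 0 := sub_ne_zero.2 hxy
  have hm : ∀ t ∈ Set.Icc (0 : ℝ) 1, y + t • (x - y) ∈ U := fun t ht =>
    hc.add_smul_sub_mem hy hx ht
  have d1 : ∀ t ∈ Set.Icc (0 : ℝ) 1, HasDerivAt (fun s : ℝ => u (y + s • (x - y)))
      (dd (x - y) u (y + t • (x - y))) t := fun t ht => conv_line (h.sm.diff h.op (hm t ht))
  have d2 : ∀ t ∈ Set.Icc (0 : ℝ) 1, HasDerivAt (fun s : ℝ => dd (x - y) u (y + s • (x - y)))
      (q2 u (x - y) (y + t • (x - y))) t := fun t ht => conv_line2 h.op h.sm (hm t ht)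
  obtain ⟨c, hc1, hc2⟩ := exists_hasDerivAt_eq_slope (fun s : ℝ => u (y + s • (x - y)))
    (fun t => dd (x - y) u (y + t • (x - y))) zero_lt_one
    (fun t ht => (d1 t ht).continuousAt.continuousWithinAt)
    (fun t ht => d1 t (Set.Ioo_subset_Icc_self ht))
  have hsub : Set.Icc (0 : ℝ) c ⊆ Set.Icc 0 1 := Set.Icc_subset_Icc_right hc1.2.le
  obtain ⟨d, hd1, hd2⟩ := exists_hasDerivAt_eq_slope
    (fun s : ℝ => dd (x - y) u (y + s • (x - y)))
    (fun t => q2 u (x - y) (y + t • (x - y))) hc1.1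
    (fun t ht => (d2 t (hsub ht)).continuousAt.continuousWithinAt)
    (fun t ht => d2 t (hsub (Set.Ioo_subset_Icc_self ht)))
  have hq := h.q2_pos (hm d (hsub (Set.Ioo_subset_Icc_self hd1))) he
  rw [hd2, hc2] at hq
  have hq2 := (div_pos_iff_of_pos_right (sub_pos.2 hc1.1)).1 hq
  simp only [one_smul, add_sub_cancel, zero_smul, add_zero, sub_zero, div_one, dd] at hq2
  rw [breg, dotProduct_comm]
  exact hq2

theorem Good.breg_nonneg (h : Good U u) (hc : Convex ℝ U) (hx : x ∈ U) (hy : y ∈ U) :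
    0 ≤ breg u x y := by
  by_cases hxy : x = y
  · simp [breg, hxy]
  · exact (h.breg_pos hc hx hy hxy).le

theorem Good.convexOn (h : Good U u) (hc : Convex ℝ U) : ConvexOn ℝ U u := by
  refine ⟨hc, fun x hx y hy a b ha hb hab => ?_⟩
  have hz := hc hx hy ha hb hab
  have h1 := h.breg_nonneg hc hx hz
  have h2 := h.breg_nonneg hc hy hz
  have h3 : a • (x - (a • x + b • y)) + b • (y - (a • x + b • y)) = 0 := by
    rw [smul_sub, smul_sub, sub_add_sub_comm, ← add_smul, hab, one_smul, sub_self]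
  have h4 : a * (gr u (a • x + b • y) ⬝ᵥ (x - (a • x + b • y)))
      + b * (gr u (a • x + b • y) ⬝ᵥ (y - (a • x + b • y))) = 0 := by
    rw [← smul_eq_mul, ← smul_eq_mul, ← dotProduct_smul, ← dotProduct_smul, ← dotProduct_add, h3,
      dotProduct_zero]
  simp only [breg] at h1 h2
  have h5 := mul_nonneg ha h1
  have h6 := mul_nonneg hb h2
  have h7 : u (a • x + b • y) = a * u (a • x + b • y) + b * u (a • x + b • y) := by
    rw [← add_mul, hab, one_mul]
  simp only [smul_eq_mul]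
  nlinarith

theorem Good.convex_sub (h : Good U u) (hc : Convex ℝ U) (a : ℝ) : Convex ℝ (sub U u a) := by
  exact (h.convexOn hc).convex_le a

theorem Good.isCompact_sub (h : Good U u) {a b : ℝ} (hab : a ≤ b) (hb : IsCompact (sub U u b)) :
    IsCompact (sub U u a) := by
  have hcont : ContinuousOn u (sub U u b) := h.sm.continuousOn.mono fun x hx => hx.1
  have h1 : IsClosed (sub U u b ∩ u ⁻¹' Set.Iic a) :=
    hcont.preimage_isClosed_of_isClosed hb.isClosed isClosed_Iic
  have h2 : sub U u a = sub U u b ∩ u ⁻¹' Set.Iic a := by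
    ext x
    exact ⟨fun hx => ⟨⟨hx.1, hx.2.trans hab⟩, hx.2⟩, fun hx => ⟨hx.1.1, hx.2⟩⟩
  rw [h2]
  exact hb.of_isClosed_subset h1 Set.inter_subset_left

theorem Good.gr_injOn (h : Good U u) (hc : Convex ℝ U) : Set.InjOn (gr u) U := by
  intro x hx y hy hxy
  by_contra hne
  have h1 := h.breg_pos hc hx hy hne
  have h2 := h.breg_pos hc hy hx (Ne.symm hne)
  simp only [breg, hxy, dotProduct_sub] at h1 h2
  linarith

/-- The Monge-Ampere mass is bounded by the volume of the gradient image. -/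
theorem Good.integral_det_le (h : Good U u) (hc : Convex ℝ U) {K : Set (Fin n → ℝ)}
    (hK : IsCompact K) (hKU : K ⊆ U) {R : ℝ} (hR : 0 ≤ R) (hg : ∀ x ∈ K, ‖gr u x‖ ≤ R) :
    ∫ x in K, (hess u x).det ≤ (2 * R) ^ n := by
  have h1 := integral_image_eq_integral_abs_det_fderiv_smul volume hK.measurableSet
    (fun x hx => (hasFDerivAt_gr h.op h.sm (hKU hx)).hasFDerivWithinAt)
    ((h.gr_injOn hc).mono hKU) (fun _ => (1 : ℝ))
  have h2 : ∫ x in K, (hess u x).det = ∫ x in K,
      |(LinearMap.toContinuousLinearMap (Matrix.toLin' (hess u x))).det| • (1 : ℝ) := by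
    refine setIntegral_congr_fun hK.measurableSet fun x hx => ?_
    simp only [ContinuousLinearMap.det, LinearMap.coe_toContinuousLinearMap, LinearMap.det_toLin',
      smul_eq_mul, mul_one, abs_of_pos (h.det_pos (hKU hx))]
  rw [h2, ← h1]
  have h3 : gr u '' K ⊆ Metric.closedBall 0 R := by
    rintro _ ⟨x, hx, rfl⟩
    exact mem_closedBall_zero_iff.2 (hg x hx)
  have h4 : volume (gr u '' K) ≤ ENNReal.ofReal ((2 * R) ^ n) := by
    have h5 := Real.volume_pi_closedBall (0 : Fin n → ℝ) hR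
    rw [Fintype.card_fin] at h5
    rw [← h5]
    exact measure_mono h3
  rw [setIntegral_const, smul_eq_mul, mul_one, Measure.real]
  exact ENNReal.toReal_le_of_le_ofReal (by positivity) h4

theorem gr_eq_zero_of_isLocalMax (hm : IsLocalMax F x) : gr F x = 0 := by
  ext i
  simp [gr, pd, hm.fderiv_eq_zero]

theorem hess_nonpos_of_isLocalMax (hU : IsOpen U) (hF : Sm U F) (hx : x ∈ U)
    (hm : IsLocalMax F x) : (-hess F x).PosSemidef := by
  refine Matrix.PosSemidef.of_dotProduct_mulVec_nonneg ?_ fun e => ?_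
  · have hs := hess_symm hU hF hx
    rw [Matrix.IsHermitian, conjTranspose_eq_transpose_of_trivial, transpose_neg, hs.eq]
  · rw [star_trivial, neg_mulVec, dotProduct_neg, neg_nonneg]
    by_contra hq
    have hq' : 0 < q2 F e x := lt_of_not_ge hq
    have hc : Continuous fun s : ℝ => x + s • e := by fun_prop
    have ht : Filter.Tendsto (fun s : ℝ => x + s • e) (nhds 0) (nhds x) := by
      have := hc.tendsto 0
      rwa [zero_smul, add_zero] at this
    have hmem : ∀ᶠ s : ℝ in nhds 0, x + s • e ∈ U := ht.eventually (hU.mem_nhds hx)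
    have hx0 : x + (0 : ℝ) • e ∈ U := hmem.self_of_nhds
    have h1 : deriv (fun s : ℝ => F (x + s • e)) =ᶠ[nhds 0] fun s : ℝ => dd e F (x + s • e) := by
      filter_upwards [hmem] with s hs
      exact (conv_line (hF.diff hU hs)).deriv
    have h2 : deriv (deriv (fun s : ℝ => F (x + s • e))) 0 = q2 F e x := by
      rw [h1.deriv_eq, (conv_line2 hU hF hx0).deriv, zero_smul, add_zero]
    have h3 : deriv (fun s : ℝ => F (x + s • e)) 0 = 0 := by
      rw [h1.self_of_nhds]
      simp [dd, gr_eq_zero_of_isLocalMax hm]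
    have hmin : IsLocalMin (fun s : ℝ => F (x + s • e)) 0 :=
      isLocalMin_of_deriv_deriv_pos (h2 ▸ hq') h3 (conv_line (hF.diff hU hx0)).continuousAt
    have hconst : (fun s : ℝ => F (x + s • e)) =ᶠ[nhds 0] fun _ => F x := by
      filter_upwards [hmin, ht.eventually hm] with s h4 h5
      rw [zero_smul, add_zero] at h4
      exact le_antisymm h5 h4
    have h6 : deriv (deriv (fun s : ℝ => F (x + s • e))) 0 = 0 := by
      rw [hconst.deriv.deriv_eq]
      simp
    rw [h2] at h6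
    exact hq'.ne' h6

theorem Good.Lop_nonpos_of_isLocalMax (h : Good U u) (hF : Sm U F) (hx : x ∈ U)
    (hm : IsLocalMax F x) : Lop u F x ≤ 0 := by
  have h1 := trace_mul_nonneg (h.pos x hx).inv.posSemidef (hess_nonpos_of_isLocalMax h.op hF hx hm)
  rw [Matrix.mul_neg, Matrix.trace_neg, neg_nonneg] at h1
  exact h1

/-- A function with constant Hessian on a convex open set is quadratic there. -/
theorem quadratic_of_hess_const (hU : IsOpen U) (hc : Convex ℝ U) (hF : Sm U F)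
    {A : Matrix (Fin n) (Fin n) ℝ} (hA : ∀ x ∈ U, hess F x = A) :
    ∃ (b : Fin n → ℝ) (c : ℝ), ∀ x ∈ U, F x = (1 / 2) * (x ⬝ᵥ A *ᵥ x) + b ⬝ᵥ x + c := by
  rcases U.eq_empty_or_nonempty with rfl | ⟨x₀, hx₀⟩
  · exact ⟨0, 0, fun x hx => hx.elim⟩
  have hs : A.IsSymm := hA x₀ hx₀ ▸ hess_symm hU hF hx₀
  have hL : ∀ x : Fin n → ℝ, HasFDerivAt (fun y : Fin n → ℝ => A *ᵥ y)
      (LinearMap.toContinuousLinearMap (Matrix.toLin' A)) x := fun x =>
    (LinearMap.toContinuousLinearMap (Matrix.toLin' A)).hasFDerivAt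
  have hG : ∀ x ∈ U, HasFDerivAt (fun y => gr F y - A *ᵥ y)
      (0 : (Fin n → ℝ) →L[ℝ] (Fin n → ℝ)) x := fun x hx => by
    have h1 := (hasFDerivAt_gr hU hF hx).fun_sub (hL x)
    rwa [hA x hx, sub_self] at h1
  obtain ⟨b, hb⟩ := hU.exists_is_const_of_fderiv_eq_zero (𝕜 := ℝ) hc.isPreconnected
    (fun x hx => (hG x hx).differentiableAt.differentiableWithinAt) (fun x hx => (hG x hx).fderiv)
  have hQ : ∀ x : Fin n → ℝ, DifferentiableAt ℝ (fun y : Fin n → ℝ => y ⬝ᵥ A *ᵥ y) x ∧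
      gr (fun y : Fin n → ℝ => y ⬝ᵥ A *ᵥ y) x = (2 : ℝ) • A *ᵥ x := fun x => by
    have d : ∀ i, DifferentiableAt ℝ (fun y : Fin n → ℝ => y i) x := fun i =>
      differentiableAt_apply i x
    have e1 : (fun y : Fin n → ℝ => y ⬝ᵥ A *ᵥ y) = fun y => ∑ i, y i * (A.row i ⬝ᵥ y) := rfl
    rw [e1]
    refine ⟨DifferentiableAt.fun_sum fun i _ => (d i).fun_mul (diff_dot _ _), ?_⟩
    rw [gr_sum _ fun i _ => (d i).fun_mul (diff_dot (A.row i) x)]
    simp only [gr_mul (d _) (diff_dot _ _), gr_coord, gr_dot]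
    ext j
    have e2 : ∑ i, x i * A i j = (A *ᵥ x) j :=
      Finset.sum_congr rfl fun i _ => by rw [mul_comm, hs.apply j i]
    have e3 : (A.row j ⬝ᵥ x) = (A *ᵥ x) j := rfl
    simp [Finset.sum_apply, Pi.single_apply, Finset.sum_add_distrib, e2, e3, two_mul]
  have hd : ∀ x ∈ U, DifferentiableAt ℝ
      (fun y => F y - ((1 / 2) * (y ⬝ᵥ A *ᵥ y) + b ⬝ᵥ y)) x := fun x hx =>
    (hF.diff hU hx).fun_sub (((hQ x).1.const_mul _).fun_add (diff_dot _ _))
  obtain ⟨c, hc'⟩ := hU.exists_is_const_of_fderiv_eq_zero (𝕜 := ℝ) hc.isPreconnected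
    (fun x hx => (hd x hx).differentiableWithinAt) (fun x hx => by
      ext v
      rw [fderiv_eq_dot, gr_sub (hF.diff hU hx) (((hQ x).1.const_mul _).fun_add (diff_dot _ _)),
        gr_add ((hQ x).1.const_mul _) (diff_dot _ _), gr_const_mul _ (hQ x).1, (hQ x).2, gr_dot,
        ← hb x hx, smul_smul]
      simp)
  exact ⟨b, c, fun x hx => by rw [← hc' x hx]; ring⟩

end Vale.Agent.P252
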