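import Vale.Agent.P252.B.IBP
import Vale.Agent.P252.B.Conv
import Vale.Agent.P252.B.Cert

open Matrix MeasureTheory
open scoped ContDiff

namespace Vale.Agent.P252

variable {n : ℕ} {U K : Set (Fin n → ℝ)} {u ζ W F f g : (Fin n → ℝ) → ℝ} {e x : Fin n → ℝ}

/-- Integrable on `K` with integral zero. -/
def ZI (K : Set (Fin n → ℝ)) (f : (Fin n → ℝ) → ℝ) : Prop := IntegrableOn f K ∧ ∫ x in K, f x = 0

theorem ZI.add (hf : ZI K f) (hg : ZI K g) : ZI K (fun x => f x + g x) :=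
  ⟨hf.1.add hg.1, by rw [integral_add hf.1 hg.1, hf.2, hg.2, add_zero]⟩

theorem ZI.sub (hf : ZI K f) (hg : ZI K g) : ZI K (fun x => f x - g x) :=
  ⟨hf.1.sub hg.1, by rw [integral_sub hf.1 hg.1, hf.2, hg.2, sub_zero]⟩

theorem ZI.smul (c : ℝ) (hf : ZI K f) : ZI K (fun x => c * f x) :=
  ⟨hf.1.const_mul c, by rw [integral_const_mul, hf.2, mul_zero]⟩

theorem ZI.integral_nonpos (hf : ZI K f) (hK : MeasurableSet K) (hg : IntegrableOn g K)
    (h : ∀ x ∈ K, g x ≤ f x) : ∫ x in K, g x ≤ 0 := by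
  rw [← hf.2]; exact setIntegral_mono_on hg hf.1 hK h

/-- The integrand of `ibp_dir`. -/
noncomputable def JD (ζ : (Fin n → ℝ) → ℝ) (k : ℕ) (e : Fin n → ℝ) (G : (Fin n → ℝ) → ℝ)
    (x : Fin n → ℝ) : ℝ :=
  ζ x ^ (k + 2) * dd e G x + ((k : ℝ) + 2) * ζ x ^ (k + 1) * G x * dd e ζ x

/-- The integrand of `ibp_Lop`. -/
noncomputable def JL (u ζ : (Fin n → ℝ) → ℝ) (k : ℕ) (G F : (Fin n → ℝ) → ℝ)
    (x : Fin n → ℝ) : ℝ :=
  (hess u x).det * (ζ x ^ (k + 2) * (ip u x (gr G x) (gr F x) + G x * Lop u F x)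
    + ((k : ℝ) + 2) * ζ x ^ (k + 1) * G x * ip u x (gr ζ x) (gr F x))

theorem ZI_JD (hU : IsOpen U) (hζ : Sm U ζ) (hK : IsCompact {x | x ∈ U ∧ 0 ≤ ζ x})
    (hG : Sm U W) (k : ℕ) (e : Fin n → ℝ) : ZI {x | x ∈ U ∧ 0 ≤ ζ x} (JD ζ k e W) := by
  refine ⟨Sm.integrableOn (U := U) ?_ hK fun x hx => hx.1, ibp_dir hU hζ hK hG k e⟩
  exact ((hζ.pow _).mul (hG.dd hU e)).add
    (((contDiffOn_const.mul (hζ.pow _)).mul hG).mul (hζ.dd hU e))

theorem ZI_JL (h : Good U u) (hζ : Sm U ζ) (hK : IsCompact {x | x ∈ U ∧ 0 ≤ ζ x})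
    (hG : Sm U W) (hF : Sm U F) (k : ℕ) : ZI {x | x ∈ U ∧ 0 ≤ ζ x} (JL u ζ k W F) := by
  refine ⟨Sm.integrableOn (U := U) ?_ hK fun x hx => hx.1, ibp_Lop h hζ hK hG hF k⟩
  exact (h.sm.det h.op).mul (((hζ.pow _).mul ((h.sm_ip hG hF).add (hG.mul (h.sm_Lop hF)))).add
    (((contDiffOn_const.mul (hζ.pow _)).mul hG).mul (h.sm_ip hζ hF)))

/-- Logarithmic gradient of the cut-off. -/
noncomputable def cutY (ζ : (Fin n → ℝ) → ℝ) (k : ℕ) (x : Fin n → ℝ) : Fin n → ℝ :=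
  (((k : ℝ) + 2) / ζ x) • gr ζ x

theorem JD_eq (k : ℕ) (hz : ζ x ≠ 0) :
    JD ζ k e W x = ζ x ^ (k + 2) * (dd e W x + W x * (cutY ζ k x ⬝ᵥ e)) := by
  simp only [JD, cutY, dd, smul_dotProduct, smul_eq_mul, dotProduct_comm e (gr ζ x)]
  field_simp
  ring

theorem JL_eq (k : ℕ) (hz : ζ x ≠ 0) :
    JL u ζ k W F x = (hess u x).det * ζ x ^ (k + 2) *
      (ip u x (gr W x + W x • cutY ζ k x) (gr F x) + W x * Lop u F x) := by
  simp only [JL, cutY, ip_add_left, ip_smul_left]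
  field_simp
  ring

theorem JD_zero (k : ℕ) (hz : ζ x = 0) : JD ζ k e W x = 0 := by simp [JD, hz]

theorem JL_zero (k : ℕ) (hz : ζ x = 0) : JL u ζ k W F x = 0 := by simp [JL, hz]

theorem dd_inv' (hf : DifferentiableAt ℝ f x) (h0 : f x ≠ 0) :
    dd e (fun y => (f y)⁻¹) x = -((f x) ^ 2)⁻¹ * dd e f x := by
  simp [dd, gr_inv hf h0]

theorem dd_eq (f : (Fin n → ℝ) → ℝ) : dd e f x = gr f x ⬝ᵥ e := dotProduct_comm _ _

theorem Good.dd_det' (h : Good U u) (hx : x ∈ U) :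
    dd e (fun y => (hess u y).det) x = (hess u x).det * (gr (ld u) x ⬝ᵥ e) := by
  rw [h.dd_det hx, h.Lop_dd hx, dd_eq]

/-- `log u_ee`. -/
noncomputable def lq (u : (Fin n → ℝ) → ℝ) (e : Fin n → ℝ) (y : Fin n → ℝ) : ℝ :=
  Real.log (q2 u e y)

theorem Good.sm_lq (h : Good U u) (he : e ≠ 0) : Sm U (lq u e) :=
  (h.sm.q2 h.op e).log fun _ hx => (h.q2_pos hx he).ne'

theorem Good.dd_q2 (h : Good U u) (hx : x ∈ U) (he : e ≠ 0) :
    dd e (q2 u e) x = q2 u e x * (gr (lq u e) x ⬝ᵥ e) := by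
  have hq := h.q2_pos hx he
  rw [show lq u e = fun y => Real.log (q2 u e y) from rfl,
    gr_log ((h.sm.q2 h.op e).diff h.op hx) hq.ne', smul_dotProduct, smul_eq_mul, dd_eq]
  field_simp

/-- One-directional identity with a factor `V / u_ee`. -/
theorem JD_quot (h : Good U u) (hx : x ∈ U) (he : e ≠ 0) {V : (Fin n → ℝ) → ℝ} (hW : Sm U W)
    (hV : Sm U V) (k : ℕ) (hz : ζ x ≠ 0) :
    JD ζ k e (fun y => (hess u y).det * W y * V y * (q2 u e y)⁻¹) x
      = (hess u x).det * ζ x ^ (k + 2) *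
        ((V x * ((gr W x + W x • cutY ζ k x) ⬝ᵥ e
            + W x * (gr (ld u) x ⬝ᵥ e - gr (lq u e) x ⬝ᵥ e)) + W x * dd e V x) / q2 u e x) := by
  have hq := h.q2_pos hx he
  have d0 := (h.sm.det h.op).diff h.op hx
  have d1 := hW.diff h.op hx
  have d2 := hV.diff h.op hx
  have d3 := (h.sm.q2 h.op e).diff h.op hx
  rw [JD_eq k hz, dd_mul ((d0.fun_mul d1).fun_mul d2) (d3.fun_inv hq.ne'),
    dd_mul (d0.fun_mul d1) d2, dd_mul d0 d1, dd_inv' d3 hq.ne', h.dd_det' hx, h.dd_q2 hx he,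
    add_dotProduct, smul_dotProduct, smul_eq_mul, dd_eq W]
  field_simp
  ring

theorem sm_quot (h : Good U u) (he : e ≠ 0) {V : (Fin n → ℝ) → ℝ} (hW : Sm U W) (hV : Sm U V) :
    Sm U (fun y => (hess u y).det * W y * V y * (q2 u e y)⁻¹) :=
  (((h.sm.det h.op).mul hW).mul hV).mul
    ((h.sm.q2 h.op e).inv fun _ hx => (h.q2_pos hx he).ne')

/-- One-directional identity without the factor. -/
theorem JD_plain (h : Good U u) (hx : x ∈ U) {V : (Fin n → ℝ) → ℝ} (hW : Sm U W)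
    (hV : Sm U V) (k : ℕ) (hz : ζ x ≠ 0) :
    JD ζ k e (fun y => (hess u y).det * W y * V y) x
      = (hess u x).det * ζ x ^ (k + 2) *
        (V x * ((gr W x + W x • cutY ζ k x) ⬝ᵥ e + W x * (gr (ld u) x ⬝ᵥ e)) + W x * dd e V x) := by
  have d0 := (h.sm.det h.op).diff h.op hx
  have d1 := hW.diff h.op hx
  have d2 := hV.diff h.op hx
  rw [JD_eq k hz, dd_mul (d0.fun_mul d1) d2, dd_mul d0 d1, h.dd_det' hx,
    add_dotProduct, smul_dotProduct, smul_eq_mul, dd_eq W]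
  ring

/-- The Pogorelov combination. -/
noncomputable def JB (u ζ : (Fin n → ℝ) → ℝ) (k : ℕ) (e : Fin n → ℝ) (W : (Fin n → ℝ) → ℝ)
    (x : Fin n → ℝ) : ℝ :=
  JL u ζ k W (lq u e) x
    - JD ζ k e (fun y => (hess u y).det * W y * dd e (ld u) y * (q2 u e y)⁻¹) x

theorem ZI_JB (h : Good U u) (he : e ≠ 0) (hζ : Sm U ζ) (hK : IsCompact {x | x ∈ U ∧ 0 ≤ ζ x})
    (hW : Sm U W) (k : ℕ) : ZI {x | x ∈ U ∧ 0 ≤ ζ x} (JB u ζ k e W) :=
  (ZI_JL h hζ hK hW (h.sm_lq he) k).sub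
    (ZI_JD h.op hζ hK (sm_quot h he hW (h.sm_ld.dd h.op e)) k e)

theorem JB_ge (hn : 2 ≤ n) (h : Good U u) (hx : x ∈ U) (he : e ≠ 0) (hW : Sm U W) (k : ℕ)
    (hz : 0 < ζ x) (hW0 : 0 ≤ W x) {L : Fin n → ℝ} (hL : gr W x + W x • cutY ζ k x = W x • L) :
    (hess u x).det * ζ x ^ (k + 2) * W x * (ip u x L (gr (lq u e) x)
        - (gr (ld u) x ⬝ᵥ e) * (L ⬝ᵥ e + gr (ld u) x ⬝ᵥ e - gr (lq u e) x ⬝ᵥ e) / q2 u e x
        + (ip u x (gr (lq u e) x) (gr (lq u e) x) - (gr (lq u e) x ⬝ᵥ e) ^ 2 / q2 u e x)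
        + (gr (ld u) x ⬝ᵥ e - gr (lq u e) x ⬝ᵥ e) ^ 2 / (((n : ℝ) - 1) * q2 u e x))
      ≤ JB u ζ k e W x := by
  have hp := h.pog hn hx he
  rw [JB, JL_eq k hz.ne', JD_quot h hx he hW (h.sm_ld.dd h.op e) k hz.ne', hL, ip_smul_left,
    smul_dotProduct, smul_eq_mul]
  rw [show (fun y => Real.log (q2 u e y)) = lq u e from rfl, dd_eq (lq u e), dd_eq (ld u)] at hp
  rw [dd_eq (ld u)]
  have h0 : 0 ≤ (hess u x).det * ζ x ^ (k + 2) * W x := by
    have := h.det_pos hx; positivity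
  have := mul_le_mul_of_nonneg_left hp h0
  have hq := (h.q2_pos hx he).ne'
  have e1 : ∀ a b c d : ℝ, (a * (W x * b + W x * (a - c)) + W x * d) / q2 u e x
      = W x * (a * (b + a - c) / q2 u e x + d / q2 u e x) := by
    intro a b c d; field_simp; ring
  rw [e1]
  nlinarith [this]

/-- Splitting of the metric at a point. -/
theorem Good.split (h : Good U u) (hx : x ∈ U) (he : e ≠ 0) :
    ∃ (q : ℝ) (R : Matrix (Fin n) (Fin n) ℝ), 0 < q ∧ q2 u e x = q ^ 2 ∧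
      R *ᵥ (hess u x *ᵥ e) = 0 ∧
      ∀ a b : Fin n → ℝ, ip u x a b
        = (a ⬝ᵥ e / q) * (b ⬝ᵥ e / q) + ∑ i, (R *ᵥ a) i * (R *ᵥ b) i := by
  obtain ⟨R, h1, h2⟩ := orth_decomp (h.pos x hx) he
  have hq := h.q2_pos hx he
  refine ⟨√(q2 u e x), R, Real.sqrt_pos.2 hq, (Real.sq_sqrt hq.le).symm, h1, fun a b => ?_⟩
  rw [ip, h2, div_mul_div_comm, Real.mul_self_sqrt hq.le]; rfl

namespace Hat

variable {t : Fin n → ℝ} {t₀ : ℝ}

theorem e_ne (h : Hat u e t t₀) : e ≠ 0 := by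
  intro he
  have := h.te
  simp [he] at this

theorem xi_pos (h : Hat u e t t₀) (x : Fin n → ℝ) : 0 < 1 - dd e u x := by
  refine sub_pos.2 (lt_of_le_of_ne (h.slope x) fun hx => ?_)
  have hm : IsLocalMax (dd e u) x := Filter.Eventually.of_forall fun y => hx ▸ h.slope y
  have h1 := gr_eq_zero_of_isLocalMax hm
  rw [gr_dd h.good.op h.good.sm (Set.mem_univ x)] at h1
  have h2 := h.good.q2_pos (Set.mem_univ x) h.e_ne
  rw [q2, h1] at h2
  simp at h2

theorem xi_le (h : Hat u e t t₀) (x : Fin n → ℝ) : 1 - dd e u x ≤ 1 + 2 * (n : ℝ) ^ 2 := by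
  have h1 : |dd e u x| ≤ ∑ _i : Fin n, (1 : ℝ) * (2 * n) := by
    show |∑ i, e i * gr u x i| ≤ _
    refine (Finset.abs_sum_le_sum_abs _ _).trans (Finset.sum_le_sum fun i _ => ?_)
    rw [abs_mul]
    exact mul_le_mul ((norm_le_pi_norm e i).trans h.e_le)
      ((norm_le_pi_norm (gr u x) i).trans (h.grad x)) (abs_nonneg _) zero_le_one
  simp only [Finset.sum_const, Finset.card_univ, Fintype.card_fin, nsmul_eq_mul] at h1
  have := neg_abs_le (dd e u x)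
  nlinarith

theorem sm_xi (h : Hat u e t t₀) : Sm Set.univ (fun y => 1 - dd e u y) :=
  contDiffOn_const.sub (h.good.sm.dd h.good.op e)

theorem gr_xi (h : Hat u e t t₀) (x : Fin n → ℝ) :
    gr (fun y => 1 - dd e u y) x = -(hess u x *ᵥ e) := by
  rw [gr_sub (differentiableAt_const _) ((h.good.sm.dd h.good.op e).diff h.good.op trivial),
    gr_const, gr_dd h.good.op h.good.sm trivial, zero_sub]

theorem sm_zeta (h : Hat u e t t₀) : Sm Set.univ (fun y => 2 - u y) :=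
  contDiffOn_const.sub h.good.sm

theorem gr_zeta (h : Hat u e t t₀) (x : Fin n → ℝ) : gr (fun y => 2 - u y) x = -gr u x := by
  rw [gr_sub (differentiableAt_const _) (h.good.sm.diff h.good.op trivial), gr_const, zero_sub]

theorem sub_ball (h : Hat u e t t₀) :
    {x | x ∈ Set.univ ∧ 0 ≤ 2 - u x} ⊆ Metric.closedBall (0 : Fin n → ℝ) 2 := by
  intro x hx
  have := h.norm_le x
  rw [mem_closedBall_zero_iff]
  linarith [hx.2]

theorem cpt (h : Hat u e t t₀) : IsCompact {x | x ∈ Set.univ ∧ 0 ≤ 2 - u x} := by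
  refine (isCompact_closedBall 0 2).of_isClosed_subset ?_ h.sub_ball
  have hc : Continuous u := continuousOn_univ.1 h.good.sm.continuousOn
  simp only [Set.mem_univ, true_and]
  exact isClosed_le continuous_const (continuous_const.sub hc)

theorem gr_lh (h : Hat u e t t₀) (x : Fin n → ℝ) :
    gr (lh u 1 0) x = gr (ld u) x + ((n : ℝ) / th n / u x) • gr u x := by
  have hu : 0 < u x := lt_of_lt_of_le one_pos (h.one_le x)
  have d1 := h.good.sm.diff h.good.op (Set.mem_univ x)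
  have e1 : lh u 1 0 = fun y => ld u y + (n : ℝ) / th n * Real.log (u y) := by
    funext y; simp [lh]
  rw [e1, gr_add (h.good.sm_ld.diff h.good.op trivial) ((d1.log hu.ne').const_mul _),
    gr_const_mul _ (d1.log hu.ne'), gr_log d1 hu.ne', smul_smul, div_eq_mul_inv _ (u x)]

theorem sm_lh (h : Hat u e t t₀) : Sm Set.univ (lh u 1 0) :=
  h.good.sm_lh fun x hx => (h.eqn x hx).1

theorem Lop_lh (h : Hat u e t t₀) (x : Fin n → ℝ) :
    Lop u (lh u 1 0) x = th n * ip u x (gr (lh u 1 0) x) (gr (lh u 1 0) x)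
      - (n : ℝ) * ((n : ℝ) + 2) / (th n * u x) := by
  simpa using (h.eqn x trivial).2

/-- The square root of the determinant is uniformly integrable on the top section. -/
theorem int_sqrt_det (h : Hat u e t t₀) :
    ∫ x in {x | x ∈ Set.univ ∧ 0 ≤ 2 - u x}, √(hess u x).det ≤ 4 ^ n + (4 * n) ^ n := by
  have hK := h.cpt
  have hd := h.good.sm.det h.good.op
  have i1 : IntegrableOn (fun x => (hess u x).det) {x | x ∈ Set.univ ∧ 0 ≤ 2 - u x} :=
    hd.integrableOn hK (Set.subset_univ _)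
  have i0 : IntegrableOn (fun _ => (1 : ℝ)) {x | x ∈ Set.univ ∧ 0 ≤ 2 - u x} :=
    continuousOn_const.integrableOn_compact hK
  have i2 : IntegrableOn (fun x => √(hess u x).det) {x | x ∈ Set.univ ∧ 0 ≤ 2 - u x} :=
    (hd.continuousOn.sqrt.mono (Set.subset_univ _)).integrableOn_compact hK
  have h1 := h.good.integral_det_le convex_univ hK (Set.subset_univ _) (R := 2 * n)
    (by positivity) fun x _ => h.grad x
  have h2 : ∫ _ in {x | x ∈ Set.univ ∧ 0 ≤ 2 - u x}, (1 : ℝ) ≤ 4 ^ n := by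
    rw [setIntegral_const, smul_eq_mul, mul_one]
    refine (measureReal_mono h.sub_ball (isCompact_closedBall 0 2).measure_ne_top).trans ?_
    rw [Measure.real, Real.volume_pi_closedBall _ (by norm_num), ENNReal.toReal_ofReal
      (by positivity), Fintype.card_fin]
    norm_num
  have h3 : ∫ x in {x | x ∈ Set.univ ∧ 0 ≤ 2 - u x}, √(hess u x).det
      ≤ ∫ x in {x | x ∈ Set.univ ∧ 0 ≤ 2 - u x}, (1 + (hess u x).det) := by
    refine setIntegral_mono_on i2 (i0.add i1) hK.measurableSet fun x _ => ?_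
    have := h.good.det_pos (Set.mem_univ x)
    nlinarith [Real.sq_sqrt this.le, Real.sqrt_nonneg (hess u x).det,
      sq_nonneg (√(hess u x).det - 1)]
  rw [integral_add i0 i1] at h3
  have : (2 * (2 * (n : ℝ))) ^ n = (4 * n) ^ n := by ring_nf
  linarith

end Hat

theorem th_pos (n : ℕ) : 0 < th n := by unfold th; positivity

theorem inv_th_le (n : ℕ) : 1 / th n ≤ 2 := by
  unfold th
  rw [one_div_div, div_le_iff₀ (by positivity)]
  have : (0 : ℝ) ≤ n := Nat.cast_nonneg n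
  linarith

end Vale.Agent.P252
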