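import Vale.Agent.P252.Stmt

open Matrix MeasureTheory
open scoped ContDiff

namespace Vale.Agent.P252

variable {n : ℕ}

/-- Gradient as a vector. -/
noncomputable def gr (f : (Fin n → ℝ) → ℝ) (x : Fin n → ℝ) : Fin n → ℝ := fun i => pd i f x

/-- The inner product of covectors given by the inverse Hessian of `u` at `x`. -/
noncomputable def ip (u : (Fin n → ℝ) → ℝ) (x a b : Fin n → ℝ) : ℝ :=
  a ⬝ᵥ (hess u x)⁻¹ *ᵥ b

/-- The linearised operator `u^{ij} F_{ij}`. -/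
noncomputable def Lop (u F : (Fin n → ℝ) → ℝ) (x : Fin n → ℝ) : ℝ :=
  ((hess u x)⁻¹ * hess F x).trace

/-- `log det D²u`. -/
noncomputable def ld (u : (Fin n → ℝ) → ℝ) (x : Fin n → ℝ) : ℝ := Real.log (hess u x).det

/-- Directional derivative along `e`. -/
noncomputable def dd (e : Fin n → ℝ) (f : (Fin n → ℝ) → ℝ) (x : Fin n → ℝ) : ℝ := e ⬝ᵥ gr f x

/-- Second derivative `u_{ee}`. -/
noncomputable def q2 (u : (Fin n → ℝ) → ℝ) (e x : Fin n → ℝ) : ℝ := e ⬝ᵥ hess u x *ᵥ e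

/-- Height of the graph at `x` over the tangent plane at `y`. -/
noncomputable def breg (u : (Fin n → ℝ) → ℝ) (x y : Fin n → ℝ) : ℝ :=
  u x - u y - gr u y ⬝ᵥ (x - y)

/-- Smooth on `U`. -/
abbrev Sm (U : Set (Fin n → ℝ)) (f : (Fin n → ℝ) → ℝ) : Prop := ContDiffOn ℝ ∞ f U

/-- A smooth function with positive definite Hessian on an open set. -/
structure Good (U : Set (Fin n → ℝ)) (u : (Fin n → ℝ) → ℝ) : Prop where
  op : IsOpen U
  sm : Sm U u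
  pos : ∀ x ∈ U, (hess u x).PosDef

/-- The exponent `(n+1)/(n+2)`. -/
noncomputable def th (n : ℕ) : ℝ := ((n : ℝ) + 1) / ((n : ℝ) + 2)

/-- `log det D²u + (n/θ) log (β u + α)`. -/
noncomputable def lh (u : (Fin n → ℝ) → ℝ) (β α : ℝ) (x : Fin n → ℝ) : ℝ :=
  ld u x + (n : ℝ) / th n * Real.log (β * u x + α)

/-- The affine maximal equation in logarithmic form (`β = 0`, `α = 1`) and its projective images. -/
def Eqn (U : Set (Fin n → ℝ)) (u : (Fin n → ℝ) → ℝ) (β α : ℝ) : Prop :=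
  ∀ x ∈ U, 0 < β * u x + α ∧
    Lop u (lh u β α) x = th n * ip u x (gr (lh u β α) x) (gr (lh u β α) x)
      - (n : ℝ) * ((n : ℝ) + 2) * β / (th n * (β * u x + α))

/-- A solution on a convex domain all of whose sections are compact. -/
structure Sol (Ω : Set (Fin n → ℝ)) (u : (Fin n → ℝ) → ℝ) : Prop where
  good : Good Ω u
  conv : Convex ℝ Ω
  eqn : Eqn Ω u 0 1
  cpt : ∀ y ∈ Ω, ∀ h : ℝ, IsCompact {x | x ∈ Ω ∧ breg u x y ≤ h}

/-- Quasi-symmetry of the Bregman divergence. -/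
def QS (C₀ : ℝ) (Ω : Set (Fin n → ℝ)) (u : (Fin n → ℝ) → ℝ) : Prop :=
  ∀ x ∈ Ω, ∀ y ∈ Ω, breg u x y ≤ C₀ * breg u y x

/-- The sublevel set `{x ∈ U | u x ≤ h}`. -/
def sub (U : Set (Fin n → ℝ)) (u : (Fin n → ℝ) → ℝ) (h : ℝ) : Set (Fin n → ℝ) :=
  {x | x ∈ U ∧ u x ≤ h}

/-- A normalised section of a solution with the quasi-symmetry property. -/
structure Nrm (C₀ : ℝ) (U : Set (Fin n → ℝ)) (u : (Fin n → ℝ) → ℝ) : Prop where
  good : Good U u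
  conv : Convex ℝ U
  eqn : Eqn U u 0 1
  qs : QS C₀ U u
  zero_mem : (0 : Fin n → ℝ) ∈ U
  val_zero : u 0 = 0
  gr_zero : gr u 0 = 0
  cpt : IsCompact (sub U u 1)
  small : sub U u 1 ⊆ Metric.closedBall 0 1
  big : ∀ i, (Pi.single i 1 : Fin n → ℝ) ∈ sub U u 1

/-- A normalised section with two-sided determinant bounds. -/
structure Bnd (Λ : ℝ) (U : Set (Fin n → ℝ)) (u : (Fin n → ℝ) → ℝ) : Prop where
  good : Good U u
  conv : Convex ℝ U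
  nonneg : ∀ x ∈ U, 0 ≤ u x
  cpt : IsCompact (sub U u 1)
  small : sub U u 1 ⊆ Metric.closedBall 0 1
  grad : ∀ x ∈ sub U u 1, ‖gr u x‖ ≤ Λ
  det_le : ∀ x ∈ sub U u 1, (hess u x).det ≤ Λ
  le_det : ∀ x ∈ sub U u 1, Λ⁻¹ ≤ (hess u x).det

/-- The projectively normalised configuration with one asymptotic ray. -/
structure Hat (u : (Fin n → ℝ) → ℝ) (e t : Fin n → ℝ) (t₀ : ℝ) : Prop where
  good : Good Set.univ u
  eqn : Eqn Set.univ u 1 0
  one_le : ∀ y, 1 ≤ u y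
  norm_le : ∀ y, ‖y‖ ≤ u y
  grad : ∀ y, ‖gr u y‖ ≤ 2 * n
  e_le : ‖e‖ ≤ 1
  slope : ∀ y, dd e u y ≤ 1
  te : t ⬝ᵥ e = 1
  s_nonneg : ∀ y, 0 ≤ u y - 1 - (t ⬝ᵥ y + t₀)
  s_le : ∀ y, u y - 1 - (t ⬝ᵥ y + t₀) ≤ 4 * (n : ℝ) ^ 2 * (u y - 1)

end Vale.Agent.P252
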