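import Vale.Agent.P252.B.Conv
import Vale.Agent.P252.B.Aff

open Matrix MeasureTheory
open scoped ContDiff

namespace Vale.Agent.P252

section aux

variable {n : ℕ} {C₀ : ℝ} {U : Set (Fin n → ℝ)} {u : (Fin n → ℝ) → ℝ} {x : Fin n → ℝ}

theorem detB_breg_left (h : Nrm C₀ U u) (x : Fin n → ℝ) : breg u x 0 = u x := by
  simp [breg, h.val_zero, h.gr_zero]

theorem detB_breg_right (h : Nrm C₀ U u) (x : Fin n → ℝ) :
    breg u 0 x = x ⬝ᵥ gr u x - u x := by
  simp only [breg, h.val_zero, zero_sub, dotProduct_neg, dotProduct_comm (gr u x) x]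
  ring

theorem detB_nonneg (h : Nrm C₀ U u) (hx : x ∈ U) : 0 ≤ u x := by
  rw [← detB_breg_left h x]; exact h.good.breg_nonneg h.conv hx h.zero_mem

theorem detB_sig_nonneg (h : Nrm C₀ U u) (hx : x ∈ U) : 0 ≤ x ⬝ᵥ gr u x - u x := by
  rw [← detB_breg_right h x]; exact h.good.breg_nonneg h.conv h.zero_mem hx

theorem detB_sig_le (h : Nrm C₀ U u) (hx : x ∈ U) : x ⬝ᵥ gr u x - u x ≤ C₀ * u x := by
  have := h.qs 0 h.zero_mem x hx
  rwa [detB_breg_left h, detB_breg_right h] at this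

theorem detB_le_sig (h : Nrm C₀ U u) (hx : x ∈ U) : u x ≤ C₀ * (x ⬝ᵥ gr u x - u x) := by
  have := h.qs x hx 0 h.zero_mem
  rwa [detB_breg_left h, detB_breg_right h] at this

theorem detB_zero_mem (h : Nrm C₀ U u) : (0 : Fin n → ℝ) ∈ sub U u 1 :=
  ⟨h.zero_mem, by rw [h.val_zero]; norm_num⟩

theorem detB_neg_mem (hC : 1 ≤ C₀) (h : Nrm C₀ U u) {z : Fin n → ℝ} (hz : z ∈ sub U u 1) :
    (-(1 / (C₀ * (2 * C₀ + 3)))) • z ∈ sub U u 1 := by
  set c : ℝ := 1 / (C₀ * (2 * C₀ + 3)) with hc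
  have hpos : 0 < C₀ * (2 * C₀ + 3) := by positivity
  have hc0 : 0 < c := by positivity
  have hc1 : c ≤ 1 := by
    rw [hc, div_le_one hpos]; nlinarith
  have hcont : Continuous fun t : ℝ => (-t) • z := by fun_prop
  have key : c ∈ {t : ℝ | (-t) • z ∈ sub U u 1} := by
    refine IsClosed.mem_of_ge_of_forall_exists_gt (a := 0)
      ((h.cpt.isClosed.preimage hcont).inter isClosed_Icc) ?_ hc0.le ?_
    · simpa using detB_zero_mem h
    · rintro s ⟨hs, hs0, hsc⟩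
      have hs' : (-s) • z ∈ sub U u 1 := hs
      have hlt : u ((-s) • z) < 1 := by
        by_contra hge
        have h1 : u ((-s) • z) = 1 := le_antisymm hs'.2 (not_lt.1 hge)
        have hs1 : 0 < s := by
          rcases hs0.lt_or_eq with h' | h'
          · exact h'
          · subst h'
            simp [h.val_zero] at h1
        have hq := h.qs z hz.1 _ hs'.1
        have a1 := detB_sig_nonneg h hs'.1
        have a2 := detB_sig_le h hz.1
        have a3 := detB_nonneg h hz.1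
        have a4 := detB_sig_nonneg h hz.1
        have a5 := hz.2
        set A := gr u ((-s) • z) ⬝ᵥ z with hA
        set B := gr u z ⬝ᵥ z with hB
        have e1 : breg u z ((-s) • z) = u z - 1 - (1 + s) * A := by
          simp only [breg, h1, dotProduct_sub, dotProduct_smul, smul_eq_mul, ← hA]; ring
        have e2 : breg u ((-s) • z) z = 1 - u z + (1 + s) * B := by
          simp only [breg, h1, dotProduct_sub, dotProduct_smul, smul_eq_mul, ← hB]; ring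
        have e3 : ((-s) • z) ⬝ᵥ gr u ((-s) • z) = -s * A := by
          rw [smul_dotProduct, smul_eq_mul, dotProduct_comm]
        have e4 : z ⬝ᵥ gr u z = B := dotProduct_comm _ _
        rw [e3, h1] at a1
        rw [e4] at a2 a4
        rw [e1, e2] at hq
        have hB1 : B ≤ C₀ + 1 := by nlinarith
        have hB0 : 0 ≤ B := by linarith
        have hs2 : s ≤ 1 := hsc.le.trans hc1
        have b1 : 1 - u z + (1 + s) * B ≤ 2 * C₀ + 3 := by nlinarith
        have b2 : u z - 1 - (1 + s) * A ≤ C₀ * (2 * C₀ + 3) :=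
          hq.trans (mul_le_mul_of_nonneg_left b1 (by linarith))
        have b3 : s * (C₀ * (2 * C₀ + 3)) < 1 := by
          have := mul_lt_mul_of_pos_right hsc hpos
          rwa [hc, one_div, inv_mul_cancel₀ hpos.ne'] at this
        have b4 : s * (u z - 1 - (1 + s) * A) ≤ s * (C₀ * (2 * C₀ + 3)) :=
          mul_le_mul_of_nonneg_left b2 hs1.le
        nlinarith
      have hop : IsOpen {x | x ∈ U ∧ u x < 1} :=
        h.good.sm.continuousOn.isOpen_inter_preimage h.good.op isOpen_Iio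
      have hev : ∀ᶠ t in nhds s, (-t) • z ∈ {x | x ∈ U ∧ u x < 1} :=
        hcont.continuousAt.eventually (hop.mem_nhds ⟨hs'.1, hlt⟩)
      have hev2 : ∀ᶠ t in nhdsWithin s (Set.Ioi s), (-t) • z ∈ {x | x ∈ U ∧ u x < 1} ∧
          t ∈ Set.Ioc s c :=
        (hev.filter_mono nhdsWithin_le_nhds).and (Ioc_mem_nhdsGT hsc)
      obtain ⟨t, ht1, ht2⟩ := hev2.exists
      exact ⟨t, ⟨ht1.1, ht1.2.le⟩, ht2⟩
  exact key

theorem detB_axis_mem (hC : 1 ≤ C₀) (h : Nrm C₀ U u) (i : Fin n) {t : ℝ}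
    (ht : |t| ≤ 1 / (C₀ * (2 * C₀ + 3))) : t • (Pi.single i 1 : Fin n → ℝ) ∈ sub U u 1 := by
  set c : ℝ := 1 / (C₀ * (2 * C₀ + 3)) with hc
  have hpos : 0 < C₀ * (2 * C₀ + 3) := by positivity
  have hc0 : 0 < c := by positivity
  have hc1 : c ≤ 1 := by
    rw [hc, div_le_one hpos]; nlinarith
  have hK := h.good.convex_sub h.conv 1
  have h1 := detB_neg_mem hC h (h.big i)
  have h2 := h.big i
  rw [abs_le] at ht
  have := hK h1 h2 (a := (1 - t) / (1 + c)) (b := (t + c) / (1 + c))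
    (div_nonneg (by linarith) (by linarith)) (div_nonneg (by linarith) (by linarith))
    (by field_simp; ring)
  rw [smul_smul, ← add_smul] at this
  have e : (1 - t) / (1 + c) * -c + (t + c) / (1 + c) = t := by field_simp; ring
  rwa [e] at this

/-- The common maximum principle. -/
theorem detB_max {ζ ψ : (Fin n → ℝ) → ℝ} (h : Good U u) (hζ : Sm U ζ) (hψ : Sm U ψ)
    (hK : IsCompact {x | x ∈ U ∧ 0 ≤ ζ x}) {x₀ : Fin n → ℝ} (hx₀ : x₀ ∈ U) (h0 : 0 < ζ x₀)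
    (k : ℕ) (hk : 0 < k) :
    ∃ p ∈ U, 0 < ζ p ∧
      (∀ x ∈ U, 0 < ζ x → k * Real.log (ζ x) + ψ x ≤ k * Real.log (ζ p) + ψ p) ∧
      gr ψ p = -((k / ζ p) • gr ζ p) ∧
      k * (Lop u ζ p / ζ p - ip u p (gr ζ p) (gr ζ p) / ζ p ^ 2) + Lop u ψ p ≤ 0 := by
  have hcont : ContinuousOn (fun x => ζ x ^ k * Real.exp (ψ x)) {x | x ∈ U ∧ 0 ≤ ζ x} :=
    ((hζ.continuousOn.pow k).mul (Real.continuous_exp.comp_continuousOn hψ.continuousOn)).mono
      fun x hx => hx.1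
  obtain ⟨p, hp, hmax⟩ := hK.exists_isMaxOn ⟨x₀, hx₀, h0.le⟩ hcont
  have hp0 : 0 < ζ p := by
    rcases hp.2.lt_or_eq with h' | h'
    · exact h'
    · have := hmax (⟨hx₀, h0.le⟩ : x₀ ∈ {x | x ∈ U ∧ 0 ≤ ζ x})
      simp only [Set.mem_ofPred_eq, ← h', zero_pow hk.ne', zero_mul] at this
      have h2 : 0 < ζ x₀ ^ k * Real.exp (ψ x₀) := by positivity
      linarith
  have hle : ∀ x ∈ U, 0 < ζ x → k * Real.log (ζ x) + ψ x ≤ k * Real.log (ζ p) + ψ p := by
    intro x hx hx0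
    have := hmax (⟨hx, hx0.le⟩ : x ∈ {x | x ∈ U ∧ 0 ≤ ζ x})
    simp only [Set.mem_ofPred_eq] at this
    have h2 := Real.log_le_log (by positivity) this
    rwa [Real.log_mul (by positivity) (by positivity), Real.log_mul (by positivity) (by positivity),
      Real.log_pow, Real.log_pow, Real.log_exp, Real.log_exp] at h2
  have hop : IsOpen {x | x ∈ U ∧ 0 < ζ x} :=
    hζ.continuousOn.isOpen_inter_preimage h.op isOpen_Ioi
  have hsub : {x | x ∈ U ∧ 0 < ζ x} ⊆ U := fun x hx => hx.1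
  have hpm : p ∈ {x | x ∈ U ∧ 0 < ζ x} := ⟨hp.1, hp0⟩
  have hloc : IsLocalMax (fun x => k * Real.log (ζ x) + ψ x) p := by
    filter_upwards [hop.mem_nhds hpm] with x hx using hle x hx.1 hx.2
  have s1 : Sm {x | x ∈ U ∧ 0 < ζ x} (fun x => Real.log (ζ x)) :=
    (hζ.mono hsub).log fun x hx => hx.2.ne'
  have s2 : Sm {x | x ∈ U ∧ 0 < ζ x} (fun x => k * Real.log (ζ x)) := contDiffOn_const.mul s1
  have s3 : Sm {x | x ∈ U ∧ 0 < ζ x} ψ := hψ.mono hsub
  refine ⟨p, hp.1, hp0, hle, ?_, ?_⟩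
  · have := gr_eq_zero_of_isLocalMax hloc
    rw [gr_add (s2.diff hop hpm) (s3.diff hop hpm), gr_const_mul _ (s1.diff hop hpm),
      gr_log (hζ.diff h.op hp.1) hp0.ne', smul_smul] at this
    rw [div_eq_mul_inv]
    exact eq_neg_of_add_eq_zero_right this
  · have := (h.mono hop hsub).Lop_nonpos_of_isLocalMax (s2.add s3) hpm hloc
    rwa [Lop_add hop s2 s3 hpm, Lop_const_mul hop _ s1 hpm, Lop_log h.op hζ hp.1 hp0] at this

theorem detB_sq_le {g : Fin n → ℝ} {R : ℝ} (hg : ‖g‖ ≤ R) : g ⬝ᵥ g ≤ n * R ^ 2 := by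
  have : ∀ i, g i * g i ≤ R ^ 2 := fun i => by
    have h1 : |g i| ≤ R := (norm_le_pi_norm g i).trans hg
    rw [← sq, ← sq_abs]
    exact pow_le_pow_left₀ (abs_nonneg _) h1 2
  calc g ⬝ᵥ g = ∑ i, g i * g i := rfl
    _ ≤ ∑ _i : Fin n, R ^ 2 := Finset.sum_le_sum fun i _ => this i
    _ = n * R ^ 2 := by simp

theorem detB_logdet_le (hn : 0 < n) {X : Matrix (Fin n) (Fin n) ℝ} (hX : X.PosDef) {B : ℝ}
    (hB : X.trace ≤ n * B) : Real.log X.det ≤ n * Real.log B := by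
  have h1 := amgm_trace hn (M := 1) Matrix.PosDef.one hX.posSemidef
  simp only [det_one, inv_one, one_mul] at h1
  have hn' : (0 : ℝ) < n := by exact_mod_cast hn
  have h2 : X.trace / n ≤ B := by rw [div_le_iff₀ hn']; linarith
  have h3 : 0 ≤ X.trace / n := div_nonneg hX.posSemidef.trace_nonneg hn'.le
  rw [← Real.log_pow]
  exact Real.log_le_log hX.det_pos (h1.trans (pow_le_pow_left₀ h3 h2 n))

end aux

/-- In a normalised section the base point is central and the gradient is bounded. -/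
theorem nrm_grad (n : ℕ) {C₀ : ℝ} (hC : 1 ≤ C₀) :
    ∃ r R : ℝ, 0 < r ∧ 0 < R ∧ ∀ (U : Set (Fin n → ℝ)) (u : (Fin n → ℝ) → ℝ), Nrm C₀ U u →
      Metric.closedBall 0 r ⊆ sub U u (1 / 2) ∧ ∀ x ∈ sub U u 1, ‖gr u x‖ ≤ R := by
  set c : ℝ := 1 / (C₀ * (2 * C₀ + 3)) with hc
  have hc0 : 0 < c := by positivity
  refine ⟨c / (2 * (n + 1)), (C₀ + 2) / c, by positivity, by positivity, fun U u h => ⟨?_, ?_⟩⟩
  · intro z hz
    rw [mem_closedBall_zero_iff] at hz
    have hK := h.good.convex_sub h.conv 1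
    have hw : ∀ i, (2 * ((n : ℝ) + 1) * z i) • (Pi.single i 1 : Fin n → ℝ) ∈ sub U u 1 := by
      intro i
      refine detB_axis_mem hC h i ?_
      have h1 : |z i| ≤ c / (2 * (n + 1)) := (norm_le_pi_norm z i).trans hz
      rw [le_div_iff₀ (by positivity)] at h1
      rw [abs_mul, abs_of_pos (by positivity)]
      linarith
    have h2 : (2 : ℝ) • z ∈ sub U u 1 := by
      have := hK.sum_mem (t := (Finset.univ : Finset (Option (Fin n))))
        (w := fun _ => 1 / ((n : ℝ) + 1))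
        (z := fun o => o.elim 0 fun i => (2 * ((n : ℝ) + 1) * z i) • (Pi.single i 1 : Fin n → ℝ))
        (fun _ _ => by positivity) (by simp; field_simp)
        (fun o _ => by
          cases o with
          | none => exact detB_zero_mem h
          | some i => exact hw i)
      have e : (∑ o : Option (Fin n), (1 / ((n : ℝ) + 1)) •
          (o.elim 0 fun i => (2 * ((n : ℝ) + 1) * z i) • (Pi.single i 1 : Fin n → ℝ) :
            Fin n → ℝ)) = (2 : ℝ) • z := by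
        rw [Fintype.sum_option]
        ext j
        simp [Finset.sum_apply, Pi.single_apply]
        field_simp
      rwa [e] at this
    have e2 : z = (1 / 2 : ℝ) • ((2 : ℝ) • z) + (1 / 2 : ℝ) • (0 : Fin n → ℝ) := by
      simp [smul_smul]
    have h3 := (h.good.convexOn h.conv).2 h2.1 h.zero_mem
      (show (0 : ℝ) ≤ 1 / 2 by norm_num) (show (0 : ℝ) ≤ 1 / 2 by norm_num) (by norm_num)
    have h4 := h.conv h2.1 h.zero_mem (a := 1 / 2) (b := 1 / 2)
      (by norm_num) (by norm_num) (by norm_num)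
    rw [← e2] at h3 h4
    refine ⟨h4, h3.trans ?_⟩
    have := h2.2
    simp only [h.val_zero, smul_eq_mul]
    linarith
  · intro x hx
    rw [pi_norm_le_iff_of_nonneg (by positivity)]
    intro i
    have key : ∀ t : ℝ, |t| ≤ c → t * gr u x i ≤ C₀ + 2 := by
      intro t ht
      have hz := detB_axis_mem hC h i ht
      have h1 := h.good.breg_nonneg h.conv hz.1 hx.1
      have a2 := detB_sig_le h hx.1
      have a3 := detB_nonneg h hx.1
      have a4 := hx.2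
      have a5 := hz.2
      simp only [breg, dotProduct_sub, dotProduct_smul, dotProduct_single, mul_one, smul_eq_mul,
        dotProduct_comm (gr u x) x] at h1
      nlinarith
    have k1 := key c (abs_of_pos hc0).le
    have k2 := key (-c) (by rw [abs_neg, abs_of_pos hc0])
    rw [Real.norm_eq_abs, le_div_iff₀ hc0]
    rcases abs_cases (gr u x i) with h' | h' <;> rw [h'.1] <;> linarith

/-- Upper bound for the determinant (maximum principle of Trudinger and Wang). -/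
theorem nrm_det_le (n : ℕ) (hn : 0 < n) {C₀ : ℝ} (hC : 1 ≤ C₀) :
    ∃ D : ℝ, 0 < D ∧ ∀ (U : Set (Fin n → ℝ)) (u : (Fin n → ℝ) → ℝ), Nrm C₀ U u →
      ∀ x ∈ sub U u (1 / 2), (hess u x).det ≤ D := by
  obtain ⟨r, R, -, hR, hg⟩ := nrm_grad n hC
  have hn' : (0 : ℝ) < n := by exact_mod_cast hn
  set a : ℝ := 1 / (4 * n * R ^ 2) with ha
  have ha0 : 0 < a := by positivity
  set B : ℝ := ((n : ℝ) + 1) * (n + 1) / (a * n) with hB
  have hB0 : 0 < B := by positivity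
  have hθ0 : 0 < th n := by unfold th; positivity
  have hθ1 : th n ≤ 1 := by unfold th; rw [div_le_one (by positivity)]; linarith
  refine ⟨Real.exp ((1 / 4 + th n * n * Real.log B + (n + 1) * Real.log 2) / th n),
    Real.exp_pos _, fun U u h x hx => ?_⟩
  have hG := h.good
  have sζ : Sm U (fun y => 1 - u y) := contDiffOn_const.sub hG.sm
  have s1 : Sm U (fun y => a * (gr u y ⬝ᵥ gr u y)) := contDiffOn_const.mul hG.sm_grsq
  have s2 : Sm U (fun y => th n * ld u y) := contDiffOn_const.mul hG.sm_ld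
  have hK : IsCompact {y | y ∈ U ∧ 0 ≤ 1 - u y} := by
    have : {y | y ∈ U ∧ 0 ≤ 1 - u y} = sub U u 1 := by
      ext y; simp [sub]
    rw [this]; exact h.cpt
  obtain ⟨p, hp, hp0, hmax, hgr, hL⟩ := detB_max hG sζ (s1.add s2) hK h.zero_mem
    (by simp [h.val_zero]) (n + 1) n.succ_pos
  push_cast at hmax hgr hL
  have hpK : p ∈ sub U u 1 := ⟨hp, by linarith⟩
  have hgζ : gr (fun y => 1 - u y) p = -gr u p := by
    rw [gr_sub (differentiableAt_const _) (hG.sm.diff hG.op hp), gr_const, zero_sub]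
  have hLζ : Lop u (fun y => 1 - u y) p = -n := by
    rw [Lop_sub hG.op contDiffOn_const hG.sm hp, Lop_const, hG.Lop_self hp, zero_sub]
  rw [gr_add (s1.diff hG.op hp) (s2.diff hG.op hp), gr_const_mul _ (hG.sm_grsq.diff hG.op hp),
    gr_const_mul _ (hG.sm_ld.diff hG.op hp), hG.gr_grsq hp, hgζ] at hgr
  rw [Lop_add hG.op s1 s2 hp, Lop_const_mul hG.op _ hG.sm_grsq hp,
    Lop_const_mul hG.op _ hG.sm_ld hp, hG.Lop_grsq hp, h.eqn.ld hp, hgζ, hLζ, ip_neg_left,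
    ip_neg_right, neg_neg] at hL
  set ζ : ℝ := 1 - u p with hζ
  set g := gr u p with hgdef
  set M := hess u p with hM
  set κ : ℝ := ((n : ℝ) + 1) / ζ with hκ
  have hκ0 : 0 < κ := by positivity
  have hgφ : th n • gr (ld u) p = κ • g - (2 * a) • M *ᵥ g := by
    rw [eq_sub_iff_add_eq, add_comm, mul_comm 2 a, ← smul_smul, hgr]; simp
  have e1 : th n * (th n * ip u p (gr (ld u) p) (gr (ld u) p))
      = κ ^ 2 * ip u p g g - 4 * a * κ * (g ⬝ᵥ g) + 4 * a ^ 2 * (g ⬝ᵥ M *ᵥ g) := by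
    rw [← ip_smul_left, ← ip_smul_right, hgφ]
    simp only [ip_sub_left, ip_sub_right, ip_smul_left, ip_smul_right]
    rw [hG.ip_comm hp (a := M *ᵥ g) (b := g), hM, hG.ip_hess hp, hG.ip_hess hp,
      dotProduct_comm (hess u p *ᵥ g) g]
    ring
  have e2 : g ⬝ᵥ gr (ld u) p = (κ * (g ⬝ᵥ g) - 2 * a * (g ⬝ᵥ M *ᵥ g)) * (1 + 1 / ((n : ℝ) + 1)) := by
    have : th n * (g ⬝ᵥ gr (ld u) p) = κ * (g ⬝ᵥ g) - 2 * a * (g ⬝ᵥ M *ᵥ g) := by
      rw [← smul_eq_mul, ← dotProduct_smul, hgφ]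
      simp [dotProduct_sub, dotProduct_smul]
    rw [← this]; unfold th; field_simp; ring
  have hI := hG.ip_nonneg hp (a := g)
  have hQ := quad_le_trace (hG.pos p hp).posSemidef g
  have hQ0 : 0 ≤ g ⬝ᵥ M *ᵥ g := by
    simpa using (hG.pos p hp).posSemidef.dotProduct_mulVec_nonneg g
  have hT0 : 0 ≤ M.trace := (hG.pos p hp).posSemidef.trace_nonneg
  have hS0 : 0 ≤ g ⬝ᵥ g := Finset.sum_nonneg fun i _ => mul_self_nonneg _
  have hS : a * (g ⬝ᵥ g) ≤ 1 / 4 := by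
    have := mul_le_mul_of_nonneg_left (detB_sq_le ((hg U u h).2 p hpK)) ha0.le
    refine this.trans (le_of_eq ?_)
    rw [ha]; field_simp
  rw [← hM] at hQ
  rw [e1, e2] at hL
  set I := ip u p g g
  set S := g ⬝ᵥ g
  set Q := g ⬝ᵥ M *ᵥ g
  set T := M.trace
  set η : ℝ := 1 / ((n : ℝ) + 1) with hη
  have hη0 : 0 ≤ η := by positivity
  have hη1 : η ≤ 1 := by rw [hη, div_le_one (by positivity)]; linarith
  have e3 : ((n : ℝ) + 1) * (-n / ζ - I / ζ ^ 2) = -n * κ - η * κ ^ 2 * I := by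
    rw [hκ, hη]; field_simp
  rw [e3] at hL
  have b1 : 0 ≤ (1 - η) * κ ^ 2 * I := mul_nonneg (mul_nonneg (by linarith) (by positivity)) hI
  have b2 : 4 * a ^ 2 * η * Q ≤ a * T := by
    calc 4 * a ^ 2 * η * Q ≤ 4 * a ^ 2 * 1 * (T * S) := by gcongr
      _ = 4 * (a * T) * (a * S) := by ring
      _ ≤ 4 * (a * T) * (1 / 4) := by gcongr
      _ = a * T := by ring
  have b3 : κ * (a * S) ≤ κ * (1 / 4) := by gcongr
  have b4 : 0 ≤ η * κ * (a * S) := by positivity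
  have b5 : a * T ≤ κ * (n + 1) := by linarith
  have b6 : T ≤ n * (B / ζ) := by
    have : n * (B / ζ) = κ * (n + 1) / a := by rw [hB, hκ]; field_simp
    rw [this, le_div_iff₀ ha0]; linarith
  have b7 := detB_logdet_le hn (hG.pos p hp) b6
  rw [Real.log_div hB0.ne' hp0.ne'] at b7
  have hζ1 : Real.log ζ ≤ 0 := Real.log_nonpos hp0.le (by linarith [detB_nonneg h hp])
  have hx0 : 1 / 2 ≤ 1 - u x := by linarith [hx.2]
  have m := hmax x hx.1 (by linarith)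
  have hx1 : -Real.log 2 ≤ Real.log (1 - u x) := by
    rw [← Real.log_inv]; exact Real.log_le_log (by norm_num) (by linarith)
  have hx2 : 0 ≤ a * (gr u x ⬝ᵥ gr u x) :=
    mul_nonneg ha0.le (Finset.sum_nonneg fun i _ => mul_self_nonneg _)
  have c1 : th n * ld u p ≤ th n * (n * (Real.log B - Real.log ζ)) :=
    mul_le_mul_of_nonneg_left b7 hθ0.le
  have c2 : ((n : ℝ) + 1 - th n * n) * Real.log ζ ≤ 0 :=
    mul_nonpos_of_nonneg_of_nonpos (by linarith [mul_le_mul_of_nonneg_right hθ1 hn'.le]) hζ1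
  have c3 : ((n : ℝ) + 1) * -Real.log 2 ≤ (n + 1) * Real.log (1 - u x) := by gcongr
  rw [← Real.exp_log (hG.det_pos hx.1), Real.exp_le_exp, le_div_iff₀ hθ0]
  have : Real.log (hess u x).det = ld u x := rfl
  rw [this]
  linarith

/-- Lower bound for the determinant (dual maximum principle). -/
theorem nrm_le_det (n : ℕ) (hn : 0 < n) {C₀ : ℝ} (hC : 1 ≤ C₀) :
    ∃ d : ℝ, 0 < d ∧ ∀ (U : Set (Fin n → ℝ)) (u : (Fin n → ℝ) → ℝ), Nrm C₀ U u →
      ∀ x ∈ sub U u (1 / (2 * C₀ ^ 2)), d ≤ (hess u x).det := by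
  have hn' : (0 : ℝ) < n := by exact_mod_cast hn
  have hC0 : 0 < C₀ := by linarith
  set a : ℝ := 1 / (4 * n) with ha
  have ha0 : 0 < a := by positivity
  set B : ℝ := ((n : ℝ) + 1) / a with hB
  have hB0 : 0 < B := by positivity
  have hθ0 : 0 < th n := by unfold th; positivity
  have hθ1 : th n ≤ 1 := by unfold th; rw [div_le_one (by positivity)]; linarith
  refine ⟨Real.exp (-((1 / 4 + th n * n * Real.log B - (n + 1) * Real.log (1 / (2 * C₀))) / th n)),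
    Real.exp_pos _, fun U u h x hx => ?_⟩
  have hG := h.good
  have sζ : Sm U (fun y => 1 / C₀ - (y ⬝ᵥ gr u y - u y)) := contDiffOn_const.sub hG.sm_sig
  have s1 : Sm U (fun y => a * (y ⬝ᵥ y)) := contDiffOn_const.mul sm_sq
  have s2 : Sm U (fun y => th n * ld u y) := contDiffOn_const.mul hG.sm_ld
  have hDK : ∀ y ∈ U, 0 ≤ 1 / C₀ - (y ⬝ᵥ gr u y - u y) → y ∈ sub U u 1 := by
    intro y hy h0
    refine ⟨hy, (detB_le_sig h hy).trans ?_⟩
    have : C₀ * (y ⬝ᵥ gr u y - u y) ≤ C₀ * (1 / C₀) := by gcongr; linarith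
    rwa [mul_one_div_cancel hC0.ne'] at this
  have hK : IsCompact {y | y ∈ U ∧ 0 ≤ 1 / C₀ - (y ⬝ᵥ gr u y - u y)} := by
    have : {y | y ∈ U ∧ 0 ≤ 1 / C₀ - (y ⬝ᵥ gr u y - u y)}
        = sub U u 1 ∩ (fun y => 1 / C₀ - (y ⬝ᵥ gr u y - u y)) ⁻¹' Set.Ici 0 := by
      ext y
      exact ⟨fun hy => ⟨hDK y hy.1 hy.2, hy.2⟩, fun hy => ⟨hy.1.1, hy.2⟩⟩
    rw [this]
    exact h.cpt.of_isClosed_subset
      ((sζ.continuousOn.mono fun y hy => hy.1).preimage_isClosed_of_isClosed h.cpt.isClosed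
        isClosed_Ici) Set.inter_subset_left
  obtain ⟨p, hp, hp0, hmax, hgr, hL⟩ := detB_max hG sζ (s1.sub s2) hK h.zero_mem
    (by simp [h.val_zero, hC0]) (n + 1) n.succ_pos
  push_cast at hmax hgr hL
  have hpK : p ∈ sub U u 1 := hDK p hp hp0.le
  have hgζ : gr (fun y => 1 / C₀ - (y ⬝ᵥ gr u y - u y)) p = -(hess u p *ᵥ p) := by
    rw [gr_sub (differentiableAt_const _) (hG.sm_sig.diff hG.op hp), gr_const, zero_sub,
      hG.gr_sig hp]
  have hLζ : Lop u (fun y => 1 / C₀ - (y ⬝ᵥ gr u y - u y)) p = -(n + p ⬝ᵥ gr (ld u) p) := by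
    rw [Lop_sub hG.op contDiffOn_const hG.sm_sig hp, Lop_const, hG.Lop_sig hp, zero_sub]
  rw [gr_sub (s1.diff hG.op hp) (s2.diff hG.op hp), gr_const_mul _ (sm_sq.diff hG.op hp),
    gr_const_mul _ (hG.sm_ld.diff hG.op hp), gr_sq, hgζ] at hgr
  rw [Lop_sub hG.op s1 s2 hp, Lop_const_mul hG.op _ sm_sq hp,
    Lop_const_mul hG.op _ hG.sm_ld hp, Lop_sq, h.eqn.ld hp, hgζ, hLζ, ip_neg_left,
    ip_neg_right, neg_neg, hG.ip_hess hp, dotProduct_comm (hess u p *ᵥ p) p] at hL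
  set ζ : ℝ := 1 / C₀ - (p ⬝ᵥ gr u p - u p) with hζ
  set M := hess u p with hM
  set κ : ℝ := ((n : ℝ) + 1) / ζ with hκ
  have hκ0 : 0 < κ := by positivity
  have hgφ : th n • gr (ld u) p = (2 * a) • p - κ • M *ᵥ p := by
    rw [eq_sub_iff_add_eq, mul_comm 2 a, ← smul_smul, ← eq_sub_iff_add_eq', hgr]; simp
  have e1 : th n * (th n * ip u p (gr (ld u) p) (gr (ld u) p))
      = 4 * a ^ 2 * ip u p p p - 4 * a * κ * (p ⬝ᵥ p) + κ ^ 2 * (p ⬝ᵥ M *ᵥ p) := by
    rw [← ip_smul_left, ← ip_smul_right, hgφ]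
    simp only [ip_sub_left, ip_sub_right, ip_smul_left, ip_smul_right]
    rw [hG.ip_comm hp (a := M *ᵥ p) (b := p), hM, hG.ip_hess hp, hG.ip_hess hp,
      dotProduct_comm (hess u p *ᵥ p) p]
    ring
  have e2 : p ⬝ᵥ gr (ld u) p = (2 * a * (p ⬝ᵥ p) - κ * (p ⬝ᵥ M *ᵥ p)) * (1 + 1 / ((n : ℝ) + 1)) := by
    have : th n * (p ⬝ᵥ gr (ld u) p) = 2 * a * (p ⬝ᵥ p) - κ * (p ⬝ᵥ M *ᵥ p) := by
      rw [← smul_eq_mul, ← dotProduct_smul, hgφ]
      simp [dotProduct_sub, dotProduct_smul]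
    rw [← this]; unfold th; field_simp; ring
  have hI : ip u p p p ≤ (M⁻¹).trace * (p ⬝ᵥ p) := quad_le_trace (hG.pos p hp).inv.posSemidef p
  have hT0 : 0 ≤ (M⁻¹).trace := (hG.pos p hp).inv.posSemidef.trace_nonneg
  have hS0 : 0 ≤ p ⬝ᵥ p := Finset.sum_nonneg fun i _ => mul_self_nonneg _
  have hS : a * (p ⬝ᵥ p) ≤ 1 / 4 := by
    have := mul_le_mul_of_nonneg_left
      (detB_sq_le (mem_closedBall_zero_iff.1 (h.small hpK))) ha0.le
    refine this.trans (le_of_eq ?_)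
    rw [ha]; field_simp
  rw [e1, e2] at hL
  set I := ip u p p p
  set S := p ⬝ᵥ p
  set Q := p ⬝ᵥ M *ᵥ p
  set T := (M⁻¹).trace
  set η : ℝ := 1 / ((n : ℝ) + 1) with hη
  have hη0 : 0 ≤ η := by positivity
  have hη1 : η ≤ 1 := by rw [hη, div_le_one (by positivity)]; linarith
  have e3 : ((n : ℝ) + 1) * (-(n + (2 * a * S - κ * Q) * (1 + η)) / ζ - Q / ζ ^ 2)
      = -n * κ - 2 * (1 + η) * κ * (a * S) + κ ^ 2 * Q := by
    rw [hκ, hη]; field_simp; ring
  rw [e3] at hL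
  have b2 : 4 * a ^ 2 * I ≤ a * T := by
    calc 4 * a ^ 2 * I ≤ 4 * a ^ 2 * (T * S) := by gcongr
      _ = 4 * (a * T) * (a * S) := by ring
      _ ≤ 4 * (a * T) * (1 / 4) := by gcongr
      _ = a * T := by ring
  have b4 : 0 ≤ (1 - η) * κ * (a * S) :=
    mul_nonneg (mul_nonneg (by linarith) hκ0.le) (mul_nonneg ha0.le hS0)
  have b5 : a * T ≤ κ * n := by linarith
  have b6 : T ≤ n * (B / ζ) := by
    have : n * (B / ζ) = κ * n / a := by rw [hB, hκ]; field_simp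
    rw [this, le_div_iff₀ ha0]; linarith
  have b7 := detB_logdet_le hn (hG.pos p hp).inv b6
  rw [Real.log_div hB0.ne' hp0.ne', Matrix.det_nonsing_inv, Ring.inverse_eq_inv',
    Real.log_inv] at b7
  have hC1 : 1 / C₀ ≤ 1 := by rw [div_le_one hC0]; exact hC
  have hζ1 : Real.log ζ ≤ 0 := Real.log_nonpos hp0.le (by linarith [detB_sig_nonneg h hp])
  have hx0 : 1 / (2 * C₀) ≤ 1 / C₀ - (x ⬝ᵥ gr u x - u x) := by
    have h1 := detB_sig_le h hx.1
    have h2 : C₀ * u x ≤ C₀ * (1 / (2 * C₀ ^ 2)) := by gcongr; exact hx.2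
    have h3 : C₀ * (1 / (2 * C₀ ^ 2)) = 1 / C₀ - 1 / (2 * C₀) := by field_simp; ring
    linarith
  have hx00 : 0 < 1 / (2 * C₀) := by positivity
  have m := hmax x hx.1 (by linarith)
  have hx1 := Real.log_le_log hx00 hx0
  have hx2 : 0 ≤ a * (x ⬝ᵥ x) :=
    mul_nonneg ha0.le (Finset.sum_nonneg fun i _ => mul_self_nonneg _)
  have c1 : th n * -ld u p ≤ th n * (n * (Real.log B - Real.log ζ)) :=
    mul_le_mul_of_nonneg_left b7 hθ0.le
  have c2 : ((n : ℝ) + 1 - th n * n) * Real.log ζ ≤ 0 :=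
    mul_nonpos_of_nonneg_of_nonpos (by linarith [mul_le_mul_of_nonneg_right hθ1 hn'.le]) hζ1
  have c3 : ((n : ℝ) + 1) * Real.log (1 / (2 * C₀))
      ≤ (n + 1) * Real.log (1 / C₀ - (x ⬝ᵥ gr u x - u x)) := by gcongr
  rw [← Real.exp_log (hG.det_pos hx.1), Real.exp_le_exp, neg_le, le_div_iff₀ hθ0]
  have : Real.log (hess u x).det = ld u x := rfl
  rw [this]
  linarith

/-- Every section of a solution can be normalised. -/
theorem exists_nrm {n : ℕ} {C₀ : ℝ} {Ω : Set (Fin n → ℝ)} {u : (Fin n → ℝ) → ℝ} (h : Sol Ω u)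
    (hq : QS C₀ Ω u) {x₀ : Fin n → ℝ} (hx : x₀ ∈ Ω) {H : ℝ} (hH : 0 < H) :
    ∃ V : Matrix (Fin n) (Fin n) ℝ, V.det ≠ 0 ∧
      Nrm C₀ (pre x₀ V Ω) (tr u x₀ V H⁻¹ (-(H⁻¹ • Vᵀ *ᵥ gr u x₀)) (-(H⁻¹ * u x₀))) ∧
      ∀ y, tr u x₀ V H⁻¹ (-(H⁻¹ • Vᵀ *ᵥ gr u x₀)) (-(H⁻¹ * u x₀)) y
        = H⁻¹ * breg u (x₀ + V *ᵥ y) x₀ := by
  have hD := (h.cpt x₀ hx H).image (f := fun x => x - x₀) (by fun_prop)
  have hcont : ContinuousOn (fun x => breg u x x₀) Ω := by
    unfold breg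
    refine (h.good.sm.continuousOn.sub continuousOn_const).sub ?_
    exact (Continuous.dotProduct continuous_const (by fun_prop)).continuousOn
  have hop : IsOpen {x | x ∈ Ω ∧ breg u x x₀ < H} :=
    hcont.isOpen_inter_preimage h.good.op isOpen_Iio
  obtain ⟨ε, hε, hball⟩ := Metric.nhds_basis_closedBall.mem_iff.1
    (hop.mem_nhds (⟨hx, by simpa [breg] using hH⟩ : x₀ ∈ {x | x ∈ Ω ∧ breg u x x₀ < H}))
  obtain ⟨V, hV, hV1, hV2⟩ := exists_max_frame hD ⟨ε • 1, by simp [hε.ne'], fun i => by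
    have hm : x₀ + ε • (Pi.single i 1 : Fin n → ℝ) ∈ Metric.closedBall x₀ ε := by
      rw [Metric.mem_closedBall, dist_eq_norm, add_sub_cancel_left, norm_smul, Pi.norm_single,
        norm_one, mul_one, Real.norm_eq_abs, abs_of_pos hε]
    refine ⟨_, ⟨(hball hm).1, (hball hm).2.le⟩, ?_⟩
    rw [smul_mulVec, one_mulVec]; simp⟩
  have hform : ∀ y, tr u x₀ V H⁻¹ (-(H⁻¹ • Vᵀ *ᵥ gr u x₀)) (-(H⁻¹ * u x₀)) y
        = H⁻¹ * breg u (x₀ + V *ᵥ y) x₀ := by
    intro y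
    simp only [tr, breg, add_sub_cancel_left, neg_dotProduct, smul_dotProduct, smul_eq_mul,
      mulVec_transpose, dotProduct_mulVec]
    ring
  have hHi : 0 < H⁻¹ := inv_pos.2 hH
  have hS := h.tr (P := x₀) (a := -(H⁻¹ • Vᵀ *ᵥ gr u x₀)) (b := -(H⁻¹ * u x₀)) hV hHi
  have h0 : (0 : Fin n → ℝ) ∈ pre x₀ V Ω := by simpa [pre] using hx
  have hsub : sub (pre x₀ V Ω) (tr u x₀ V H⁻¹ (-(H⁻¹ • Vᵀ *ᵥ gr u x₀)) (-(H⁻¹ * u x₀))) 1
      = pre x₀ V {x | x ∈ Ω ∧ breg u x x₀ ≤ H} := by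
    ext y
    simp only [sub, pre, Set.mem_ofPred_eq, hform, inv_mul_le_iff₀ hH, mul_one]
  refine ⟨V, hV, ⟨hS.good, hS.conv, hS.eqn, QS.tr h.good hq hHi, h0, ?_, ?_, ?_, ?_, ?_⟩, hform⟩
  · rw [hform]; simp [breg]
  · rw [gr_tr h.good.op h.good.sm h0]; simp
  · rw [hsub]; exact isCompact_pre hV (h.cpt x₀ hx H)
  · rw [hsub]
    intro y hy
    have := hV2 (V *ᵥ y) ⟨_, hy, by simp⟩
    rwa [mulVec_mulVec, Matrix.nonsing_inv_mul _ hV.isUnit, one_mulVec,
      ← mem_closedBall_zero_iff] at this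
  · intro i
    rw [hsub]
    obtain ⟨x, hx1, hx2⟩ := hV1 i
    have : x₀ + V *ᵥ Pi.single i 1 = x := by rw [← hx2]; simp
    simp only [pre, Set.mem_ofPred_eq, this]
    exact hx1

end Vale.Agent.P252
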