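import Vale.Agent.P252.B.EstB

open Matrix MeasureTheory
open scoped ContDiff

namespace Vale.Agent.P252

variable {n : ℕ} {U K : Set (Fin n → ℝ)} {u ζ W F f g : (Fin n → ℝ) → ℝ} {e x : Fin n → ℝ}
  {q : ℝ} {c : (Fin n → ℝ) →ₗ[ℝ] ℝ} {r : Fin n → (Fin n → ℝ) →ₗ[ℝ] ℝ}

/-- Vector form of the second certificate. -/
theorem vecA {P : Par} (hc : Cert n P) (s : Spl u e x q c r) (A G X y z Y R L D : Fin n → ℝ)
    {τ w : ℝ} (h0 : 0 ≤ τ) (h1 : τ ≤ 1) (hxy : 0 ≤ c X * c y) (hw : w ≤ P.k0 * (c X * c y))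
    (hX : ∀ i, r i X = 0)
    (hL : L = P.p • G - (1 / 2 : ℝ) • A - (2 * P.p) • X - (P.μ * (1 - τ)) • y - (P.μ * τ) • z + Y)
    (hD : D = (P.a * τ * (1 - τ)) • (z - y)) :
    P.dA * (c X ^ 2 + ip u x y y + τ * ip u x z z) ≤
      (ip u x L G - c A * (c L + c A - c G) + (ip u x G G - c G ^ 2)
          + (c A - c G) ^ 2 / ((n : ℝ) - 1))
        + ((P.K0 * (1 - τ) + P.K1 * τ) * (ip u x L (A + R) + th n * ip u x (A + R) (A + R))
          + (P.K1 - P.K0) * ip u x D (A + R))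
        + ((P.T0 * (1 - τ) + P.T1 * τ) * (c X * (c L + c A - c X)) + (P.T1 - P.T0) * c D * c X)
        + ((P.Z0 * (1 - τ) + P.Z1 * τ) * (ip u x L y - ip u x y y + n * (c X * c y))
          + (P.Z1 - P.Z0) * ip u x D y)
        + ((P.E0 * (1 - τ) + P.E1 * τ) * (c X * c y + c y * (c L + c A - c G - c y))
          + (P.E1 - P.E0) * c D * c y)
        + P.Zl * (τ * (ip u x L z - ip u x z z) + ip u x D z + n * w)
        + P.El * (w + τ * (c z * (c L + c A - c G - c z)) + c D * c z)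
        + P.CA * (ip u x Y Y + ip u x R R) := by
  have g1 := hc.A1 τ (c A) (c G) (c y) (c z) (c X) (c Y) (c R) w h0 h1 hxy hw
  have g2 := Finset.sum_le_sum fun i (_ : i ∈ Finset.univ) =>
    hc.A2 τ (r i A) (r i G) (r i y) (r i z) (r i Y) (r i R) h0 h1
  have e1 : ∑ i, (QA2 n P τ (r i A) (r i G) (r i y) (r i z) (r i Y) (r i R)
        + P.CA * (r i Y ^ 2 + r i R ^ 2))
      = ∑ i, r i L * r i G + ∑ i, r i G * r i G
        + (P.K0 * (1 - τ) + P.K1 * τ) *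
          (∑ i, r i L * r i (A + R) + th n * ∑ i, r i (A + R) * r i (A + R))
        + (P.K1 - P.K0) * ∑ i, r i D * r i (A + R)
        + (P.Z0 * (1 - τ) + P.Z1 * τ) * (∑ i, r i L * r i y - ∑ i, r i y * r i y)
        + (P.Z1 - P.Z0) * ∑ i, r i D * r i y
        + P.Zl * (τ * (∑ i, r i L * r i z - ∑ i, r i z * r i z) + ∑ i, r i D * r i z)
        + P.CA * (∑ i, r i Y * r i Y + ∑ i, r i R * r i R) := by
    simp only [Finset.mul_sum, ← Finset.sum_add_distrib, ← Finset.sum_sub_distrib]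
    refine Finset.sum_congr rfl fun i _ => ?_
    simp only [hL, hD, map_add, map_sub, map_smul, smul_eq_mul, hX, QA2]
    ring
  have e2 : ∑ i, P.dA * (r i y ^ 2 + τ * r i z ^ 2)
      = P.dA * (∑ i, r i y * r i y + τ * ∑ i, r i z * r i z) := by
    simp only [Finset.mul_sum, pow_two, ← Finset.sum_add_distrib]
  have e3 : c L = P.p * c G - c A / 2 - 2 * P.p * c X - P.μ * (1 - τ) * c y - P.μ * τ * c z
      + c Y := by
    simp only [hL, map_add, map_sub, map_smul, smul_eq_mul]; ring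
  have e4 : c D = P.a * τ * (1 - τ) * (c z - c y) := by
    simp only [hD, map_sub, map_smul, smul_eq_mul]
  rw [e1, e2] at g2
  simp only [QA1] at g1
  rw [← e3, ← e4] at g1
  simp only [s.ip, map_add c]
  linarith

theorem gr_mul_inv (k : ℕ) (hW : DifferentiableAt ℝ W x) (hf : DifferentiableAt ℝ f x)
    (h0 : f x ≠ 0) {ψ m : ℝ} {L y : Fin n → ℝ} (hL : gr W x + W x • cutY ζ k x = ψ • L)
    (hWx : W x = ψ * m) (hy : gr f x = f x • y) :
    gr (fun z => W z * (f z)⁻¹) x + (W x * (f x)⁻¹) • cutY ζ k x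
      = (ψ * (f x)⁻¹) • (L - m • y) := by
  rw [gr_mul hW (hf.fun_inv h0), gr_inv hf h0, hy, eq_sub_of_add_eq hL, hWx]
  ext i
  simp only [Pi.add_apply, Pi.sub_apply, Pi.smul_apply, smul_eq_mul]
  field_simp
  ring

theorem dd_logder (hU : IsOpen U) (hx : x ∈ U) (s : Spl u e x q c r) (hF : Sm U F)
    (hh : hess F x = hess u x) (h0 : F x ≠ 0) {y : Fin n → ℝ} (hy : gr F x = F x • y) :
    dd e F x * (F x)⁻¹ = q * c y ∧
      dd e (fun z => dd e F z * (F z)⁻¹) x = q ^ 2 * ((F x)⁻¹ - c y ^ 2) := by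
  have h1 : dd e F x = F x * (q * c y) := by rw [dd_eq, hy, smul_dotProduct, s.dot, smul_eq_mul]
  have h2 : dd e (dd e F) x = q ^ 2 := by rw [← q2_eq_dd hU hF hx, q2, hh, ← q2, s.sq]
  have d1 := hF.diff hU hx
  refine ⟨by rw [h1]; field_simp, ?_⟩
  rw [dd_mul ((hF.dd hU e).diff hU hx) (d1.fun_inv h0), dd_inv' d1 h0, h1, h2]
  field_simp
  ring

/-- Height above the minimal level, shifted by `H`. -/
noncomputable def el (u : (Fin n → ℝ) → ℝ) (H : ℝ) (y : Fin n → ℝ) : ℝ := u y - 1 + H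

/-- Height above the tilted plane, shifted by `H`. -/
noncomputable def es (u : (Fin n → ℝ) → ℝ) (t : Fin n → ℝ) (t₀ H : ℝ) (y : Fin n → ℝ) : ℝ :=
  u y - 1 - (t ⬝ᵥ y + t₀) + H

/-- Interpolation of two heights. -/
noncomputable def Sg (a κ : ℝ) (s l : (Fin n → ℝ) → ℝ) (y : Fin n → ℝ) : ℝ :=
  Real.exp (a * Real.log (s y)) + κ * Real.exp (a * Real.log (l y))

/-- The relative weight of the second height. -/
noncomputable def vt (a κ : ℝ) (s l : (Fin n → ℝ) → ℝ) (y : Fin n → ℝ) : ℝ :=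
  κ * Real.exp (a * Real.log (l y)) * (Sg a κ s l y)⁻¹

/-- The singular factor of the second weight. -/
noncomputable def wt (μ a κ : ℝ) (s l : (Fin n → ℝ) → ℝ) (y : Fin n → ℝ) : ℝ :=
  Real.exp (-(μ / a) * Real.log (Sg a κ s l y))

section weights

variable {μ a κ : ℝ} {s l : (Fin n → ℝ) → ℝ} {y z : Fin n → ℝ}

theorem Sg_pos (hκ : 0 < κ) : 0 < Sg a κ s l x := by unfold Sg; positivity

theorem vt_pos (hκ : 0 < κ) : 0 < vt a κ s l x := by
  have := Sg_pos (a := a) (s := s) (l := l) (x := x) hκ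
  unfold vt; positivity

theorem one_sub_vt (hκ : 0 < κ) :
    1 - vt a κ s l x = Real.exp (a * Real.log (s x)) * (Sg a κ s l x)⁻¹ := by
  have := (Sg_pos (a := a) (s := s) (l := l) (x := x) hκ).ne'
  rw [vt]; field_simp; rw [Sg]; ring

theorem vt_le (hκ : 0 < κ) : vt a κ s l x ≤ 1 := by
  have := Sg_pos (a := a) (s := s) (l := l) (x := x) hκ
  have h2 : 0 ≤ 1 - vt a κ s l x := by rw [one_sub_vt hκ]; positivity
  linarith

theorem wt_pos : 0 < wt μ a κ s l x := Real.exp_pos _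

theorem sm_pw (a : ℝ) (hs : Sm U s) (h0 : ∀ x ∈ U, 0 < s x) :
    Sm U (fun y => Real.exp (a * Real.log (s y))) :=
  (contDiffOn_const.mul (hs.log fun x hx => (h0 x hx).ne')).exp

theorem gr_pw (a : ℝ) (hs : DifferentiableAt ℝ s x) (h0 : 0 < s x) (hy : gr s x = s x • y) :
    gr (fun y => Real.exp (a * Real.log (s y))) x = (a * Real.exp (a * Real.log (s x))) • y := by
  rw [gr_exp ((hs.log h0.ne').const_mul _), gr_const_mul _ (hs.log h0.ne'), gr_log hs h0.ne', hy,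
    smul_smul, smul_smul, smul_smul]
  congr 1
  field_simp

theorem sm_Sg (hs : Sm U s) (hl : Sm U l) (s0 : ∀ x ∈ U, 0 < s x) (l0 : ∀ x ∈ U, 0 < l x) :
    Sm U (Sg a κ s l) := (sm_pw a hs s0).add (contDiffOn_const.mul (sm_pw a hl l0))

theorem sm_vt (hκ : 0 < κ) (hs : Sm U s) (hl : Sm U l) (s0 : ∀ x ∈ U, 0 < s x)
    (l0 : ∀ x ∈ U, 0 < l x) : Sm U (vt a κ s l) :=
  (contDiffOn_const.mul (sm_pw a hl l0)).mul
    ((sm_Sg hs hl s0 l0).inv fun _ _ => (Sg_pos hκ).ne')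

theorem sm_wt (hκ : 0 < κ) (hs : Sm U s) (hl : Sm U l) (s0 : ∀ x ∈ U, 0 < s x)
    (l0 : ∀ x ∈ U, 0 < l x) : Sm U (wt μ a κ s l) :=
  (contDiffOn_const.mul ((sm_Sg hs hl s0 l0).log fun _ _ => (Sg_pos hκ).ne')).exp

theorem gr_Sg (hU : IsOpen U) (hx : x ∈ U) (hκ : 0 < κ) (hs : Sm U s) (hl : Sm U l)
    (s0 : ∀ x ∈ U, 0 < s x) (l0 : ∀ x ∈ U, 0 < l x) (hy : gr s x = s x • y)
    (hz : gr l x = l x • z) :
    gr (Sg a κ s l) x = Sg a κ s l x • ((a * (1 - vt a κ s l x)) • y + (a * vt a κ s l x) • z) := by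
  have d1 := (sm_pw a hs s0).diff hU hx
  have d2 := (sm_pw a hl l0).diff hU hx
  have h0 := (Sg_pos (a := a) (s := s) (l := l) (x := x) hκ).ne'
  have e1 : Sg a κ s l = fun y =>
    Real.exp (a * Real.log (s y)) + κ * Real.exp (a * Real.log (l y)) := rfl
  conv_lhs => rw [e1]
  rw [gr_add d1 (d2.const_mul _), gr_const_mul _ d2, gr_pw a (hs.diff hU hx) (s0 x hx) hy,
    gr_pw a (hl.diff hU hx) (l0 x hx) hz, one_sub_vt hκ, vt]
  ext i
  simp only [Pi.add_apply, Pi.smul_apply, smul_eq_mul]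
  field_simp

theorem gr_vt (hU : IsOpen U) (hx : x ∈ U) (hκ : 0 < κ) (hs : Sm U s) (hl : Sm U l)
    (s0 : ∀ x ∈ U, 0 < s x) (l0 : ∀ x ∈ U, 0 < l x) (hy : gr s x = s x • y)
    (hz : gr l x = l x • z) :
    gr (vt a κ s l) x = (a * vt a κ s l x * (1 - vt a κ s l x)) • (z - y) := by
  have d2 := (sm_pw a hl l0).diff hU hx
  have d3 := (sm_Sg (a := a) (κ := κ) hs hl s0 l0).diff hU hx
  have h0 := (Sg_pos (a := a) (s := s) (l := l) (x := x) hκ).ne'
  have e1 : vt a κ s l = fun y => κ * Real.exp (a * Real.log (l y)) * (Sg a κ s l y)⁻¹ := rfl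
  have e2 : κ * Real.exp (a * Real.log (l x)) = vt a κ s l x * Sg a κ s l x := by
    rw [vt]; field_simp
  conv_lhs => rw [e1]
  rw [gr_mul (d2.const_mul _) (d3.fun_inv h0), gr_inv d3 h0, gr_Sg hU hx hκ hs hl s0 l0 hy hz,
    gr_const_mul _ d2, gr_pw a (hl.diff hU hx) (l0 x hx) hz, smul_smul κ, mul_left_comm κ, e2]
  ext i
  simp only [Pi.add_apply, Pi.sub_apply, Pi.smul_apply, smul_eq_mul]
  field_simp
  ring

theorem gr_wt (hU : IsOpen U) (hx : x ∈ U) (ha : a ≠ 0) (hκ : 0 < κ) (hs : Sm U s) (hl : Sm U l)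
    (s0 : ∀ x ∈ U, 0 < s x) (l0 : ∀ x ∈ U, 0 < l x) (hy : gr s x = s x • y)
    (hz : gr l x = l x • z) :
    gr (wt μ a κ s l) x = wt μ a κ s l x •
      (-((μ * (1 - vt a κ s l x)) • y) - (μ * vt a κ s l x) • z) := by
  have d3 := (sm_Sg (a := a) (κ := κ) hs hl s0 l0).diff hU hx
  have h0 := (Sg_pos (a := a) (s := s) (l := l) (x := x) hκ).ne'
  have e1 : wt μ a κ s l = fun y => Real.exp (-(μ / a) * Real.log (Sg a κ s l y)) := rfl
  conv_lhs => rw [e1]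
  rw [gr_exp ((d3.log h0).const_mul _), gr_const_mul _ (d3.log h0), gr_log d3 h0,
    gr_Sg hU hx hκ hs hl s0 l0 hy hz, wt]
  ext i
  simp only [Pi.add_apply, Pi.sub_apply, Pi.neg_apply, Pi.smul_apply, smul_eq_mul]
  field_simp
  ring

theorem pw_le {η sx lx : ℝ} (ha : 0 ≤ a) (ha1 : a ≤ 1) (hη : 1 ≤ η) (s0 : 0 < sx) (l0 : 0 < lx)
    (h : sx ≤ η * lx) : Real.exp (a * Real.log sx) ≤ η * Real.exp (a * Real.log lx) := by
  have h1 : Real.log sx ≤ Real.log η + Real.log lx := by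
    rw [← Real.log_mul (by linarith) l0.ne']; exact Real.log_le_log s0 h
  have h2 := Real.log_nonneg hη
  calc Real.exp (a * Real.log sx) ≤ Real.exp (Real.log η + a * Real.log lx) := by
        apply Real.exp_le_exp.2; nlinarith
    _ = η * Real.exp (a * Real.log lx) := by rw [Real.exp_add, Real.exp_log (by linarith)]

theorem vt_ge {η : ℝ} (ha : 0 ≤ a) (ha1 : a ≤ 1) (hκ : 0 < κ) (hη : 1 ≤ η) (s0 : 0 < s x)
    (l0 : 0 < l x) (h : s x ≤ η * l x) : κ / (η + κ) ≤ vt a κ s l x := by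
  have h1 := pw_le ha ha1 hη s0 l0 h
  have h2 := Real.exp_pos (a * Real.log (l x))
  rw [vt, ← div_eq_mul_inv, div_le_div_iff₀ (by linarith) (Sg_pos hκ), Sg]
  nlinarith

theorem vt_div_le {η : ℝ} (ha : 0 ≤ a) (ha1 : a ≤ 1) (hκ : 0 < κ) (hη : 1 ≤ η) (s0 : 0 < s x)
    (l0 : 0 < l x) (h : s x ≤ η * l x) : vt a κ s l x * (l x)⁻¹ ≤ κ * η * (s x)⁻¹ := by
  have h1 := pw_le (a := 1 - a) (by linarith) (by linarith) hη s0 l0 h
  have e1 : ∀ v : ℝ, 0 < v →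
      Real.exp ((1 - a) * Real.log v) = v * (Real.exp (a * Real.log v))⁻¹ := by
    intro v hv
    rw [← Real.exp_neg]
    conv_rhs => rw [← Real.exp_log hv, ← Real.exp_add, Real.log_exp]
    congr 1; ring
  rw [e1 _ s0, e1 _ l0] at h1
  have h2 := Real.exp_pos (a * Real.log (l x))
  have h3 := Real.exp_pos (a * Real.log (s x))
  have h4 : (Sg a κ s l x)⁻¹ ≤ (Real.exp (a * Real.log (s x)))⁻¹ :=
    inv_anti₀ h3 (le_add_of_nonneg_right (by positivity))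
  calc vt a κ s l x * (l x)⁻¹
      ≤ κ * Real.exp (a * Real.log (l x)) * (Real.exp (a * Real.log (s x)))⁻¹ * (l x)⁻¹ := by
        rw [vt]; gcongr
    _ = κ * Real.exp (a * Real.log (l x)) * (l x)⁻¹ * (s x)⁻¹
        * (s x * (Real.exp (a * Real.log (s x)))⁻¹) := by field_simp
    _ ≤ κ * Real.exp (a * Real.log (l x)) * (l x)⁻¹ * (s x)⁻¹
        * (η * (l x * (Real.exp (a * Real.log (l x)))⁻¹)) := by gcongr
    _ = κ * η * (s x)⁻¹ := by field_simp

theorem wt_le {l₀ : ℝ} (hμ : 0 ≤ μ) (ha : 0 < a) (hκ : 0 < κ) (h0 : 0 < l₀) (h : l₀ ≤ l x) :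
    wt μ a κ s l x ≤ Real.exp (-(μ / a) * Real.log (κ * Real.exp (a * Real.log l₀))) := by
  apply Real.exp_le_exp.2
  have h1 : κ * Real.exp (a * Real.log l₀) ≤ Sg a κ s l x := by
    refine le_trans ?_ (le_add_of_nonneg_left (Real.exp_pos _).le)
    gcongr
  have h2 := Real.log_le_log (by positivity) h1
  have h3 : 0 ≤ μ / a := by positivity
  nlinarith

theorem wt_ge {η H : ℝ} (hμ : 0 ≤ μ) (ha : 0 < a) (ha1 : a ≤ 1) (hκ : 0 < κ) (hη : 1 ≤ η)
    (s0 : 0 < s x) (l0 : 0 < l x) (h : s x ≤ η * l x) (hH : l x ≤ H) :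
    (η + κ) ^ (-(μ / a)) * H ^ (-μ) ≤ wt μ a κ s l x := by
  have hH0 : 0 < H := l0.trans_le hH
  have h1 := pw_le ha.le ha1 hη s0 l0 h
  have h2 : Real.exp (a * Real.log (l x)) ≤ Real.exp (a * Real.log H) := by gcongr
  have h3 : Sg a κ s l x ≤ (η + κ) * Real.exp (a * Real.log H) := by
    rw [Sg]; nlinarith
  have h4 := Real.log_le_log (Sg_pos hκ) h3
  rw [Real.log_mul (by linarith) (Real.exp_pos _).ne', Real.log_exp] at h4
  rw [Real.rpow_def_of_pos (by linarith), Real.rpow_def_of_pos hH0, ← Real.exp_add, wt]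
  apply Real.exp_le_exp.2
  have h5 : 0 ≤ μ / a := by positivity
  have h6 : μ / a * (a * Real.log H) = μ * Real.log H := by field_simp
  nlinarith

end weights

/-- The relative weight in the projective configuration. -/
noncomputable def vA (P : Par) (κ H : ℝ) (u : (Fin n → ℝ) → ℝ) (t : Fin n → ℝ) (t₀ : ℝ) :
    (Fin n → ℝ) → ℝ := vt P.a κ (es u t t₀ H) (el u H)

/-- The second weight. -/
noncomputable def psiA (P : Par) (κ H : ℝ) (u : (Fin n → ℝ) → ℝ) (e t : Fin n → ℝ) (t₀ : ℝ)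
    (y : Fin n → ℝ) : ℝ := psiB P.p u e y * wt P.μ P.a κ (es u t t₀ H) (el u H) y

/-- The second weight times a multiplier. -/
noncomputable def wA (P : Par) (κ H : ℝ) (u : (Fin n → ℝ) → ℝ) (e t : Fin n → ℝ) (t₀ M₀ M₁ : ℝ)
    (y : Fin n → ℝ) : ℝ :=
  psiA P κ H u e t t₀ y * (M₀ * (1 - vA P κ H u t t₀ y) + M₁ * vA P κ H u t t₀ y)

/-- The combination of identities in the second estimate. -/
noncomputable def TA (P : Par) (κ H : ℝ) (m : ℕ) (u : (Fin n → ℝ) → ℝ) (e t : Fin n → ℝ) (t₀ : ℝ)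
    (x : Fin n → ℝ) : ℝ :=
  JB u (zt u) (m + 1) e (psiA P κ H u e t t₀) x
    + JL u (zt u) (m + 1) (wA P κ H u e t t₀ P.K0 P.K1) (lh u 1 0) x
    + JD (zt u) (m + 1) e
        (fun y => (hess u y).det * wA P κ H u e t t₀ P.T0 P.T1 y * (-(xi u e y)⁻¹)) x
    + JL u (zt u) (m + 1) (fun y => wA P κ H u e t t₀ P.Z0 P.Z1 y * (es u t t₀ H y)⁻¹)
        (es u t t₀ H) x
    + JD (zt u) (m + 1) e (fun y => (hess u y).det * wA P κ H u e t t₀ P.E0 P.E1 y
        * (dd e (es u t t₀ H) y * (es u t t₀ H y)⁻¹) * (q2 u e y)⁻¹) x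
    + P.Zl * JL u (zt u) (m + 1) (fun y => wA P κ H u e t t₀ 0 1 y * (el u H y)⁻¹) (el u H) x
    + P.El * JD (zt u) (m + 1) e (fun y => (hess u y).det * wA P κ H u e t t₀ 0 1 y
        * (dd e (el u H) y * (el u H y)⁻¹) * (q2 u e y)⁻¹) x

theorem psiA_pos {P : Par} {κ H t₀ : ℝ} {t : Fin n → ℝ} : 0 < psiA P κ H u e t t₀ x :=
  mul_pos (psiB_pos _) wt_pos

namespace Hat

variable {t : Fin n → ℝ} {t₀ κ H : ℝ} {P : Par}

theorem el_pos (h : Hat u e t t₀) (hH : 0 < H) (x : Fin n → ℝ) : 0 < el u H x := by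
  have := h.one_le x
  unfold el; linarith

theorem es_pos (h : Hat u e t t₀) (hH : 0 < H) (x : Fin n → ℝ) : 0 < es u t t₀ H x := by
  have := h.s_nonneg x
  unfold es; linarith

theorem es_le (hn : 2 ≤ n) (h : Hat u e t t₀) (hH : 0 < H) (x : Fin n → ℝ) :
    es u t t₀ H x ≤ 4 * (n : ℝ) ^ 2 * el u H x := by
  have := h.s_le x
  have h2 : (2 : ℝ) ≤ n := by exact_mod_cast hn
  have h3 : H ≤ 4 * (n : ℝ) ^ 2 * H := le_mul_of_one_le_left hH.le (by nlinarith)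
  unfold es el; linarith

theorem sm_el (h : Hat u e t t₀) : Sm Set.univ (el u H) :=
  (h.good.sm.sub contDiffOn_const).add contDiffOn_const

theorem sm_es (h : Hat u e t t₀) : Sm Set.univ (es u t t₀ H) :=
  ((h.good.sm.sub contDiffOn_const).sub ((sm_dot t).add contDiffOn_const)).add contDiffOn_const

theorem el_eq : el u H = fun y => u y + (H - 1) := by funext y; unfold el; ring

theorem es_eq : es u t t₀ H = fun y => (u y - t ⬝ᵥ y) + (H - 1 - t₀) := by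
  funext y; unfold es; ring

theorem gr_el : gr (el u H) x = gr u x := by rw [el_eq, gr_add_const]

theorem gr_es (h : Hat u e t t₀) : gr (es u t t₀ H) x = gr u x - t := by
  rw [es_eq, gr_add_const, gr_sub (h.good.sm.diff isOpen_univ trivial) (diff_dot t x), gr_dot]

theorem hess_el (h : Hat u e t t₀) : hess (el u H) x = hess u x := by
  rw [el_eq, hess_add isOpen_univ h.good.sm contDiffOn_const trivial, hess_const, add_zero]

theorem hess_es (h : Hat u e t t₀) : hess (es u t t₀ H) x = hess u x := by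
  rw [es_eq, hess_add isOpen_univ (h.good.sm.sub (sm_dot t)) contDiffOn_const trivial, hess_const,
    add_zero, hess_sub isOpen_univ h.good.sm (sm_dot t) trivial, hess_dot, sub_zero]

theorem Lop_el (h : Hat u e t t₀) : Lop u (el u H) x = n := by
  rw [Lop, h.hess_el]; exact h.good.Lop_self trivial

theorem Lop_es (h : Hat u e t t₀) : Lop u (es u t t₀ H) x = n := by
  rw [Lop, h.hess_es]; exact h.good.Lop_self trivial

theorem sm_vA (h : Hat u e t t₀) (hκ : 0 < κ) (hH : 0 < H) : Sm Set.univ (vA P κ H u t t₀) :=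
  sm_vt hκ h.sm_es h.sm_el (fun x _ => h.es_pos hH x) fun x _ => h.el_pos hH x

theorem sm_psiA (h : Hat u e t t₀) (hκ : 0 < κ) (hH : 0 < H) :
    Sm Set.univ (psiA P κ H u e t t₀) :=
  (h.sm_psiB _).mul (sm_wt hκ h.sm_es h.sm_el (fun x _ => h.es_pos hH x) fun x _ => h.el_pos hH x)

theorem sm_wA (h : Hat u e t t₀) (hκ : 0 < κ) (hH : 0 < H) (M₀ M₁ : ℝ) :
    Sm Set.univ (wA P κ H u e t t₀ M₀ M₁) :=
  (h.sm_psiA hκ hH).mul ((contDiffOn_const.mul (contDiffOn_const.sub (h.sm_vA hκ hH))).add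
    (contDiffOn_const.mul (h.sm_vA hκ hH)))

theorem ZI_TA (h : Hat u e t t₀) (hκ : 0 < κ) (hH : 0 < H) (m : ℕ) :
    ZI (top u) (TA P κ H m u e t t₀) := by
  have hd := h.good.sm.det h.good.op
  have i1 : Sm Set.univ (fun y => (es u t t₀ H y)⁻¹) :=
    h.sm_es.inv fun x _ => (h.es_pos hH x).ne'
  have i2 : Sm Set.univ (fun y => (el u H y)⁻¹) := h.sm_el.inv fun x _ => (h.el_pos hH x).ne'
  exact ((((((ZI_JB h.good h.e_ne h.sm_zt h.cpt' (h.sm_psiA hκ hH) _).add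
    (ZI_JL h.good h.sm_zt h.cpt' (h.sm_wA hκ hH _ _) h.sm_lh _)).add
    (ZI_JD isOpen_univ h.sm_zt h.cpt' ((hd.mul (h.sm_wA hκ hH _ _)).mul h.sm_ninv) _ _)).add
    (ZI_JL h.good h.sm_zt h.cpt' ((h.sm_wA hκ hH _ _).mul i1) h.sm_es _)).add
    (ZI_JD isOpen_univ h.sm_zt h.cpt' (sm_quot h.good h.e_ne (h.sm_wA hκ hH _ _)
      ((h.sm_es.dd isOpen_univ e).mul i1)) _ _)).add
    ((ZI_JL h.good h.sm_zt h.cpt' ((h.sm_wA hκ hH _ _).mul i2) h.sm_el _).smul _)).add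
    ((ZI_JD isOpen_univ h.sm_zt h.cpt' (sm_quot h.good h.e_ne (h.sm_wA hκ hH _ _)
      ((h.sm_el.dd isOpen_univ e).mul i2)) _ _).smul _)

theorem TA_zero (m : ℕ) (hz : zt u x = 0) : TA P κ H m u e t t₀ x = 0 := by
  simp [TA, JB, JL_zero _ hz, JD_zero _ hz]

set_option maxHeartbeats 1000000 in
theorem TA_ge (hn : 2 ≤ n) (hc : Cert n P) (h : Hat u e t t₀) (hH : 0 < H)
    (hκ : κ = P.k0 / (4 * (n : ℝ) ^ 2)) (m : ℕ) (s : Spl u e x q c r) (hz : 0 < zt u x) :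
    ∃ Iy : ℝ, 0 ≤ Iy ∧ 2 * (es u t t₀ H x)⁻¹ ≤ q2 u e x / xi u e x ^ 2 + Iy ∧
    (hess u x).det * zt u x ^ (m + 3) * psiA P κ H u e t t₀ x *
      (P.dA * (q2 u e x / xi u e x ^ 2 + Iy
          + vA P κ H u t t₀ x * ((el u H x)⁻¹ ^ 2 * ip u x (gr u x) (gr u x)))
        - P.CA * (((((m : ℝ) + 3) / zt u x) ^ 2 + ((n : ℝ) / th n / u x) ^ 2)
          * ip u x (gr u x) (gr u x))
        - (P.K0 * (1 - vA P κ H u t t₀ x) + P.K1 * vA P κ H u t t₀ x)
          * ((n : ℝ) * ((n : ℝ) + 2) / (th n * u x)))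
      ≤ TA P κ H m u e t t₀ x := by
  have h2 : (2 : ℝ) ≤ n := by exact_mod_cast hn
  have hη : 1 ≤ 4 * (n : ℝ) ^ 2 := by nlinarith
  have hκ0 : 0 < κ := by have := hc.k0_pos; rw [hκ]; positivity
  have s0 := h.es_pos hH x
  have l0 := h.el_pos hH x
  have hψ := h.sm_psiA (P := P) hκ0 hH
  have hw := h.sm_wA (P := P) hκ0 hH
  obtain ⟨Y, hY⟩ : ∃ Y, Y = (-(((m : ℝ) + 3) / zt u x)) • gr u x := ⟨_, rfl⟩
  have hY1 : cutY (zt u) (m + 1) x = Y := by
    rw [h.cutY_eq, hY]; push_cast; ring_nf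
  obtain ⟨y, hy⟩ : ∃ y, y = (es u t t₀ H x)⁻¹ • (gr u x - t) := ⟨_, rfl⟩
  obtain ⟨z, hz'⟩ : ∃ z, z = (el u H x)⁻¹ • gr u x := ⟨_, rfl⟩
  have gy : gr (es u t t₀ H) x = es u t t₀ H x • y := by
    rw [h.gr_es, hy, smul_smul, mul_inv_cancel₀ s0.ne', one_smul]
  have gz : gr (el u H) x = el u H x • z := by
    rw [gr_el, hz', smul_smul, mul_inv_cancel₀ l0.ne', one_smul]
  obtain ⟨τ, hτ⟩ : ∃ τ, τ = vA P κ H u t t₀ x := ⟨_, rfl⟩
  obtain ⟨ψ, hψx⟩ : ∃ ψ, ψ = psiA P κ H u e t t₀ x := ⟨_, rfl⟩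
  obtain ⟨L, hL⟩ : ∃ L, L = P.p • gr (lq u e) x - (1 / 2 : ℝ) • gr (ld u) x
    - (2 * P.p) • Xv u e x - (P.μ * (1 - τ)) • y - (P.μ * τ) • z + Y := ⟨_, rfl⟩
  obtain ⟨D, hD⟩ : ∃ D, D = (P.a * τ * (1 - τ)) • (z - y) := ⟨_, rfl⟩
  have gv : gr (vA P κ H u t t₀) x = D := by
    rw [hD, hτ]
    exact gr_vt isOpen_univ trivial hκ0 h.sm_es h.sm_el (fun x _ => h.es_pos hH x)
      (fun x _ => h.el_pos hH x) gy gz
  have hL1 : gr (psiA P κ H u e t t₀) x + psiA P κ H u e t t₀ x • cutY (zt u) (m + 1) x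
      = psiA P κ H u e t t₀ x • L := by
    have e1 : psiA P κ H u e t t₀
      = fun y => psiB P.p u e y * wt P.μ P.a κ (es u t t₀ H) (el u H) y := rfl
    have d2 := (sm_wt (μ := P.μ) (a := P.a) hκ0 h.sm_es h.sm_el (fun x _ => h.es_pos hH x)
      fun x _ => h.el_pos hH x).diff isOpen_univ (Set.mem_univ x)
    rw [e1, gr_mul ((h.sm_psiB _).diff isOpen_univ trivial) d2, h.gr_psiB,
      gr_wt isOpen_univ trivial hc.a_pos.ne' hκ0 h.sm_es h.sm_el (fun x _ => h.es_pos hH x)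
        (fun x _ => h.el_pos hH x) gy gz, hY1, hL, hτ, vA]
    ext i
    simp only [Pi.add_apply, Pi.sub_apply, Pi.neg_apply, Pi.smul_apply, smul_eq_mul]
    ring
  have hwx : ∀ M₀ M₁, wA P κ H u e t t₀ M₀ M₁ x = ψ * (M₀ * (1 - τ) + M₁ * τ) := by
    intro M₀ M₁; rw [hψx, hτ, wA]
  have hLw : ∀ M₀ M₁, gr (wA P κ H u e t t₀ M₀ M₁) x
      + wA P κ H u e t t₀ M₀ M₁ x • cutY (zt u) (m + 1) x
      = ψ • ((M₀ * (1 - τ) + M₁ * τ) • L + (M₁ - M₀) • D) := by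
    intro M₀ M₁
    have e1 : wA P κ H u e t t₀ M₀ M₁ = fun y => psiA P κ H u e t t₀ y *
      (M₀ * (1 - vA P κ H u t t₀ y) + M₁ * vA P κ H u t t₀ y) := rfl
    have d1 := (h.sm_vA (P := P) hκ0 hH).diff isOpen_univ (Set.mem_univ x)
    have d2 : DifferentiableAt ℝ (fun y => 1 - vA P κ H u t t₀ y) x :=
      (differentiableAt_const _).fun_sub d1
    rw [hwx, e1, gr_mul (hψ.diff isOpen_univ trivial) ((d2.const_mul _).fun_add (d1.const_mul _)),
      gr_add (d2.const_mul _) (d1.const_mul _), gr_const_mul _ d2, gr_const_mul _ d1,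
      gr_sub (differentiableAt_const _) d1, gr_const, gv, eq_sub_of_add_eq hL1, ← hψx, ← hτ]
    ext i
    simp only [Pi.add_apply, Pi.sub_apply, Pi.zero_apply, Pi.smul_apply, smul_eq_mul]
    ring
  have dw : ∀ M₀ M₁, DifferentiableAt ℝ (wA P κ H u e t t₀ M₀ M₁) x := fun M₀ M₁ =>
    (hw M₀ M₁).diff isOpen_univ trivial
  have i1 : Sm Set.univ (fun y => (es u t t₀ H y)⁻¹) :=
    h.sm_es.inv fun x _ => (h.es_pos hH x).ne'
  have i2 : Sm Set.univ (fun y => (el u H y)⁻¹) := h.sm_el.inv fun x _ => (h.el_pos hH x).ne'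
  have q1 := dd_logder isOpen_univ trivial s h.sm_es h.hess_es s0.ne' gy
  have q2' := dd_logder isOpen_univ trivial s h.sm_el h.hess_el l0.ne' gz
  have t1 := JB_ge' hn h.good trivial h.e_ne s hψ (m + 1) hz psiA_pos.le hL1
  have t2 := h.termK (m + 1) hz.ne' (hLw P.K0 P.K1) (hwx _ _)
  have t3 := h.termT s (hw P.T0 P.T1) (m + 1) hz.ne' (hLw _ _) (hwx _ _)
  have t4 := JL_eq' (u := u) (W := fun y => wA P κ H u e t t₀ P.Z0 P.Z1 y * (es u t t₀ H y)⁻¹)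
    (m + 1) hz.ne' (gr_mul_inv (m + 1) (dw _ _) (h.sm_es.diff isOpen_univ trivial) s0.ne'
      (hLw _ _) (hwx _ _) gy) (by rw [hwx]) gy s0.ne'
  have t5 := JD_quot' h.good trivial h.e_ne s (hw P.E0 P.E1)
    ((h.sm_es.dd isOpen_univ e).mul i1) (m + 1) hz.ne' (hLw _ _) (hwx _ _) q1.1 q1.2
  have t6 := JL_eq' (u := u) (W := fun y => wA P κ H u e t t₀ 0 1 y * (el u H y)⁻¹)
    (m + 1) hz.ne' (gr_mul_inv (m + 1) (dw _ _) (h.sm_el.diff isOpen_univ trivial) l0.ne'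
      (hLw _ _) (hwx _ _) gz) (by rw [hwx]) gz l0.ne'
  have t7 := JD_quot' h.good trivial h.e_ne s (hw 0 1)
    ((h.sm_el.dd isOpen_univ e).mul i2) (m + 1) hz.ne' (hLw _ _) (hwx _ _) q2'.1 q2'.2
  have hxy : c (Xv u e x) * c y = (es u t t₀ H x)⁻¹ := by
    have e1 := q1.1
    rw [dd_eq, h.gr_es, sub_dotProduct, h.te, ← dd_eq] at e1
    have e2 := (h.xi_pos' x).ne'
    rw [s.c_Xv, mul_assoc, ← e1, show dd e u x - 1 = -xi u e x by rw [xi]; ring]
    field_simp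
  have hτ0 : 0 < τ := hτ ▸ vt_pos hκ0
  have hτ1 : τ ≤ 1 := hτ ▸ vt_le hκ0
  have hwk : τ * (el u H x)⁻¹ ≤ P.k0 * (c (Xv u e x) * c y) := by
    have := vt_div_le (a := P.a) hc.a_pos.le hc.a_le hκ0 hη s0 l0 (h.es_le hn hH x)
    rw [hxy, hτ]
    refine this.trans_eq ?_
    rw [hκ]; field_simp
  have hv := vecA hc s (gr (ld u) x) (gr (lq u e) x) (Xv u e x) y z Y
    (((n : ℝ) / th n / u x) • gr u x) L D hτ0.le hτ1 (by rw [hxy]; positivity) hwk s.r_Xv hL hD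
  have hYY : ip u x Y Y = (((m : ℝ) + 3) / zt u x) ^ 2 * ip u x (gr u x) (gr u x) := by
    rw [hY, ip_smul_left, ip_smul_right]; ring
  have hRR : ip u x (((n : ℝ) / th n / u x) • gr u x) (((n : ℝ) / th n / u x) • gr u x)
      = ((n : ℝ) / th n / u x) ^ 2 * ip u x (gr u x) (gr u x) := by
    rw [ip_smul_left, ip_smul_right]; ring
  have hzz : ip u x z z = (el u H x)⁻¹ ^ 2 * ip u x (gr u x) (gr u x) := by
    rw [hz', ip_smul_left, ip_smul_right]; ring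
  refine ⟨ip u x y y, h.good.ip_nonneg trivial, ?_, ?_⟩
  · have := s.sq_le y
    rw [← hxy, ← s.c_Xv_sq]
    exact (two_mul_le_add_sq _ _ |>.trans_eq' (mul_assoc _ _ _)).trans (add_le_add le_rfl this)
  rw [← h.gr_lh, hYY, hRR, hxy] at hv
  have hD0 : 0 ≤ (hess u x).det * zt u x ^ (m + 3) * ψ := by
    have := h.good.det_pos (Set.mem_univ x)
    have := psiA_pos (u := u) (e := e) (x := x) (P := P) (κ := κ) (H := H) (t₀ := t₀) (t := t)
    rw [hψx]
    positivity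
  have := mul_le_mul_of_nonneg_left hv hD0
  rw [TA, t2, t3, t4, t5, t6, t7, h.Lop_es, h.Lop_el, ← hzz, ← s.c_Xv_sq, ← hτ, ← hψx]
  rw [← hψx] at t1
  simp only [ip_add_left, ip_sub_left, ip_smul_left, map_add c, map_smul c, smul_eq_mul]
  rw [show m + 1 + 2 = m + 3 from rfl] at t1 ⊢
  linarith

end Hat

/-- The real-variable inequality behind the second estimate. -/
theorem estA_alg {dA CA CY CK η τ₀ l₀ X Iy I τ l s w a b E : ℝ} (hdA : 0 < dA) (hCA : 0 ≤ CA)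
    (hCY : 0 ≤ CY) (hCK : 0 ≤ CK) (hη : 0 ≤ η) (h1 : l₀ ≤ 1 / 2) (h2 : 4 * (CA * CY) * l₀ ≤ dA * τ₀)
    (h3 : CK * η * l₀ ≤ dA) (hI : 0 ≤ I) (hτ : τ₀ ≤ τ) (hl : 0 < l) (hs : 0 < s) (hsl : s ≤ η * l)
    (hxy : 2 * s⁻¹ ≤ X + Iy) (hIy : 0 ≤ Iy) (ha : a ≤ CY * w ^ 2) (hb : b ≤ CK) (hw0 : 0 ≤ w)
    (hw : l ≤ 1 / 2 → w ≤ 2) (hE : E = dA * (X + Iy + τ * (l⁻¹ ^ 2 * I)) - CA * (a * I) - b)
    (hll : l ≤ l₀) : dA / 2 * X ≤ E := by
  have hw2 : w ^ 2 ≤ 4 := by nlinarith [hw (hll.trans h1)]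
  have a1 : CA * (a * I) ≤ 4 * (CA * CY) * I := by
    have : a ≤ CY * 4 := ha.trans (mul_le_mul_of_nonneg_left hw2 hCY)
    calc CA * (a * I) ≤ CA * (CY * 4 * I) := by gcongr
      _ = _ := by ring
  have a2 : 4 * (CA * CY) * l ^ 2 ≤ dA * τ := by
    have : l ^ 2 ≤ l₀ := by nlinarith
    calc 4 * (CA * CY) * l ^ 2 ≤ 4 * (CA * CY) * l₀ := by gcongr
      _ ≤ dA * τ₀ := h2
      _ ≤ dA * τ := by gcongr
  have a3 : 4 * (CA * CY) * I ≤ dA * (τ * (l⁻¹ ^ 2 * I)) := by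
    calc 4 * (CA * CY) * I = 4 * (CA * CY) * l ^ 2 * (l⁻¹ ^ 2 * I) := by field_simp
      _ ≤ dA * τ * (l⁻¹ ^ 2 * I) := by gcongr
      _ = _ := by ring
  have a4 : CK ≤ dA * s⁻¹ := by
    rw [← div_eq_mul_inv, le_div_iff₀ hs]
    calc CK * s ≤ CK * (η * l₀) := by gcongr; exact hsl.trans (by gcongr)
      _ ≤ dA := by linarith
  have a5 := mul_le_mul_of_nonneg_left hxy hdA.le
  have a6 := mul_nonneg hdA.le hIy
  rw [hE]
  linarith

/-- The second integral estimate. -/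
theorem estA (hn : 2 ≤ n) {P : Par} (hc : Cert n P) :
    ∃ (m : ℕ) (C : ℝ), ∀ (u : (Fin n → ℝ) → ℝ) (e t : Fin n → ℝ) (t₀ : ℝ),
      Hat u e t t₀ → ∀ H : ℝ, 0 < H →
        ∫ x in top u, (hess u x).det * zt u x ^ (m + 3)
          * psiA P (P.k0 / (4 * (n : ℝ) ^ 2)) H u e t t₀ x * (q2 u e x / xi u e x ^ 2) ≤ C := by
  obtain ⟨m, CB, hCB, hB⟩ := estB hn hc
  have h2 : (2 : ℝ) ≤ n := by exact_mod_cast hn
  have hθ := th_pos n
  have hdA := hc.dA_pos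
  have hCA := hc.CA_nonneg
  obtain ⟨η, hη⟩ : ∃ η, η = 4 * (n : ℝ) ^ 2 := ⟨_, rfl⟩
  have hη1 : 1 ≤ η := by rw [hη]; nlinarith
  obtain ⟨κ, hκ⟩ : ∃ κ, κ = P.k0 / (4 * (n : ℝ) ^ 2) := ⟨_, rfl⟩
  have hκ0 : 0 < κ := by have := hc.k0_pos; rw [hκ]; positivity
  obtain ⟨CY, hCY⟩ : ∃ CY, CY = ((m : ℝ) + 3) ^ 2 + ((n : ℝ) / th n) ^ 2 := ⟨_, rfl⟩
  have hCY0 : 0 ≤ CY := by rw [hCY]; positivity
  obtain ⟨CK, hCK⟩ : ∃ CK, CK = (|P.K0| + |P.K1|) * ((n : ℝ) * ((n : ℝ) + 2) / th n) := ⟨_, rfl⟩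
  have hCK0 : 0 ≤ CK := by rw [hCK]; positivity
  obtain ⟨l₀, hl0, hl1, hl2, hl3⟩ : ∃ l₀ : ℝ, 0 < l₀ ∧ l₀ ≤ 1 / 2 ∧
      4 * (P.CA * CY) * l₀ ≤ P.dA * (κ / (η + κ)) ∧ CK * η * l₀ ≤ P.dA := by
    refine ⟨min (1 / 2) (min (P.dA * (κ / (η + κ)) / (4 * (P.CA * CY) + 1)) (P.dA / (CK * η + 1))),
      by positivity, min_le_left _ _, ?_, ?_⟩
    · refine le_trans (mul_le_mul_of_nonneg_left ((min_le_right _ _).trans (min_le_left _ _))
        (by positivity)) ?_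
      rw [← mul_div_assoc, div_le_iff₀ (by positivity)]
      have : 0 ≤ P.dA * (κ / (η + κ)) := by positivity
      linarith
    · refine le_trans (mul_le_mul_of_nonneg_left ((min_le_right _ _).trans (min_le_right _ _))
        (by positivity)) ?_
      rw [← mul_div_assoc, div_le_iff₀ (by positivity)]
      linarith
  obtain ⟨Cs, hCs⟩ : ∃ Cs, Cs = Real.exp (-(P.μ / P.a)
    * Real.log (κ * Real.exp (P.a * Real.log l₀))) := ⟨_, rfl⟩
  have hCs0 : 0 < Cs := hCs ▸ Real.exp_pos _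
  obtain ⟨C', hC'⟩ : ∃ C', C' = Cs * (P.CA * CY + CK) := ⟨_, rfl⟩
  have hC'0 : 0 ≤ C' := by rw [hC']; positivity
  refine ⟨m, 2 / P.dA * (C' * CB * (4 ^ n + (4 * n) ^ n)), fun u e t t₀ h H hH => ?_⟩
  rw [← hκ]
  obtain ⟨J, hJ, hJ2⟩ := hB u e t t₀ h
  have key : ∀ x ∈ top u, P.dA / 2 * ((hess u x).det * zt u x ^ (m + 3)
      * psiA P κ H u e t t₀ x * (q2 u e x / xi u e x ^ 2))
      ≤ TA P κ H m u e t t₀ x + C' * ((hess u x).det * psiB P.p u e x *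
          (zt u x ^ (m + 2) + zt u x ^ (m + 1) * ip u x (gr u x) (gr u x))) := by
    intro x hx
    rcases eq_or_lt_of_le hx.2 with hz | hz
    · simp [Hat.TA_zero m hz.symm, ← hz]
    obtain ⟨q, c, r, s⟩ := h.good.spl (Set.mem_univ x) h.e_ne
    obtain ⟨Iy, hIy, hxy, hT⟩ := h.TA_ge hn hc hH hκ m s hz
    have hd := h.good.det_pos (Set.mem_univ x)
    have hz1 := h.zt_le x
    have hu := h.one_le x
    have hI := h.good.ip_nonneg (a := gr u x) (Set.mem_univ x)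
    have hX : 0 < q2 u e x / xi u e x ^ 2 :=
      div_pos (h.good.q2_pos trivial h.e_ne) (pow_pos (h.xi_pos' x) 2)
    have hψB := psiB_pos (u := u) (e := e) (x := x) P.p
    have hψA := psiA_pos (u := u) (e := e) (x := x) (P := P) (κ := κ) (H := H) (t₀ := t₀) (t := t)
    have s0 := h.es_pos hH x
    have l0 := h.el_pos hH x
    have hsl : es u t t₀ H x ≤ η * el u H x := hη ▸ h.es_le hn hH x
    have hτ0 : 0 < vA P κ H u t t₀ x := vt_pos hκ0
    have hτ1 : vA P κ H u t t₀ x ≤ 1 := vt_le hκ0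
    have hτ2 : κ / (η + κ) ≤ vA P κ H u t t₀ x := vt_ge hc.a_pos.le hc.a_le hκ0 hη1 s0 l0 hsl
    have hw1 : 1 ≤ (zt u x)⁻¹ := (one_le_inv₀ hz).2 hz1
    have ha : (((m : ℝ) + 3) / zt u x) ^ 2 + ((n : ℝ) / th n / u x) ^ 2 ≤ CY * (zt u x)⁻¹ ^ 2 := by
      have b1 : (n : ℝ) / th n / u x ≤ (n : ℝ) / th n * (zt u x)⁻¹ :=
        (div_le_self (by positivity) hu).trans (le_mul_of_one_le_right (by positivity) hw1)
      have b2 : ((n : ℝ) / th n / u x) ^ 2 ≤ ((n : ℝ) / th n * (zt u x)⁻¹) ^ 2 :=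
        pow_le_pow_left₀ (by positivity) b1 2
      rw [hCY, div_eq_mul_inv _ (zt u x), mul_pow, add_mul]
      rw [mul_pow] at b2
      linarith
    have hb : (P.K0 * (1 - vA P κ H u t t₀ x) + P.K1 * vA P κ H u t t₀ x)
        * ((n : ℝ) * ((n : ℝ) + 2) / (th n * u x)) ≤ CK := by
      have b1 : P.K0 * (1 - vA P κ H u t t₀ x) ≤ |P.K0| :=
        (mul_le_mul_of_nonneg_right (le_abs_self _) (by linarith)).trans
          (mul_le_of_le_one_right (abs_nonneg _) (by linarith))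
      have b2 : P.K1 * vA P κ H u t t₀ x ≤ |P.K1| :=
        (mul_le_mul_of_nonneg_right (le_abs_self _) hτ0.le).trans
          (mul_le_of_le_one_right (abs_nonneg _) hτ1)
      rw [hCK, ← div_div]
      exact mul_le_mul (add_le_add b1 b2) (div_le_self (by positivity) hu) (by positivity)
        (by positivity)
    have hD : 0 ≤ (hess u x).det * zt u x ^ (m + 3) * psiA P κ H u e t t₀ x := by positivity
    by_cases hll : el u H x ≤ l₀
    · have := estA_alg hdA hCA hCY0 hCK0 (by linarith) hl1 hl2 hl3 hI hτ2 l0 s0 hsl hxy hIy ha hb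
        (by linarith) (fun hl => by
          rw [inv_le_comm₀ hz two_pos]; unfold el at hl; unfold zt; linarith) rfl hll
      have h3 := (mul_le_mul_of_nonneg_left this hD).trans hT
      refine le_trans (le_of_eq_of_le (by ring) h3) (le_add_of_nonneg_right (by positivity))
    · have b1 : psiA P κ H u e t t₀ x ≤ psiB P.p u e x * Cs := by
        rw [hCs]
        exact mul_le_mul_of_nonneg_left (wt_le hc.μ_nonneg hc.a_pos hκ0 hl0 (not_le.1 hll).le)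
          hψB.le
      have b2 : P.dA / 2 * (q2 u e x / xi u e x ^ 2)
          - (P.CA * (CY * (zt u x)⁻¹ ^ 2 * ip u x (gr u x) (gr u x)) + CK)
          ≤ P.dA * (q2 u e x / xi u e x ^ 2 + Iy
            + vA P κ H u t t₀ x * ((el u H x)⁻¹ ^ 2 * ip u x (gr u x) (gr u x)))
          - P.CA * (((((m : ℝ) + 3) / zt u x) ^ 2 + ((n : ℝ) / th n / u x) ^ 2)
            * ip u x (gr u x) (gr u x))
          - (P.K0 * (1 - vA P κ H u t t₀ x) + P.K1 * vA P κ H u t t₀ x)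
            * ((n : ℝ) * ((n : ℝ) + 2) / (th n * u x)) := by
        have c1 := mul_le_mul_of_nonneg_left (mul_le_mul_of_nonneg_right ha hI) hCA
        have c2 : 0 ≤ P.dA * (Iy
          + vA P κ H u t t₀ x * ((el u H x)⁻¹ ^ 2 * ip u x (gr u x) (gr u x))) := by positivity
        have c3 : 0 ≤ P.dA * (q2 u e x / xi u e x ^ 2) := by positivity
        linarith
      have b3 := (mul_le_mul_of_nonneg_left b2 hD).trans hT
      have b4 : (hess u x).det * zt u x ^ (m + 3) * psiA P κ H u e t t₀ x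
          * (P.CA * (CY * (zt u x)⁻¹ ^ 2 * ip u x (gr u x) (gr u x)) + CK)
          ≤ C' * ((hess u x).det * psiB P.p u e x *
            (zt u x ^ (m + 2) + zt u x ^ (m + 1) * ip u x (gr u x) (gr u x))) := by
        have c1 : zt u x ^ (m + 3) ≤ zt u x ^ (m + 2) := pow_le_pow_of_le_one hz.le hz1 (by omega)
        have c2 : 0 ≤ zt u x ^ (m + 1) * ip u x (gr u x) (gr u x) := by positivity
        have c3 : 0 ≤ P.CA * CY := by positivity
        calc _ ≤ (hess u x).det * zt u x ^ (m + 3) * (psiB P.p u e x * Cs)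
            * (P.CA * (CY * (zt u x)⁻¹ ^ 2 * ip u x (gr u x) (gr u x)) + CK) := by gcongr
          _ = Cs * ((hess u x).det * psiB P.p u e x) * (P.CA * CY
            * (zt u x ^ (m + 1) * ip u x (gr u x) (gr u x)) + CK * zt u x ^ (m + 3)) := by
              field_simp; ring
          _ ≤ Cs * ((hess u x).det * psiB P.p u e x) * ((P.CA * CY + CK)
            * (zt u x ^ (m + 2) + zt u x ^ (m + 1) * ip u x (gr u x) (gr u x))) := by
              refine mul_le_mul_of_nonneg_left ?_ (by positivity)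
              have c4 := mul_le_mul_of_nonneg_left c1 hCK0
              have c5 := mul_nonneg hCK0 c2
              have c6 : 0 ≤ P.CA * CY * zt u x ^ (m + 2) := by positivity
              linarith
          _ = _ := by rw [hC']; ring
      linarith
  have hK : IsCompact (top u) := h.cpt'
  have hd := h.good.sm.det h.good.op
  have i1 : IntegrableOn (fun x => (hess u x).det * zt u x ^ (m + 3)
      * psiA P κ H u e t t₀ x * (q2 u e x / xi u e x ^ 2)) (top u) :=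
    Sm.integrableOn (U := Set.univ) (((hd.mul (h.sm_zt.pow _)).mul (h.sm_psiA hκ0 hH)).mul
      ((h.good.sm.q2 isOpen_univ e).div (h.sm_xi'.pow _) fun x _ => (pow_pos (h.xi_pos' x) 2).ne'))
      hK (Set.subset_univ _)
  have i2 : IntegrableOn (fun x => √(hess u x).det) (top u) :=
    (hd.continuousOn.sqrt.mono (Set.subset_univ _)).integrableOn_compact hK
  have hZ := (h.ZI_TA (P := P) hκ0 hH m).add (hJ.smul C')
  have h3 := hZ.integral_nonpos hK.measurableSet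
    ((i1.const_mul (P.dA / 2)).sub (i2.const_mul (C' * CB))) fun x hx => by
      have a1 := key x hx
      have a2 := mul_le_mul_of_nonneg_left (hJ2 x hx) hC'0
      simp only [Pi.sub_apply]
      linarith
  simp only [Pi.sub_apply] at h3
  rw [integral_sub (i1.const_mul _) (i2.const_mul _), integral_const_mul, integral_const_mul] at h3
  have h4 : ∫ x in top u, √(hess u x).det ≤ 4 ^ n + (4 * n) ^ n := h.int_sqrt_det
  have h5 := mul_le_mul_of_nonneg_left h4 (mul_nonneg hC'0 hCB)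
  rw [div_mul_eq_mul_div, le_div_iff₀ hdA]
  linarith

end Vale.Agent.P252
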