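import Vale.Agent.P252.B.Core

open Matrix MeasureTheory
open scoped ContDiff

namespace Vale.Agent.P252

variable {n : ℕ} {U K : Set (Fin n → ℝ)} {u ζ W F f g : (Fin n → ℝ) → ℝ} {e x : Fin n → ℝ}

/-- Orthogonal coordinates at a point adapted to the direction `e`. -/
structure Spl (u : (Fin n → ℝ) → ℝ) (e x : Fin n → ℝ) (q : ℝ) (c : (Fin n → ℝ) →ₗ[ℝ] ℝ)
    (r : Fin n → (Fin n → ℝ) →ₗ[ℝ] ℝ) : Prop where
  pos : 0 < q
  sq : q2 u e x = q ^ 2
  dot : ∀ a, a ⬝ᵥ e = q * c a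
  ker : ∀ i, r i (hess u x *ᵥ e) = 0
  ip : ∀ a b, ip u x a b = c a * c b + ∑ i, r i a * r i b

theorem Good.spl (h : Good U u) (hx : x ∈ U) (he : e ≠ 0) : ∃ q c r, Spl u e x q c r := by
  obtain ⟨q, R, hq, h2, h3, h4⟩ := h.split hx he
  let c : (Fin n → ℝ) →ₗ[ℝ] ℝ :=
    { toFun := fun a => a ⬝ᵥ e / q
      map_add' := fun a b => by rw [add_dotProduct, add_div]
      map_smul' := fun k a => by simp [mul_div_assoc] }
  let r : Fin n → (Fin n → ℝ) →ₗ[ℝ] ℝ := fun i =>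
    { toFun := fun a => (R *ᵥ a) i
      map_add' := fun a b => by rw [mulVec_add, Pi.add_apply]
      map_smul' := fun k a => by simp [mulVec_smul] }
  refine ⟨q, c, r, hq, h2, fun a => ?_, fun i => ?_, h4⟩
  · show a ⬝ᵥ e = q * (a ⬝ᵥ e / q)
    field_simp
  · show (R *ᵥ (hess u x *ᵥ e)) i = 0
    rw [h3]; rfl

variable {q : ℝ} {c : (Fin n → ℝ) →ₗ[ℝ] ℝ} {r : Fin n → (Fin n → ℝ) →ₗ[ℝ] ℝ}

theorem Spl.sq_le (s : Spl u e x q c r) (a : Fin n → ℝ) : c a ^ 2 ≤ P252.ip u x a a := by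
  rw [s.ip, pow_two]
  exact le_add_of_nonneg_right (Finset.sum_nonneg fun i _ => mul_self_nonneg _)

theorem Spl.c_hess (s : Spl u e x q c r) : c (hess u x *ᵥ e) = q := by
  have h1 := s.dot (hess u x *ᵥ e)
  rw [dotProduct_comm, ← q2, s.sq, pow_two] at h1
  exact (mul_left_cancel₀ s.pos.ne' h1).symm

/-- Vector form of the first certificate. -/
theorem vecB {P : Par} (hc : Cert n P) (s : Spl u e x q c r) (A G X Y R L : Fin n → ℝ)
    (hX : ∀ i, r i X = 0) (hL : L = P.p • G - (1 / 2 : ℝ) • A - (2 * P.p) • X + Y) :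
    P.dB * (c X ^ 2 + ip u x Y Y) ≤
      (ip u x L G - c A * (c L + c A - c G) + (ip u x G G - c G ^ 2)
          + (c A - c G) ^ 2 / ((n : ℝ) - 1))
        + P.lB * (ip u x L (A + R) + th n * ip u x (A + R) (A + R))
        + P.tB * (c X * (c L + c A - c X)) + P.aB * ip u x L Y
        + P.bB * (c Y * (c L + c A - c G)) + P.CB * ip u x R R := by
  have h1 := hc.B1 (c A) (c G) (c X) (c Y) (c R)
  have h2 := Finset.sum_le_sum fun i (_ : i ∈ Finset.univ) =>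
    hc.B2 (r i A) (r i G) (r i Y) (r i R)
  have e1 : ∑ i, (QB2 n P (r i A) (r i G) (r i Y) (r i R) + P.CB * r i R ^ 2)
      = ∑ i, r i L * r i G + ∑ i, r i G * r i G
        + P.lB * (∑ i, r i L * r i (A + R) + th n * ∑ i, r i (A + R) * r i (A + R))
        + P.aB * ∑ i, r i L * r i Y + P.CB * ∑ i, r i R * r i R := by
    simp only [Finset.mul_sum, ← Finset.sum_add_distrib]
    refine Finset.sum_congr rfl fun i _ => ?_
    simp only [hL, map_add, map_sub, map_smul, smul_eq_mul, hX, QB2]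
    ring
  have e2 : ∑ i, P.dB * r i Y ^ 2 = P.dB * ∑ i, r i Y * r i Y := by
    simp only [Finset.mul_sum, pow_two]
  have e3 : c L = P.p * c G - c A / 2 - 2 * P.p * c X + c Y := by
    simp only [hL, map_add, map_sub, map_smul, smul_eq_mul]; ring
  rw [e1, e2] at h2
  simp only [s.ip, map_add c, e3]
  simp only [QB1] at h1
  linarith

theorem JB_ge' (hn : 2 ≤ n) (h : Good U u) (hx : x ∈ U) (he : e ≠ 0) (s : Spl u e x q c r)
    (hW : Sm U W) (k : ℕ) (hz : 0 < ζ x) (hW0 : 0 ≤ W x) {L : Fin n → ℝ}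
    (hL : gr W x + W x • cutY ζ k x = W x • L) :
    (hess u x).det * ζ x ^ (k + 2) * W x * (ip u x L (gr (lq u e) x)
        - c (gr (ld u) x) * (c L + c (gr (ld u) x) - c (gr (lq u e) x))
        + (ip u x (gr (lq u e) x) (gr (lq u e) x) - c (gr (lq u e) x) ^ 2)
        + (c (gr (ld u) x) - c (gr (lq u e) x)) ^ 2 / ((n : ℝ) - 1)) ≤ JB u ζ k e W x := by
  refine le_of_eq_of_le ?_ (JB_ge hn h hx he hW k hz hW0 hL)
  have hq := s.pos.ne'
  have hn1 : (n : ℝ) - 1 ≠ 0 := by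
    have : (2 : ℝ) ≤ n := by exact_mod_cast hn
    linarith
  simp only [s.dot, s.sq]
  congr 1
  field_simp

theorem JL_eq' (k : ℕ) (hz : ζ x ≠ 0) {ψ m σ : ℝ} {L y : Fin n → ℝ}
    (hL : gr W x + W x • cutY ζ k x = (ψ * σ⁻¹) • L) (hW : W x = ψ * m * σ⁻¹)
    (hF : gr F x = σ • y) (hσ : σ ≠ 0) :
    JL u ζ k W F x = (hess u x).det * ζ x ^ (k + 2) * ψ * (ip u x L y + m * σ⁻¹ * Lop u F x) := by
  rw [JL_eq k hz, hL, hF, ip_smul_left, ip_smul_right, hW]
  field_simp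

theorem JD_quot' (h : Good U u) (hx : x ∈ U) (he : e ≠ 0) (s : Spl u e x q c r)
    {V : (Fin n → ℝ) → ℝ} (hW : Sm U W) (hV : Sm U V) (k : ℕ) (hz : ζ x ≠ 0) {ψ m v d : ℝ}
    {L : Fin n → ℝ} (hL : gr W x + W x • cutY ζ k x = ψ • L) (hWx : W x = ψ * m)
    (hVx : V x = q * v) (hd : dd e V x = q ^ 2 * d) :
    JD ζ k e (fun y => (hess u y).det * W y * V y * (q2 u e y)⁻¹) x
      = (hess u x).det * ζ x ^ (k + 2) * ψ *
        (v * (c L + m * (c (gr (ld u) x) - c (gr (lq u e) x))) + m * d) := by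
  have hq := s.pos.ne'
  rw [JD_quot h hx he hW hV k hz, hL, hWx, hVx, hd, smul_dotProduct, smul_eq_mul]
  simp only [s.dot, s.sq]
  field_simp

/-- The cut-off base `2 - u`. -/
noncomputable def zt (u : (Fin n → ℝ) → ℝ) (y : Fin n → ℝ) : ℝ := 2 - u y

/-- The slope defect `1 - u_e`. -/
noncomputable def xi (u : (Fin n → ℝ) → ℝ) (e y : Fin n → ℝ) : ℝ := 1 - dd e u y

/-- The logarithmic gradient of the slope defect. -/
noncomputable def Xv (u : (Fin n → ℝ) → ℝ) (e y : Fin n → ℝ) : Fin n → ℝ :=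
  -(xi u e y)⁻¹ • (hess u y *ᵥ e)

/-- The top section. -/
def top (u : (Fin n → ℝ) → ℝ) : Set (Fin n → ℝ) := {x | x ∈ Set.univ ∧ 0 ≤ zt u x}

/-- The first weight. -/
noncomputable def psiB (p : ℝ) (u : (Fin n → ℝ) → ℝ) (e y : Fin n → ℝ) : ℝ :=
  Real.exp (p * lq u e y - 1 / 2 * ld u y - 2 * p * Real.log (xi u e y))

theorem psiB_pos (p : ℝ) : 0 < psiB p u e x := Real.exp_pos _

theorem Spl.c_Xv (s : Spl u e x q c r) : c (Xv u e x) = -(xi u e x)⁻¹ * q := by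
  rw [Xv, map_smul, s.c_hess, smul_eq_mul]

theorem Spl.r_Xv (s : Spl u e x q c r) (i : Fin n) : r i (Xv u e x) = 0 := by
  rw [Xv, map_smul, s.ker, smul_zero]

theorem Spl.c_Xv_sq (s : Spl u e x q c r) : c (Xv u e x) ^ 2 = q2 u e x / xi u e x ^ 2 := by
  rw [s.c_Xv, s.sq]; ring

namespace Hat

variable {t : Fin n → ℝ} {t₀ : ℝ}

theorem xi_pos' (h : Hat u e t t₀) (x : Fin n → ℝ) : 0 < xi u e x := h.xi_pos x

theorem sm_xi' (h : Hat u e t t₀) : Sm Set.univ (xi u e) := h.sm_xi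

theorem sm_zt (h : Hat u e t t₀) : Sm Set.univ (zt u) := h.sm_zeta

theorem cpt' (h : Hat u e t t₀) : IsCompact {x | x ∈ Set.univ ∧ 0 ≤ zt u x} := h.cpt

theorem zt_le (h : Hat u e t t₀) (x : Fin n → ℝ) : zt u x ≤ 1 := by
  have := h.one_le x
  unfold zt; linarith

theorem cutY_eq (h : Hat u e t t₀) (k : ℕ) (x : Fin n → ℝ) :
    cutY (zt u) k x = (-(((k : ℝ) + 2) / zt u x)) • gr u x := by
  have : gr (zt u) x = -gr u x := h.gr_zeta x
  rw [cutY, this, smul_neg, neg_smul]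

theorem sm_logxi (h : Hat u e t t₀) : Sm Set.univ (fun y => Real.log (xi u e y)) :=
  h.sm_xi'.log fun y _ => (h.xi_pos' y).ne'

theorem gr_logxi (h : Hat u e t t₀) (x : Fin n → ℝ) :
    gr (fun y => Real.log (xi u e y)) x = Xv u e x := by
  have : gr (xi u e) x = -(hess u x *ᵥ e) := h.gr_xi x
  rw [gr_log (h.sm_xi'.diff isOpen_univ trivial) (h.xi_pos' x).ne', this, Xv, smul_neg, neg_smul]

theorem sm_psiB (h : Hat u e t t₀) (p : ℝ) : Sm Set.univ (psiB p u e) :=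
  (((contDiffOn_const.mul (h.good.sm_lq h.e_ne)).sub (contDiffOn_const.mul h.good.sm_ld)).sub
    (contDiffOn_const.mul h.sm_logxi)).exp

theorem gr_psiB (h : Hat u e t t₀) (p : ℝ) (x : Fin n → ℝ) :
    gr (psiB p u e) x = psiB p u e x •
      (p • gr (lq u e) x - (1 / 2 : ℝ) • gr (ld u) x - (2 * p) • Xv u e x) := by
  have d1 := (h.good.sm_lq h.e_ne).diff isOpen_univ (Set.mem_univ x)
  have d2 := h.good.sm_ld.diff isOpen_univ (Set.mem_univ x)
  have d3 := h.sm_logxi.diff isOpen_univ (Set.mem_univ x)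
  have e1 : psiB p u e = fun y =>
      Real.exp (p * lq u e y - 1 / 2 * ld u y - 2 * p * Real.log (xi u e y)) := rfl
  conv_lhs => rw [e1]
  rw [gr_exp (((d1.const_mul _).fun_sub (d2.const_mul _)).fun_sub (d3.const_mul _)),
    gr_sub ((d1.const_mul _).fun_sub (d2.const_mul _)) (d3.const_mul _),
    gr_sub (d1.const_mul _) (d2.const_mul _), gr_const_mul _ d1, gr_const_mul _ d2,
    gr_const_mul _ d3, h.gr_logxi]
  rfl

theorem det_psiB (h : Hat u e t t₀) (p : ℝ) (x : Fin n → ℝ) :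
    (hess u x).det * psiB p u e x = √(hess u x).det * (q2 u e x / xi u e x ^ 2) ^ p := by
  have hd := h.good.det_pos (Set.mem_univ x)
  have hq := h.good.q2_pos (Set.mem_univ x) h.e_ne
  have hx := h.xi_pos' x
  rw [Real.rpow_def_of_pos (by positivity), Real.log_div hq.ne' (by positivity), Real.log_pow,
    Real.sqrt_eq_rpow, Real.rpow_def_of_pos hd, ← Real.exp_add, psiB]
  conv_lhs => rw [← Real.exp_log hd]
  rw [← Real.exp_add]
  congr 1
  simp only [lq, ld]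
  push_cast
  ring

theorem termK (h : Hat u e t t₀) (k : ℕ) (hz : ζ x ≠ 0) {ψ m : ℝ} {L : Fin n → ℝ}
    (hL : gr W x + W x • cutY ζ k x = ψ • L) (hW : W x = ψ * m) :
    JL u ζ k W (lh u 1 0) x = (hess u x).det * ζ x ^ (k + 2) * ψ *
      (ip u x L (gr (lh u 1 0) x) + m * (th n * ip u x (gr (lh u 1 0) x) (gr (lh u 1 0) x)
        - (n : ℝ) * ((n : ℝ) + 2) / (th n * u x))) := by
  rw [JL_eq k hz, hL, hW, ip_smul_left, h.Lop_lh]
  ring

theorem sm_ninv (h : Hat u e t t₀) : Sm Set.univ (fun y => -(xi u e y)⁻¹) :=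
  (h.sm_xi'.inv fun y _ => (h.xi_pos' y).ne').neg

theorem termT (h : Hat u e t t₀) (s : Spl u e x q c r) (hW : Sm Set.univ W) (k : ℕ)
    (hz : ζ x ≠ 0) {ψ m : ℝ} {L : Fin n → ℝ} (hL : gr W x + W x • cutY ζ k x = ψ • L)
    (hWx : W x = ψ * m) :
    JD ζ k e (fun y => (hess u y).det * W y * (-(xi u e y)⁻¹)) x
      = (hess u x).det * ζ x ^ (k + 2) * ψ *
        (c (Xv u e x) * (c L + m * (c (gr (ld u) x) - c (Xv u e x)))) := by
  have hx := (h.xi_pos' x).ne'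
  have h1 : gr (xi u e) x = -(hess u x *ᵥ e) := h.gr_xi x
  have h2 : dd e (fun y => -(xi u e y)⁻¹) x = -(q ^ 2 / xi u e x ^ 2) := by
    rw [dd, gr_neg, gr_inv (h.sm_xi'.diff isOpen_univ trivial) hx, h1, ← s.sq, q2]
    simp only [dotProduct_neg, dotProduct_smul, smul_eq_mul]
    ring
  rw [JD_plain h.good trivial hW h.sm_ninv k hz, hL, hWx, h2, smul_dotProduct, smul_eq_mul,
    s.c_Xv]
  simp only [s.dot]
  field_simp
  ring

end Hat

/-- The combination of identities in the first estimate. -/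
noncomputable def TB (P : Par) (m : ℕ) (u : (Fin n → ℝ) → ℝ) (e x : Fin n → ℝ) : ℝ :=
  JB u (zt u) (m + 1) e (psiB P.p u e) x
    + P.lB * JL u (zt u) (m + 1) (psiB P.p u e) (lh u 1 0) x
    + P.tB * JD (zt u) (m + 1) e (fun y => (hess u y).det * psiB P.p u e y * (-(xi u e y)⁻¹)) x
    + P.aB * JL u (zt u) m (fun y => -((m : ℝ) + 3) * psiB P.p u e y) u x
    + P.bB * JD (zt u) m e (fun y => (hess u y).det * (-((m : ℝ) + 3) * psiB P.p u e y)
        * dd e u y * (q2 u e y)⁻¹) x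

namespace Hat

variable {t : Fin n → ℝ} {t₀ : ℝ}

theorem ZI_TB (h : Hat u e t t₀) (P : Par) (m : ℕ) : ZI (top u) (TB P m u e) := by
  have hψ := h.sm_psiB P.p
  have hψ' : Sm Set.univ (fun y => -((m : ℝ) + 3) * psiB P.p u e y) := contDiffOn_const.mul hψ
  have hd := h.good.sm.det h.good.op
  exact ((((ZI_JB h.good h.e_ne h.sm_zt h.cpt' hψ _).add
    ((ZI_JL h.good h.sm_zt h.cpt' hψ h.sm_lh _).smul _)).add
    ((ZI_JD isOpen_univ h.sm_zt h.cpt' ((hd.mul hψ).mul h.sm_ninv) _ _).smul _)).add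
    ((ZI_JL h.good h.sm_zt h.cpt' hψ' h.good.sm _).smul _)).add
    ((ZI_JD isOpen_univ h.sm_zt h.cpt' (sm_quot h.good h.e_ne hψ' (h.good.sm.dd h.good.op e))
      _ _).smul _)

theorem TB_zero (P : Par) (m : ℕ) (hz : zt u x = 0) : TB P m u e x = 0 := by
  simp [TB, JB, JL_zero _ hz, JD_zero _ hz]

theorem TB_ge (hn : 2 ≤ n) {P : Par} (hc : Cert n P) (h : Hat u e t t₀) (m : ℕ)
    (s : Spl u e x q c r) (hz : 0 < zt u x) :
    (hess u x).det * zt u x ^ (m + 3) * psiB P.p u e x *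
      (P.dB * (q2 u e x / xi u e x ^ 2 + (((m : ℝ) + 3) / zt u x) ^ 2 * ip u x (gr u x) (gr u x))
        - P.CB * ((n : ℝ) / th n / u x) ^ 2 * ip u x (gr u x) (gr u x)
        - P.lB * ((n : ℝ) * ((n : ℝ) + 2) / (th n * u x))
        - P.aB * (((m : ℝ) + 3) / zt u x ^ 2 * ip u x (gr u x) (gr u x)
          + ((m : ℝ) + 3) * n / zt u x)
        - P.bB * (((m : ℝ) + 3) / zt u x ^ 2 * c (gr u x) ^ 2 + ((m : ℝ) + 3) / zt u x))
      ≤ TB P m u e x := by
  have hψ := h.sm_psiB P.p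
  have hψ' : Sm Set.univ (fun y => -((m : ℝ) + 3) * psiB P.p u e y) := contDiffOn_const.mul hψ
  have hj : (0 : ℝ) < (m : ℝ) + 3 := by positivity
  obtain ⟨Y, hY⟩ : ∃ Y, Y = (-(((m : ℝ) + 3) / zt u x)) • gr u x := ⟨_, rfl⟩
  have hY1 : cutY (zt u) (m + 1) x = Y := by
    rw [h.cutY_eq, hY]; push_cast; ring_nf
  obtain ⟨L, hL⟩ : ∃ L, L = P.p • gr (lq u e) x - (1 / 2 : ℝ) • gr (ld u) x
    - (2 * P.p) • Xv u e x + Y := ⟨_, rfl⟩
  have hL1 : gr (psiB P.p u e) x + psiB P.p u e x • cutY (zt u) (m + 1) x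
      = psiB P.p u e x • L := by
    rw [h.gr_psiB, hY1, hL, smul_add]
  have hL0 : gr (fun y => -((m : ℝ) + 3) * psiB P.p u e y) x
      + (-((m : ℝ) + 3) * psiB P.p u e x) • cutY (zt u) m x
      = (-((m : ℝ) + 3) * psiB P.p u e x) • (L - ((m : ℝ) + 3)⁻¹ • Y) := by
    rw [gr_const_mul _ (hψ.diff isOpen_univ trivial), h.gr_psiB, h.cutY_eq, hL, hY]
    ext i
    simp only [Pi.add_apply, Pi.sub_apply, Pi.smul_apply, smul_eq_mul]
    field_simp
    ring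
  have t1 := JB_ge' hn h.good trivial h.e_ne s hψ (m + 1) hz (psiB_pos P.p).le hL1
  have t2 := h.termK (m + 1) hz.ne' hL1 (mul_one _).symm
  have t3 := h.termT s hψ (m + 1) hz.ne' hL1 (mul_one _).symm
  have t4 : JL u (zt u) m (fun y => -((m : ℝ) + 3) * psiB P.p u e y) u x
      = (hess u x).det * zt u x ^ (m + 3) * psiB P.p u e x *
        (ip u x L Y - (((m : ℝ) + 3) / zt u x ^ 2 * ip u x (gr u x) (gr u x)
          + ((m : ℝ) + 3) * n / zt u x)) := by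
    rw [JL_eq m hz.ne', hL0, h.good.Lop_self trivial, ip_smul_left, ip_sub_left, ip_smul_left, hY,
      ip_smul_right, ip_smul_left]
    field_simp
    ring
  have t5 : JD (zt u) m e (fun y => (hess u y).det * (-((m : ℝ) + 3) * psiB P.p u e y)
        * dd e u y * (q2 u e y)⁻¹) x
      = (hess u x).det * zt u x ^ (m + 3) * psiB P.p u e x *
        (c Y * (c L + c (gr (ld u) x) - c (gr (lq u e) x))
          - (((m : ℝ) + 3) / zt u x ^ 2 * c (gr u x) ^ 2 + ((m : ℝ) + 3) / zt u x)) := by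
    rw [JD_quot' h.good trivial h.e_ne s hψ' (h.good.sm.dd h.good.op e) m hz.ne' hL0
      (mul_one _).symm (v := c (gr u x)) (d := 1) (by rw [dd_eq, s.dot])
      (by rw [← q2_eq_dd isOpen_univ h.good.sm trivial, s.sq, mul_one]), map_sub, map_smul, hY,
      map_smul]
    simp only [smul_eq_mul]
    field_simp
    ring
  have hv := vecB hc s (gr (ld u) x) (gr (lq u e) x) (Xv u e x) Y
    (((n : ℝ) / th n / u x) • gr u x) L s.r_Xv hL
  rw [← h.gr_lh, s.c_Xv_sq] at hv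
  have hYY : ip u x Y Y = (((m : ℝ) + 3) / zt u x) ^ 2 * ip u x (gr u x) (gr u x) := by
    rw [hY, ip_smul_left, ip_smul_right]; ring
  have hRR : ip u x (((n : ℝ) / th n / u x) • gr u x) (((n : ℝ) / th n / u x) • gr u x)
      = ((n : ℝ) / th n / u x) ^ 2 * ip u x (gr u x) (gr u x) := by
    rw [ip_smul_left, ip_smul_right]; ring
  rw [hYY, hRR] at hv
  have hD : 0 ≤ (hess u x).det * zt u x ^ (m + 3) * psiB P.p u e x := by
    have := h.good.det_pos (Set.mem_univ x)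
    have := psiB_pos (u := u) (e := e) (x := x) P.p
    positivity
  have := mul_le_mul_of_nonneg_left hv hD
  rw [TB, t2, t3, t4, t5]
  rw [show m + 1 + 2 = m + 3 from rfl] at t1 ⊢
  linarith

end Hat

theorem closure_ineq {X z p ρ : ℝ} {k : ℕ} (hX : 0 < X) (hz : 0 < z) (hz1 : z ≤ 1) (hp : 0 ≤ p)
    (hk : p ≤ k) (hρ : 0 < ρ) : X ^ p * z ^ k ≤ ρ * (X ^ p * X * z ^ (k + 1)) + ρ⁻¹ ^ p := by
  have hXp := Real.rpow_pos_of_pos hX p
  by_cases hc : 1 ≤ ρ * X * z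
  · have : X ^ p * z ^ k * 1 ≤ X ^ p * z ^ k * (ρ * X * z) :=
      mul_le_mul_of_nonneg_left hc (by positivity)
    have h2 : 0 ≤ ρ⁻¹ ^ p := by positivity
    calc X ^ p * z ^ k ≤ X ^ p * z ^ k * (ρ * X * z) := by simpa using this
      _ = ρ * (X ^ p * X * z ^ (k + 1)) := by ring
      _ ≤ _ := le_add_of_nonneg_right h2
  · have h1 : X * z ≤ ρ⁻¹ := by
      rw [inv_eq_one_div, le_div_iff₀ hρ]; push Not at hc; nlinarith
    have h2 : z ^ k ≤ z ^ p := by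
      rw [← Real.rpow_natCast]; exact Real.rpow_le_rpow_of_exponent_ge hz hz1 hk
    calc X ^ p * z ^ k ≤ X ^ p * z ^ p := mul_le_mul_of_nonneg_left h2 hXp.le
      _ = (X * z) ^ p := (Real.mul_rpow hX.le hz.le).symm
      _ ≤ ρ⁻¹ ^ p := Real.rpow_le_rpow (by positivity) h1 hp
      _ ≤ _ := le_add_of_nonneg_left (by positivity)

/-- The first integral estimate, in pointwise form. -/
theorem estB (hn : 2 ≤ n) {P : Par} (hc : Cert n P) :
    ∃ (m : ℕ) (C : ℝ), 0 ≤ C ∧ ∀ (u : (Fin n → ℝ) → ℝ) (e t : Fin n → ℝ) (t₀ : ℝ),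
      Hat u e t t₀ → ∃ J, ZI (top u) J ∧ ∀ x ∈ top u,
        (hess u x).det * psiB P.p u e x *
          (zt u x ^ (m + 2) + zt u x ^ (m + 1) * ip u x (gr u x) (gr u x))
          ≤ J x + C * √(hess u x).det := by
  have hdB := hc.dB_pos
  have hCB := hc.CB_nonneg
  have hθ := th_pos n
  obtain ⟨m, hm⟩ := exists_nat_ge
    (P.p + 2 / P.dB * (P.CB * ((n : ℝ) / th n) ^ 2 + |P.aB| + |P.bB|))
  have hp := hc.p_nonneg
  have hE : 0 ≤ P.CB * ((n : ℝ) / th n) ^ 2 + |P.aB| + |P.bB| := by positivity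
  have hE' : 0 ≤ 2 / P.dB * (P.CB * ((n : ℝ) / th n) ^ 2 + |P.aB| + |P.bB|) := by positivity
  obtain ⟨C₁, hC₁⟩ : ∃ C₁ : ℝ, C₁ = |P.lB| * ((n : ℝ) * ((n : ℝ) + 2) / th n)
    + (|P.aB| * n + |P.bB|) * ((m : ℝ) + 3) := ⟨_, rfl⟩
  have hC₁0 : 0 ≤ C₁ := by rw [hC₁]; positivity
  obtain ⟨ρ, hρ⟩ : ∃ ρ : ℝ, ρ = 2 / (1 + 2 / P.dB * C₁) := ⟨_, rfl⟩
  have hρ0 : 0 < ρ := by rw [hρ]; positivity
  refine ⟨m, (1 + 2 / P.dB * C₁) * ρ⁻¹ ^ P.p, by positivity, fun u e t t₀ h =>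
    ⟨fun x => 2 / P.dB * TB P m u e x, (h.ZI_TB P m).smul _, fun x hx => ?_⟩⟩
  have hd := h.good.det_pos (Set.mem_univ x)
  beta_reduce
  rcases eq_or_lt_of_le hx.2 with hz | hz
  · simp only [Hat.TB_zero P m hz.symm, ← hz]
    simp only [ne_eq, Nat.add_eq_zero_iff, OfNat.ofNat_ne_zero, and_false, not_false_eq_true,
      zero_pow, one_ne_zero, zero_mul, add_zero, mul_zero, zero_add]
    positivity
  obtain ⟨q, c, r, s⟩ := h.good.spl (Set.mem_univ x) h.e_ne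
  have hT := h.TB_ge hn hc m s hz
  have hz1 := h.zt_le x
  have hu := h.one_le x
  have hI := h.good.ip_nonneg (a := gr u x) (Set.mem_univ x)
  have hcI := s.sq_le (gr u x)
  have hX : 0 < q2 u e x / xi u e x ^ 2 :=
    div_pos (h.good.q2_pos trivial h.e_ne) (pow_pos (h.xi_pos' x) 2)
  have hcl := closure_ineq (k := m + 2) hX hz hz1 hp (by push_cast; linarith) hρ0
  have hdψ := h.det_psiB P.p x
  have hψ := psiB_pos (u := u) (e := e) (x := x) P.p
  have hI₁0 : 0 ≤ c (gr u x) ^ 2 := sq_nonneg _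
  generalize ip u x (gr u x) (gr u x) = I at *
  generalize c (gr u x) ^ 2 = I₁ at hT hcI hI₁0
  generalize q2 u e x / xi u e x ^ 2 = X at *
  generalize zt u x = z at *
  generalize TB P m u e x = T at *
  obtain ⟨j, hj⟩ : ∃ j : ℝ, j = (m : ℝ) + 3 := ⟨_, rfl⟩
  rw [← hj] at hT hC₁
  have hj1 : 1 ≤ j := by rw [hj]; linarith [Nat.cast_nonneg (α := ℝ) m]
  have hjE : P.CB * ((n : ℝ) / th n) ^ 2 + |P.aB| + |P.bB| ≤ P.dB / 2 * j := by
    have : 2 / P.dB * (P.CB * ((n : ℝ) / th n) ^ 2 + |P.aB| + |P.bB|) ≤ j := by linarith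
    rw [div_mul_eq_mul_div, div_le_iff₀ hdB] at this
    linarith
  obtain ⟨w, hw⟩ : ∃ w : ℝ, w = z⁻¹ := ⟨_, rfl⟩
  have hw1 : 1 ≤ w := by rw [hw]; exact (one_le_inv₀ hz).2 hz1
  have hwI : 0 ≤ w ^ 2 * I := by positivity
  have a1 : P.CB * ((n : ℝ) / th n / u x) ^ 2 * I
      ≤ P.CB * ((n : ℝ) / th n) ^ 2 * (j * (w ^ 2 * I)) := by
    have b1 : (n : ℝ) / th n / u x ≤ (n : ℝ) / th n := div_le_self (by positivity) hu
    have b2 : I ≤ j * (w ^ 2 * I) := by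
      have : I ≤ w ^ 2 * I := le_mul_of_one_le_left hI (one_le_pow₀ hw1)
      exact this.trans (le_mul_of_one_le_left hwI hj1)
    have b3 : 0 ≤ (n : ℝ) / th n / u x := by positivity
    gcongr
  have a2 : P.aB * (j / z ^ 2 * I + j * n / z) ≤ |P.aB| * (j * (w ^ 2 * I) + n * j * w) := by
    rw [show j * (w ^ 2 * I) + n * j * w = j / z ^ 2 * I + j * n / z by rw [hw]; field_simp]
    exact mul_le_mul_of_nonneg_right (le_abs_self _) (by positivity)
  have hI₁ : 0 ≤ I₁ := hI₁0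
  have a3 : P.bB * (j / z ^ 2 * I₁ + j / z) ≤ |P.bB| * (j * (w ^ 2 * I) + j * w) := by
    rw [show j * (w ^ 2 * I) + j * w = j / z ^ 2 * I + j / z by rw [hw]; field_simp]
    refine (mul_le_mul_of_nonneg_right (le_abs_self _) (by positivity)).trans ?_
    gcongr
  have a4 : P.lB * ((n : ℝ) * ((n : ℝ) + 2) / (th n * u x))
      ≤ |P.lB| * ((n : ℝ) * ((n : ℝ) + 2) / th n) * w := by
    refine (mul_le_mul_of_nonneg_right (le_abs_self _) (by positivity)).trans ?_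
    refine le_trans ?_ (le_mul_of_one_le_right (by positivity) hw1)
    rw [← div_div]
    exact mul_le_mul_of_nonneg_left (div_le_self (by positivity) hu) (abs_nonneg _)
  have a5 : (P.CB * ((n : ℝ) / th n) ^ 2 + |P.aB| + |P.bB|) * (j * (w ^ 2 * I))
      ≤ P.dB / 2 * j * (j * (w ^ 2 * I)) := mul_le_mul_of_nonneg_right hjE (by positivity)
  have a6 : P.dB / 2 * (w ^ 2 * I) ≤ P.dB / 2 * (j * j * (w ^ 2 * I)) :=
    mul_le_mul_of_nonneg_left (le_mul_of_one_le_left hwI (one_le_mul_of_one_le_of_one_le hj1 hj1))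
      (by positivity)
  have a7 : (j / z) ^ 2 * I = j * j * (w ^ 2 * I) := by rw [hw]; field_simp
  have a8 : (hess u x).det * z ^ (m + 3) * psiB P.p u e x
      * (P.dB * X + P.dB / 2 * (w ^ 2 * I) - C₁ * w) ≤ T := by
    refine le_trans (mul_le_mul_of_nonneg_left ?_ (by positivity)) hT
    rw [a7, hC₁]
    linarith
  have a9 : 2 / P.dB * ((hess u x).det * z ^ (m + 3) * psiB P.p u e x
      * (P.dB * X + P.dB / 2 * (w ^ 2 * I) - C₁ * w))
      = (hess u x).det * psiB P.p u e x *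
        (2 * X * z ^ (m + 3) + z ^ (m + 1) * I - 2 / P.dB * C₁ * z ^ (m + 2)) := by
    rw [hw]; field_simp; ring
  have a10 := mul_le_mul_of_nonneg_left a8 (by positivity : 0 ≤ 2 / P.dB)
  have a11 := mul_le_mul_of_nonneg_left hcl
    (by positivity : 0 ≤ √(hess u x).det * (1 + 2 / P.dB * C₁))
  have a12 : (1 + 2 / P.dB * C₁) * ρ = 2 := by rw [hρ]; field_simp
  rw [a9, hdψ] at a10
  rw [hdψ]
  have a13 : √(hess u x).det * (1 + 2 / P.dB * C₁) * (ρ * (X ^ P.p * X * z ^ (m + 2 + 1)) + ρ⁻¹ ^ P.p)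
      = √(hess u x).det * X ^ P.p * (2 * X * z ^ (m + 3))
        + (1 + 2 / P.dB * C₁) * ρ⁻¹ ^ P.p * √(hess u x).det := by
    linear_combination √(hess u x).det * X ^ P.p * X * z ^ (m + 3) * a12
  rw [a13] at a11
  linarith

end Vale.Agent.P252
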