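import Vale.Agent.P252.B.IBP
import Vale.Agent.P252.B.Conv

open Matrix MeasureTheory
open scoped ContDiff ENNReal

namespace Vale.Agent.P252

variable {n : ℕ}

theorem WH_lint_aff {G : (Fin n → ℝ) → ℝ≥0∞} (hG : Measurable G) (a : Fin n → ℝ) {t : ℝ}
    (ht : 1 / 2 ≤ t) : ∫⁻ x, G (a + t • x) ≤ 2 ^ n * ∫⁻ x, G x := by
  have ht0 : 0 < t := by linarith
  have hG' : Measurable fun z : Fin n → ℝ => G (a + z) := hG.comp (measurable_const_add a)
  have h1 : ∫⁻ x, G (a + t • x)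
      = ∫⁻ z, G (a + z) ∂(Measure.map (fun x : Fin n → ℝ => t • x) volume) :=
    (lintegral_map hG' (measurable_const_smul t)).symm
  rw [h1, Measure.map_addHaar_smul volume ht0.ne', lintegral_smul_measure,
    lintegral_add_left_eq_self (fun z => G z) a, smul_eq_mul]
  gcongr
  rw [Module.finrank_fin_fun]
  have h2 : |(t ^ n)⁻¹| ≤ 2 ^ n := by
    rw [abs_of_pos (by positivity), ← inv_pow]
    have : t⁻¹ ≤ 2 := by
      rw [inv_le_comm₀ ht0 (by norm_num)]; linarith
    exact pow_le_pow_left₀ (by positivity) this n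
  calc ENNReal.ofReal |(t ^ n)⁻¹| ≤ ENNReal.ofReal (2 ^ n) := ENNReal.ofReal_le_ofReal h2
    _ = 2 ^ n := by rw [ENNReal.ofReal_pow (by norm_num)]; simp

theorem WH_vol_le {K : Set (Fin n → ℝ)} (hs : K ⊆ Metric.closedBall 0 1) :
    volume K ≤ 2 ^ n := by
  calc volume K ≤ volume (Metric.closedBall (0 : Fin n → ℝ) 1) := measure_mono hs
    _ = 2 ^ n := by
      rw [Real.volume_pi_closedBall _ zero_le_one, Fintype.card_fin,
        ENNReal.ofReal_pow (by norm_num)]
      simp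

theorem WH_vol_real_le {K : Set (Fin n → ℝ)} (hs : K ⊆ Metric.closedBall 0 1) :
    volume.real K ≤ 2 ^ n := by
  have h := WH_vol_le hs
  have h2 : (2 : ℝ≥0∞) ^ n ≠ ⊤ := by simp
  have := ENNReal.toReal_mono h2 h
  simpa [Measure.real] using this

theorem WH_pair_le {G : (Fin n → ℝ) → ℝ≥0∞} (hG : Measurable G) {K : Set (Fin n → ℝ)}
    (hs : K ⊆ Metric.closedBall 0 1) (t : ℝ) :
    ∫⁻ p : (Fin n → ℝ) × (Fin n → ℝ), G ((1 - t) • p.1 + t • p.2)
      ∂((volume.restrict K).prod (volume.restrict K)) ≤ 4 ^ n * ∫⁻ x, G x := by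
  have hm : Measurable fun p : (Fin n → ℝ) × (Fin n → ℝ) => G ((1 - t) • p.1 + t • p.2) :=
    hG.comp (by fun_prop)
  have h4 : (4 : ℝ≥0∞) ^ n = 2 ^ n * 2 ^ n := by rw [← mul_pow]; norm_num
  rcases le_total (1 / 2) t with ht | ht
  · rw [lintegral_prod _ hm.aemeasurable]
    calc ∫⁻ y in K, ∫⁻ x in K, G ((1 - t) • y + t • x)
        ≤ ∫⁻ _y in K, 2 ^ n * ∫⁻ x, G x := by
          refine lintegral_mono fun y => ?_
          exact (setLIntegral_le_lintegral _ _).trans (WH_lint_aff hG _ ht)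
      _ = (2 ^ n * ∫⁻ x, G x) * volume K := by rw [setLIntegral_const]
      _ ≤ (2 ^ n * ∫⁻ x, G x) * 2 ^ n := by gcongr; exact WH_vol_le hs
      _ = 4 ^ n * ∫⁻ x, G x := by rw [h4]; ring
  · rw [lintegral_prod_symm _ hm.aemeasurable]
    calc ∫⁻ x in K, ∫⁻ y in K, G ((1 - t) • y + t • x)
        ≤ ∫⁻ _x in K, 2 ^ n * ∫⁻ x, G x := by
          refine lintegral_mono fun x => ?_
          refine (setLIntegral_le_lintegral _ _).trans ?_
          have := WH_lint_aff hG (t • x) (t := 1 - t) (by linarith)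
          simpa only [add_comm] using this
      _ = (2 ^ n * ∫⁻ x, G x) * volume K := by rw [setLIntegral_const]
      _ ≤ (2 ^ n * ∫⁻ x, G x) * 2 ^ n := by gcongr; exact WH_vol_le hs
      _ = 4 ^ n * ∫⁻ x, G x := by rw [h4]; ring

theorem WH_dot_le {a b : Fin n → ℝ} {r : ℝ} (ha : ‖a‖ ≤ r) : |a ⬝ᵥ b| ≤ r * ∑ i, |b i| := by
  rw [dotProduct, Finset.mul_sum]
  refine (Finset.abs_sum_le_sum_abs _ _).trans (Finset.sum_le_sum fun i _ => ?_)
  rw [abs_mul]
  have : |a i| ≤ r := (norm_le_pi_norm a i).trans ha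
  gcongr

theorem WH_seg {U K : Set (Fin n → ℝ)} {v : (Fin n → ℝ) → ℝ} (hU : IsOpen U) (hv : Sm U v)
    (hc : Convex ℝ K) (hKU : K ⊆ U) (hs : K ⊆ Metric.closedBall 0 1) {x y : Fin n → ℝ}
    (hx : x ∈ K) (hy : y ∈ K) :
    ENNReal.ofReal (v x - v y) ≤ ∫⁻ t in Set.Ioc (0 : ℝ) 1,
      2 * K.indicator (fun z => ENNReal.ofReal (∑ i, |gr v z i|)) ((1 - t) • y + t • x) := by
  have hmem : ∀ t ∈ Set.Icc (0 : ℝ) 1, (1 - t) • y + t • x ∈ K := fun t ht =>
    hc hy hx (by linarith [ht.2]) ht.1 (by ring)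
  have hγ : ∀ t : ℝ, HasDerivAt (fun s : ℝ => (1 - s) • y + s • x) (x - y) t := by
    intro t
    have h1 := (((hasDerivAt_id t).const_sub 1).smul_const y).add
      ((hasDerivAt_id t).smul_const x)
    have h2 : (-1 : ℝ) • y + (1 : ℝ) • x = x - y := by
      rw [neg_one_smul, one_smul]; abel
    rw [h2] at h1
    exact h1
  have hd : ∀ t ∈ Set.uIcc (0 : ℝ) 1, HasDerivAt (fun s : ℝ => v ((1 - s) • y + s • x))
      ((x - y) ⬝ᵥ gr v ((1 - t) • y + t • x)) t := by
    intro t ht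
    rw [Set.uIcc_of_le zero_le_one] at ht
    have h1 := (hv.diff hU (hKU (hmem t ht))).hasFDerivAt.comp_hasDerivAt t (hγ t)
    rw [fderiv_eq_dot] at h1
    exact h1
  have hcγ : Continuous fun s : ℝ => (1 - s) • y + s • x := by fun_prop
  have hcont : ContinuousOn (fun t : ℝ => gr v ((1 - t) • y + t • x)) (Set.Icc 0 1) :=
    (hv.gr hU).continuousOn.comp hcγ.continuousOn fun t ht => hKU (hmem t ht)
  have hcont2 : ContinuousOn (fun t : ℝ => (x - y) ⬝ᵥ gr v ((1 - t) • y + t • x))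
      (Set.Icc 0 1) := by
    unfold dotProduct
    exact continuousOn_finsetSum _ fun i _ =>
      continuousOn_const.mul ((continuous_apply i).comp_continuousOn hcont)
  have hint : IntervalIntegrable (fun t : ℝ => (x - y) ⬝ᵥ gr v ((1 - t) • y + t • x))
      volume 0 1 := by
    refine ContinuousOn.intervalIntegrable ?_
    rwa [Set.uIcc_of_le zero_le_one]
  have hftc := intervalIntegral.integral_eq_sub_of_hasDerivAt hd hint
  simp only [sub_self, zero_smul, one_smul, zero_add, sub_zero, add_zero] at hftc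
  rw [← hftc, intervalIntegral.integral_of_le zero_le_one]
  have hxy : ‖x - y‖ ≤ 2 := by
    have h1 := hs hx
    have h2 := hs hy
    rw [mem_closedBall_zero_iff] at h1 h2
    linarith [norm_sub_le x y]
  calc ENNReal.ofReal (∫ t in Set.Ioc (0 : ℝ) 1, (x - y) ⬝ᵥ gr v ((1 - t) • y + t • x))
      ≤ ENNReal.ofReal ‖∫ t in Set.Ioc (0 : ℝ) 1, (x - y) ⬝ᵥ gr v ((1 - t) • y + t • x)‖ :=
        ENNReal.ofReal_le_ofReal (le_abs_self _)
    _ ≤ ∫⁻ t in Set.Ioc (0 : ℝ) 1, ‖(x - y) ⬝ᵥ gr v ((1 - t) • y + t • x)‖ₑ := by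
        rw [ofReal_norm]
        exact enorm_integral_le_lintegral_enorm _
    _ ≤ _ := by
        refine setLIntegral_mono' measurableSet_Ioc fun t ht => ?_
        rw [Set.indicator_of_mem (hmem t ⟨ht.1.le, ht.2⟩), ← ofReal_norm]
        have h := WH_dot_le (b := gr v ((1 - t) • y + t • x)) hxy
        calc ENNReal.ofReal ‖(x - y) ⬝ᵥ gr v ((1 - t) • y + t • x)‖
            ≤ ENNReal.ofReal (2 * ∑ i, |gr v ((1 - t) • y + t • x) i|) :=
              ENNReal.ofReal_le_ofReal h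
          _ = _ := by rw [ENNReal.ofReal_mul (by norm_num)]; simp

theorem WH_cont_abs {U : Set (Fin n → ℝ)} {v : (Fin n → ℝ) → ℝ} (hU : IsOpen U) (hv : Sm U v) :
    ContinuousOn (fun x => ∑ i, |gr v x i|) U :=
  continuousOn_finsetSum _ fun i _ => (hv.pd hU i).continuousOn.abs

theorem WH_cont_max {U : Set (Fin n → ℝ)} {v : (Fin n → ℝ) → ℝ} (hv : Sm U v) :
    ContinuousOn (fun x => max (v x) 0) U :=
  (continuous_id.max continuous_const).comp_continuousOn hv.continuousOn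

theorem WH_poincare {U K Z : Set (Fin n → ℝ)} {v : (Fin n → ℝ) → ℝ} (hU : IsOpen U)
    (hv : Sm U v) (hK : IsCompact K) (hc : Convex ℝ K) (hKU : K ⊆ U)
    (hs : K ⊆ Metric.closedBall 0 1) (hZ : MeasurableSet Z) (hZK : Z ⊆ K)
    (hvZ : ∀ x ∈ Z, v x ≤ 0) :
    volume.real Z * ∫ x in K, max (v x) 0 ≤ 2 * 4 ^ n * ∫ x in K, ∑ i, |gr v x i| := by
  have hKm : MeasurableSet K := hK.measurableSet
  set G : (Fin n → ℝ) → ℝ≥0∞ := K.indicator (fun z => ENNReal.ofReal (∑ i, |gr v z i|)) with hGdef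
  have hG : Measurable G := by
    refine Measurable.indicator ?_ hKm
    refine ENNReal.measurable_ofReal.comp ?_
    refine Finset.measurable_sum _ fun i _ => ?_
    exact (measurable_fderiv_apply_const ℝ v (Pi.single i 1)).abs
  have hi1 : IntegrableOn (fun x => max (v x) 0) K :=
    ((WH_cont_max hv).mono hKU).integrableOn_compact hK
  have hi2 : IntegrableOn (fun x => ∑ i, |gr v x i|) K :=
    ((WH_cont_abs hU hv).mono hKU).integrableOn_compact hK
  have e1 : ENNReal.ofReal (∫ x in K, max (v x) 0) = ∫⁻ x in K, ENNReal.ofReal (max (v x) 0) :=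
    ofReal_integral_eq_lintegral_ofReal hi1 (Filter.Eventually.of_forall fun x => le_max_right _ _)
  have e2 : ENNReal.ofReal (∫ x in K, ∑ i, |gr v x i|) = ∫⁻ x, G x := by
    rw [ofReal_integral_eq_lintegral_ofReal hi2
      (Filter.Eventually.of_forall fun x => Finset.sum_nonneg fun i _ => abs_nonneg _),
      hGdef, lintegral_indicator hKm]
  have hm3 : Measurable fun q : ((Fin n → ℝ) × (Fin n → ℝ)) × ℝ =>
      2 * G ((1 - q.2) • q.1.1 + q.2 • q.1.2) :=
    (hG.comp (by fun_prop)).const_mul 2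
  have key : volume Z * ∫⁻ x in K, ENNReal.ofReal (max (v x) 0) ≤ 2 * 4 ^ n * ∫⁻ x, G x := by
    calc volume Z * ∫⁻ x in K, ENNReal.ofReal (max (v x) 0)
        = ∫⁻ _y in Z, ∫⁻ x in K, ENNReal.ofReal (max (v x) 0) := by
          rw [setLIntegral_const, mul_comm]
      _ ≤ ∫⁻ y in Z, ∫⁻ x in K, ∫⁻ t in Set.Ioc (0 : ℝ) 1, 2 * G ((1 - t) • y + t • x) := by
          refine setLIntegral_mono' hZ fun y hy => setLIntegral_mono' hKm fun x hx => ?_
          refine le_trans ?_ (WH_seg hU hv hc hKU hs hx (hZK hy))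
          rcases le_total (v x) 0 with h | h
          · rw [max_eq_right h]; simp
          · rw [max_eq_left h]
            exact ENNReal.ofReal_le_ofReal (by linarith [hvZ y hy])
      _ ≤ ∫⁻ y in K, ∫⁻ x in K, ∫⁻ t in Set.Ioc (0 : ℝ) 1, 2 * G ((1 - t) • y + t • x) :=
          lintegral_mono_set hZK
      _ = ∫⁻ p : (Fin n → ℝ) × (Fin n → ℝ),
            (∫⁻ t in Set.Ioc (0 : ℝ) 1, 2 * G ((1 - t) • p.1 + t • p.2))
            ∂((volume.restrict K).prod (volume.restrict K)) := by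
          rw [lintegral_prod _ (hm3.lintegral_prod_right').aemeasurable]
      _ = ∫⁻ t in Set.Ioc (0 : ℝ) 1, ∫⁻ p : (Fin n → ℝ) × (Fin n → ℝ),
            2 * G ((1 - t) • p.1 + t • p.2) ∂((volume.restrict K).prod (volume.restrict K)) :=
          lintegral_lintegral_swap hm3.aemeasurable
      _ ≤ ∫⁻ _t in Set.Ioc (0 : ℝ) 1, 2 * (4 ^ n * ∫⁻ x, G x) := by
          refine lintegral_mono fun t => ?_
          rw [lintegral_const_mul' _ _ (by simp)]
          gcongr
          exact WH_pair_le hG hs t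
      _ = 2 * 4 ^ n * ∫⁻ x, G x := by
          rw [setLIntegral_const, Real.volume_Ioc]; simp [mul_assoc]
  rw [← e1, ← e2] at key
  have hn1 : 0 ≤ ∫ x in K, max (v x) 0 := integral_nonneg fun x => le_max_right _ _
  have hn2 : 0 ≤ ∫ x in K, ∑ i, |gr v x i| :=
    integral_nonneg fun x => Finset.sum_nonneg fun i _ => abs_nonneg _
  have hfin : (2 : ℝ≥0∞) * 4 ^ n * ENNReal.ofReal (∫ x in K, ∑ i, |gr v x i|) ≠ ⊤ :=
    ENNReal.mul_ne_top (ENNReal.mul_ne_top (by simp) (by simp)) ENNReal.ofReal_ne_top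
  have := ENNReal.toReal_mono hfin key
  rw [ENNReal.toReal_mul, ENNReal.toReal_mul, ENNReal.toReal_mul, ENNReal.toReal_ofReal hn1,
    ENNReal.toReal_ofReal hn2, ENNReal.toReal_pow] at this
  simpa [Measure.real] using this

end Vale.Agent.P252
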