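import Vale.Agent.P252.B.IBP
import Vale.Agent.P252.B.Conv
import Vale.Agent.P252.B.WHAux

open Matrix MeasureTheory
open scoped ContDiff

namespace Vale.Agent.P252

/-- An `L¹` Poincare inequality on a compact convex subset of the unit ball. -/
theorem poincare {n : ℕ} {U K Z : Set (Fin n → ℝ)} {v : (Fin n → ℝ) → ℝ} (hU : IsOpen U)
    (hv : Sm U v) (hK : IsCompact K) (hc : Convex ℝ K) (hKU : K ⊆ U)
    (hs : K ⊆ Metric.closedBall 0 1) (hZ : MeasurableSet Z) (hZK : Z ⊆ K)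
    (hvZ : ∀ x ∈ Z, v x ≤ 0) :
    volume.real Z * ∫ x in K, max (v x) 0 ≤ 2 * 4 ^ n * ∫ x in K, ∑ i, |gr v x i| :=
  WH_poincare hU hv hK hc hKU hs hZ hZK hvZ

section aux

variable {n : ℕ} {Λ : ℝ} {U : Set (Fin n → ℝ)} {u v : (Fin n → ℝ) → ℝ}

theorem WH_sub_subset (a : ℝ) : sub U u a ⊆ U := fun _ hx => hx.1

theorem WH_sub_mono {a b : ℝ} (hab : a ≤ b) : sub U u a ⊆ sub U u b :=
  fun _ hx => ⟨hx.1, hx.2.trans hab⟩

theorem WH_cut_eq (c : ℝ) : {x | x ∈ U ∧ 0 ≤ (fun y => c - u y) x} = sub U u c := by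
  ext x; simp [sub]

theorem WH_sm_cut (h : Sm U u) (c : ℝ) : Sm U (fun y => c - u y) := contDiffOn_const.sub h

theorem WH_gr_cut (hU : IsOpen U) (h : Sm U u) (c : ℝ) {x : Fin n → ℝ} (hx : x ∈ U) :
    gr (fun y => c - u y) x = -gr u x := by
  rw [gr_sub (differentiableAt_const c) (h.diff hU hx), gr_const, zero_sub]

theorem WH_dd_single (f : (Fin n → ℝ) → ℝ) (i : Fin n) (x : Fin n → ℝ) :
    dd (Pi.single i 1) f x = pd i f x := by
  simp [dd, gr]

theorem WH_integral_le_const {K : Set (Fin n → ℝ)} (hK : IsCompact K)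
    (hs : K ⊆ Metric.closedBall 0 1) {f : (Fin n → ℝ) → ℝ} (hf : IntegrableOn f K) {c : ℝ}
    (hc : 0 ≤ c) (h : ∀ x ∈ K, f x ≤ c) : ∫ x in K, f x ≤ c * 2 ^ n := by
  calc ∫ x in K, f x ≤ ∫ _x in K, c :=
        setIntegral_mono_on hf (integrableOn_const hK.measure_ne_top) hK.measurableSet h
    _ = volume.real K * c := by rw [setIntegral_const, smul_eq_mul]
    _ ≤ 2 ^ n * c := by gcongr; exact WH_vol_real_le hs
    _ = c * 2 ^ n := mul_comm _ _

theorem WH_half_le (hB : Bnd Λ U u) {f g : (Fin n → ℝ) → ℝ} (hf : ContinuousOn f U)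
    (hg : ContinuousOn g U) (h0 : ∀ x ∈ sub U u 1, 0 ≤ g x)
    (h : ∀ x ∈ sub U u (1 / 2), f x ≤ g x) :
    ∫ x in sub U u (1 / 2), f x ≤ ∫ x in sub U u 1, g x := by
  have hK2 : IsCompact (sub U u (1 / 2)) := hB.good.isCompact_sub (by norm_num) hB.cpt
  have hsub : sub U u (1 / 2) ⊆ sub U u 1 := WH_sub_mono (by norm_num)
  have hgi : IntegrableOn g (sub U u 1) := (hg.mono (WH_sub_subset 1)).integrableOn_compact hB.cpt
  calc ∫ x in sub U u (1 / 2), f x ≤ ∫ x in sub U u (1 / 2), g x :=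
        setIntegral_mono_on ((hf.mono (WH_sub_subset _)).integrableOn_compact hK2)
          (hgi.mono_set hsub) hK2.measurableSet h
    _ ≤ ∫ x in sub U u 1, g x := by
        refine setIntegral_mono_set hgi ?_ hsub.eventuallyLE
        exact (ae_restrict_iff' hB.cpt.measurableSet).2 (Filter.Eventually.of_forall h0)

theorem WH_trace_nonneg (h : Good U u) {x : Fin n → ℝ} (hx : x ∈ U) : 0 ≤ (hess u x).trace :=
  (h.pos x hx).posSemidef.trace_nonneg

theorem WH_int_trace (hΛ : 1 ≤ Λ) (hB : Bnd Λ U u) :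
    ∫ x in sub U u (1 / 2), (hess u x).trace ≤ 8 * n * Λ ^ 2 * 2 ^ n := by
  have hU := hB.good.op
  have hu := hB.good.sm
  have hζ := WH_sm_cut hu 1
  have hK : IsCompact {x | x ∈ U ∧ 0 ≤ (fun y => 1 - u y) x} := by
    rw [WH_cut_eq]; exact hB.cpt
  have hci : ∀ i : Fin n, ContinuousOn (fun x => (1 - u x) ^ 2 * hess u x i i) U := fun i =>
    (hζ.continuousOn.pow 2).mul (hu.hess hU i i).continuousOn
  have hdi : ∀ i : Fin n, ContinuousOn (fun x => 2 * (1 - u x) * pd i u x ^ 2) U := fun i =>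
    (continuousOn_const.mul hζ.continuousOn).mul ((hu.pd hU i).continuousOn.pow 2)
  have hi : ∀ i : Fin n, ∫ x in sub U u 1, (1 - u x) ^ 2 * hess u x i i ≤ 2 * Λ ^ 2 * 2 ^ n := by
    intro i
    have h1 := ibp_dir hU hζ hK (hu.pd hU i) 0 (Pi.single i 1)
    rw [WH_cut_eq] at h1
    have h2 : ∫ x in sub U u 1,
        ((1 - u x) ^ 2 * hess u x i i - 2 * (1 - u x) * pd i u x ^ 2) = 0 := by
      rw [← h1]
      refine setIntegral_congr_fun hB.cpt.measurableSet fun x hx => ?_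
      have e1 : dd (Pi.single i 1) (fun y => 1 - u y) x = -pd i u x := by
        rw [dd, WH_gr_cut hU hu 1 hx.1]; simp [gr]
      simp only [WH_dd_single (pd i u), e1, hess, of_apply]
      push_cast
      ring
    rw [integral_sub (((hci i).mono (WH_sub_subset 1)).integrableOn_compact hB.cpt)
      (((hdi i).mono (WH_sub_subset 1)).integrableOn_compact hB.cpt), sub_eq_zero] at h2
    rw [h2]
    refine WH_integral_le_const hB.cpt hB.small
      (((hdi i).mono (WH_sub_subset 1)).integrableOn_compact hB.cpt) (by positivity) ?_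
    intro x hx
    have h3 : |pd i u x| ≤ Λ := (norm_le_pi_norm (gr u x) i).trans (hB.grad x hx)
    have h4 : pd i u x ^ 2 ≤ Λ ^ 2 := sq_le_sq' (abs_le.1 h3).1 (abs_le.1 h3).2
    have h5 : 0 ≤ u x := hB.nonneg x hx.1
    have h6 : u x ≤ 1 := hx.2
    nlinarith [sq_nonneg (pd i u x)]
  have hsum : ∫ x in sub U u 1, 4 * ∑ i, (1 - u x) ^ 2 * hess u x i i
      ≤ 8 * n * Λ ^ 2 * 2 ^ n := by
    rw [integral_const_mul, integral_finsetSum _ fun i _ =>
      ((hci i).mono (WH_sub_subset 1)).integrableOn_compact hB.cpt]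
    have := Finset.sum_le_sum (s := Finset.univ) fun i _ => hi i
    rw [Finset.sum_const, Finset.card_univ, Fintype.card_fin, nsmul_eq_mul] at this
    linarith
  refine le_trans (WH_half_le hB (hu.trace hU).continuousOn
    (g := fun x => 4 * ∑ i, (1 - u x) ^ 2 * hess u x i i) (continuousOn_const.mul (continuousOn_finsetSum _ fun i _ => hci i)) ?_ ?_) hsum
  · intro x hx
    have := WH_trace_nonneg hB.good hx.1
    simp only [← Finset.mul_sum]
    exact mul_nonneg (by norm_num) (mul_nonneg (sq_nonneg _) this)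
  · intro x hx
    have h0 := WH_trace_nonneg hB.good hx.1
    have h6 : u x ≤ 1 / 2 := hx.2
    simp only [← Finset.mul_sum]
    change (hess u x).trace ≤ 4 * ((1 - u x) ^ 2 * (hess u x).trace)
    have : 1 ≤ 4 * (1 - u x) ^ 2 := by nlinarith
    nlinarith

theorem WH_abs_sum_le (h : Good U u) {x : Fin n → ℝ} (hx : x ∈ U) (a : Fin n → ℝ) :
    ∑ i, |a i| ≤ (n * (hess u x).trace + ip u x a a) / 2 := by
  set s : Fin n → ℝ := fun i => if 0 ≤ a i then 1 else -1 with hs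
  have e1 : a ⬝ᵥ s = ∑ i, |a i| := by
    refine Finset.sum_congr rfl fun i _ => ?_
    simp only [hs]
    split_ifs with hi
    · rw [abs_of_nonneg hi, mul_one]
    · rw [abs_of_neg (not_le.1 hi)]; ring
  have e2 : s ⬝ᵥ s = n := by
    have : ∀ i, s i * s i = 1 := fun i => by
      simp only [hs]
      split_ifs <;> norm_num
    simp [dotProduct, this]
  have h1 := cs_ip (h.pos x hx) a s
  have h2 := quad_le_trace (h.pos x hx).posSemidef s
  have h3 : 0 ≤ ip u x a a := h.ip_nonneg hx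
  have h4 := WH_trace_nonneg h hx
  rw [e1] at h1
  rw [e2] at h2
  have h5 : (∑ i, |a i|) ^ 2 ≤ ip u x a a * ((hess u x).trace * n) :=
    h1.trans (mul_le_mul_of_nonneg_left h2 h3)
  have h6 : 0 ≤ (n * (hess u x).trace + ip u x a a) / 2 := by positivity
  refine (abs_le_of_sq_le_sq' ?_ h6).2
  nlinarith [sq_nonneg (n * (hess u x).trace - ip u x a a)]

theorem WH_ip_expand (h : Good U u) {x : Fin n → ℝ} (hx : x ∈ U) (a b : Fin n → ℝ) (s t : ℝ) :
    0 ≤ s ^ 2 * ip u x a a - 2 * s * t * ip u x b a + t ^ 2 * ip u x b b := by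
  have h0 : 0 ≤ ip u x (s • a - t • b) (s • a - t • b) := h.ip_nonneg hx
  simp only [ip_sub_left, ip_sub_right, ip_smul_left, ip_smul_right] at h0
  rw [h.ip_comm (a := a) (b := b) hx] at h0
  linarith

theorem WH_energy (hΛ : 1 ≤ Λ) (hB : Bnd Λ U u) (hv : Sm U v)
    (hL : ∀ x ∈ U, ip u x (gr v x) (gr v x) ≤ Lop u v x) :
    ∫ x in sub U u 1, (hess u x).det * (1 - u x) ^ 4 * ip u x (gr v x) (gr v x)
      ≤ 16 * n / 3 * Λ * 2 ^ n := by
  have hU := hB.good.op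
  have hu := hB.good.sm
  have hζ := WH_sm_cut hu 1
  have hK : IsCompact {x | x ∈ U ∧ 0 ≤ (fun y => 1 - u y) x} := by
    rw [WH_cut_eq]; exact hB.cpt
  have hone : Sm U (fun _ => (1 : ℝ)) := contDiffOn_const
  have h1 := ibp_Lop hB.good hζ hK hone hv 2
  have h2 := ibp_Lop hB.good hζ hK hone hu 1
  rw [WH_cut_eq] at h1 h2
  set I1 : (Fin n → ℝ) → ℝ := fun x => (hess u x).det *
    ((1 - u x) ^ 4 * Lop u v x - 4 * (1 - u x) ^ 3 * ip u x (gr u x) (gr v x)) with hI1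
  set I2 : (Fin n → ℝ) → ℝ := fun x => (hess u x).det *
    ((1 - u x) ^ 3 * n - 3 * (1 - u x) ^ 2 * ip u x (gr u x) (gr u x)) with hI2
  have e1 : ∫ x in sub U u 1, I1 x = 0 := by
    rw [← h1]
    refine setIntegral_congr_fun hB.cpt.measurableSet fun x hx => ?_
    simp only [hI1, gr_const, ip_zero_left, WH_gr_cut hU hu 1 hx.1, ip_neg_left]
    push_cast
    ring
  have e2 : ∫ x in sub U u 1, I2 x = 0 := by
    rw [← h2]
    refine setIntegral_congr_fun hB.cpt.measurableSet fun x hx => ?_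
    simp only [hI2, gr_const, ip_zero_left, WH_gr_cut hU hu 1 hx.1, ip_neg_left,
      hB.good.Lop_self hx.1]
    push_cast
    ring
  have s1 : Sm U I1 := (hu.det hU).mul (((hζ.pow 4).mul (hB.good.sm_Lop hv)).sub
    ((contDiffOn_const.mul (hζ.pow 3)).mul (hB.good.sm_ip hu hv)))
  have s2 : Sm U I2 := (hu.det hU).mul (((hζ.pow 3).mul contDiffOn_const).sub
    ((contDiffOn_const.mul (hζ.pow 2)).mul (hB.good.sm_ip hu hu)))
  have s3 : Sm U (fun x => (hess u x).det * (1 - u x) ^ 4 * ip u x (gr v x) (gr v x)) :=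
    ((hu.det hU).mul (hζ.pow 4)).mul (hB.good.sm_ip hv hv)
  have i1 := s1.integrableOn hB.cpt (WH_sub_subset 1)
  have i2 := s2.integrableOn hB.cpt (WH_sub_subset 1)
  have i3 := s3.integrableOn hB.cpt (WH_sub_subset 1)
  have key : ∫ x in sub U u 1, ((hess u x).det * (1 - u x) ^ 4 * ip u x (gr v x) (gr v x)
      - (2 * I1 x - 16 / 3 * I2 x)) ≤ 16 * n / 3 * Λ * 2 ^ n := by
    refine WH_integral_le_const hB.cpt hB.small
      (i3.sub ((i1.const_mul 2).sub (i2.const_mul (16 / 3)))) (by positivity) ?_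
    intro x hx
    have hd := hB.good.det_pos hx.1
    have hd2 := hB.det_le x hx
    have h5 : 0 ≤ u x := hB.nonneg x hx.1
    have h6 : u x ≤ 1 := hx.2
    have hz0 : 0 ≤ 1 - u x := by linarith
    have hz1 : (1 - u x) ^ 3 ≤ 1 := pow_le_one₀ hz0 (by linarith)
    have h7 := WH_ip_expand hB.good hx.1 (gr v x) (gr u x) (1 - u x) 4
    have h8 := hL x hx.1
    simp only [hI1, hI2]
    set z := 1 - u x
    set d := (hess u x).det
    set A := ip u x (gr v x) (gr v x)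
    set B := ip u x (gr u x) (gr v x)
    set E := ip u x (gr u x) (gr u x)
    set L := Lop u v x
    have h9 : z ^ 4 * A - (2 * (z ^ 4 * L - 4 * z ^ 3 * B) - 16 / 3 * (z ^ 3 * n - 3 * z ^ 2 * E))
        ≤ 16 * n / 3 := by
      have a1 : z ^ 4 * A ≤ z ^ 4 * L := mul_le_mul_of_nonneg_left h8 (by positivity)
      have a2 := mul_nonneg (sq_nonneg z) h7
      have a3 : z ^ 3 * n ≤ 1 * n := mul_le_mul_of_nonneg_right hz1 (by positivity)
      nlinarith
    calc d * z ^ 4 * A - (2 * (d * (z ^ 4 * L - 4 * z ^ 3 * B))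
          - 16 / 3 * (d * (z ^ 3 * n - 3 * z ^ 2 * E)))
        = d * (z ^ 4 * A - (2 * (z ^ 4 * L - 4 * z ^ 3 * B)
            - 16 / 3 * (z ^ 3 * n - 3 * z ^ 2 * E))) := by ring
      _ ≤ d * (16 * n / 3) := mul_le_mul_of_nonneg_left h9 hd.le
      _ ≤ Λ * (16 * n / 3) := mul_le_mul_of_nonneg_right hd2 (by positivity)
      _ = 16 * n / 3 * Λ := mul_comm _ _
  have i4 : IntegrableOn (fun x => 2 * I1 x - 16 / 3 * I2 x) (sub U u 1) :=
    (i1.const_mul 2).sub (i2.const_mul (16 / 3))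
  rw [integral_sub i3 i4, integral_sub (i1.const_mul 2) (i2.const_mul (16 / 3)), integral_const_mul, integral_const_mul,
    e1, e2] at key
  linarith

theorem WH_int_grad (hΛ : 1 ≤ Λ) (hB : Bnd Λ U u) (hv : Sm U v)
    (hL : ∀ x ∈ U, ip u x (gr v x) (gr v x) ≤ Lop u v x) :
    ∫ x in sub U u (1 / 2), ∑ i, |gr v x i|
      ≤ (n * (8 * n * Λ ^ 2 * 2 ^ n) + 16 * Λ * (16 * n / 3 * Λ * 2 ^ n)) / 2 := by
  have hU := hB.good.op
  have hu := hB.good.sm
  have hζ := WH_sm_cut hu 1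
  have hK2 : IsCompact (sub U u (1 / 2)) := hB.good.isCompact_sub (by norm_num) hB.cpt
  have hΛ0 : 0 < Λ := by linarith
  have s3 : Sm U (fun x => (hess u x).det * (1 - u x) ^ 4 * ip u x (gr v x) (gr v x)) :=
    ((hu.det hU).mul (hζ.pow 4)).mul (hB.good.sm_ip hv hv)
  have h1 : ∫ x in sub U u (1 / 2), ip u x (gr v x) (gr v x)
      ≤ 16 * Λ * (16 * n / 3 * Λ * 2 ^ n) := by
    have h2 := WH_half_le hB (hB.good.sm_ip hv hv).continuousOn
      (g := fun x => 16 * Λ * ((hess u x).det * (1 - u x) ^ 4 * ip u x (gr v x) (gr v x)))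
      (continuousOn_const.mul s3.continuousOn) ?_ ?_
    · rw [integral_const_mul] at h2
      exact h2.trans (mul_le_mul_of_nonneg_left (WH_energy hΛ hB hv hL) (by positivity))
    · intro x hx
      have hd := hB.good.det_pos hx.1
      have h3 : 0 ≤ ip u x (gr v x) (gr v x) := hB.good.ip_nonneg hx.1
      positivity
    · intro x hx
      have hd := hB.le_det x (WH_sub_mono (by norm_num) hx)
      have h3 : 0 ≤ ip u x (gr v x) (gr v x) := hB.good.ip_nonneg hx.1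
      have h6 : u x ≤ 1 / 2 := hx.2
      have h7 : (1 / 2 : ℝ) ^ 4 ≤ (1 - u x) ^ 4 := pow_le_pow_left₀ (by norm_num) (by linarith) 4
      have h8 : 1 ≤ Λ * (hess u x).det := by
        have := mul_le_mul_of_nonneg_left hd hΛ0.le
        rwa [mul_inv_cancel₀ hΛ0.ne'] at this
      have h9 : 1 ≤ 16 * (1 - u x) ^ 4 := by linarith
      have h10 : 1 ≤ (Λ * (hess u x).det) * (16 * (1 - u x) ^ 4) :=
        one_le_mul_of_one_le_of_one_le h8 h9
      nlinarith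
  have h2 := WH_int_trace hΛ hB
  have it := (hu.trace hU).integrableOn hK2 (WH_sub_subset _)
  have ii := (hB.good.sm_ip hv hv).integrableOn hK2 (WH_sub_subset _)
  calc ∫ x in sub U u (1 / 2), ∑ i, |gr v x i|
      ≤ ∫ x in sub U u (1 / 2), (n * (hess u x).trace + ip u x (gr v x) (gr v x)) / 2 :=
        setIntegral_mono_on (((WH_cont_abs hU hv).mono (WH_sub_subset _)).integrableOn_compact hK2)
          (((it.const_mul _).add ii).div_const 2) hK2.measurableSet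
          fun x hx => WH_abs_sum_le hB.good hx.1 _
    _ = (n * (∫ x in sub U u (1 / 2), (hess u x).trace)
          + ∫ x in sub U u (1 / 2), ip u x (gr v x) (gr v x)) / 2 := by
        rw [integral_div, integral_add (it.const_mul _) ii, integral_const_mul]
    _ ≤ _ := by gcongr

theorem WH_Lop_ge (h : Good U u) (hv : Sm U v) {x : Fin n → ℝ} (hx : x ∈ U)
    (hL : ip u x (gr v x) (gr v x) ≤ Lop u v x) (hz : 0 ≤ 1 / 2 - u x) (h2 : 2 ≤ v x) :
    -Lop u (fun y => (1 / 2 - u y) ^ (n + 2) * v y) x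
      ≤ n * (((n : ℝ) + 2) * ((1 / 2 - u x) ^ (n + 1) * v x)) := by
  have hU := h.op
  have hu := h.sm
  have hζ := WH_sm_cut hu (1 / 2)
  have d1 : ∀ t : ℝ, HasDerivAt (fun s : ℝ => s ^ (n + 2)) (((n : ℝ) + 2) * t ^ (n + 1)) t := by
    intro t
    have := hasDerivAt_pow (n + 2) t
    simpa using this
  have d2 : ∀ t : ℝ, HasDerivAt (fun s : ℝ => ((n : ℝ) + 2) * s ^ (n + 1))
      (((n : ℝ) + 2) * (((n : ℝ) + 1) * t ^ n)) t := by
    intro t
    have := (hasDerivAt_pow (n + 1) t).const_mul ((n : ℝ) + 2)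
    simpa using this
  have e0 : Lop u (fun y => 1 / 2 - u y) x = -n := by
    rw [Lop_sub hU contDiffOn_const hu hx, Lop_const, h.Lop_self hx, zero_sub]
  have e1 : Lop u (fun y => (1 / 2 - u y) ^ (n + 2)) x
      = ((n : ℝ) + 2) * (1 / 2 - u x) ^ (n + 1) * (-n)
        + ((n : ℝ) + 2) * (((n : ℝ) + 1) * (1 / 2 - u x) ^ n) * ip u x (gr u x) (gr u x) := by
    have := Lop_comp (u := u) (h := fun s : ℝ => s ^ (n + 2)) isOpen_univ (fun t _ => d1 t)
      (fun t _ => d2 t) hU hζ hx (Set.mem_univ _)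
    rw [this, e0, WH_gr_cut hU hu _ hx, ip_neg_left, ip_neg_right, neg_neg]
  have e2 : gr (fun y => (1 / 2 - u y) ^ (n + 2)) x
      = (((n : ℝ) + 2) * (1 / 2 - u x) ^ (n + 1)) • (-gr u x) := by
    have := gr_comp (f := fun y => 1 / 2 - u y) (x := x) (h := fun s : ℝ => s ^ (n + 2))
      (d1 _) (hζ.diff hU hx)
    rw [this, WH_gr_cut hU hu _ hx]
  rw [h.Lop_mul (hζ.pow (n + 2)) hv hx, e1, e2, ip_smul_left, ip_neg_left]
  have h7 := WH_ip_expand h hx (gr v x) (gr u x) (1 / 2 - u x) ((n : ℝ) + 2)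
  have hE : 0 ≤ ip u x (gr u x) (gr u x) := h.ip_nonneg hx
  set z := 1 / 2 - u x
  set A := ip u x (gr v x) (gr v x)
  set B := ip u x (gr u x) (gr v x)
  set E := ip u x (gr u x) (gr u x)
  set L := Lop u v x
  have hzn : 0 ≤ z ^ n := pow_nonneg hz n
  have a1 : z ^ n * z ^ 2 * A ≤ z ^ n * z ^ 2 * L := mul_le_mul_of_nonneg_left hL (by positivity)
  have a2 := mul_nonneg hzn h7
  have hn0 : (0 : ℝ) ≤ n := Nat.cast_nonneg n
  have a3 : ((n : ℝ) + 2) ^ 2 ≤ v x * (((n : ℝ) + 2) * ((n : ℝ) + 1)) := by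
    have : 2 * (((n : ℝ) + 2) * ((n : ℝ) + 1)) ≤ v x * (((n : ℝ) + 2) * ((n : ℝ) + 1)) :=
      mul_le_mul_of_nonneg_right h2 (by positivity)
    nlinarith
  have a4 := mul_le_mul_of_nonneg_right a3 (mul_nonneg hzn hE)
  simp only [pow_succ] at a1 a2 a4 ⊢
  nlinarith

theorem WH_det_le (hn : 0 < n) (hB : Bnd Λ U u) (hv : Sm U v) {x : Fin n → ℝ}
    (hx : x ∈ sub U u (1 / 2)) (hL : ip u x (gr v x) (gr v x) ≤ Lop u v x) {Mx : ℝ}
    (h2 : 2 ≤ (1 / 2 - u x) ^ (n + 2) * v x) (hM : (1 / 2 - u x) ^ (n + 2) * v x ≤ Mx)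
    (hp : (-hess (fun y => (1 / 2 - u y) ^ (n + 2) * v y) x).PosSemidef) :
    |(hess (fun y => (1 / 2 - u y) ^ (n + 2) * v y) x).det|
      ≤ Λ * ((n : ℝ) + 2) ^ n * Mx ^ (n - 1) * max (v x) 0 := by
  have hz : 0 ≤ 1 / 2 - u x := by linarith [hx.2]
  have hz1 : 1 / 2 - u x ≤ 1 := by linarith [hB.nonneg x hx.1]
  have hzk : (1 / 2 - u x) ^ (n + 2) ≤ 1 := pow_le_one₀ hz hz1
  have hzk0 : 0 ≤ (1 / 2 - u x) ^ (n + 2) := pow_nonneg hz _
  have hv0 : 0 < v x := by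
    by_contra hc
    have := mul_nonpos_of_nonneg_of_nonpos hzk0 (not_lt.1 hc)
    linarith
  have hv2 : 2 ≤ v x := by nlinarith
  have h3 := WH_Lop_ge hB.good hv hx.1 hL hz hv2
  set F : (Fin n → ℝ) → ℝ := fun y => (1 / 2 - u y) ^ (n + 2) * v y with hF
  have hpos := hB.good.pos x hx.1
  have h4 := amgm_trace hn hpos hp
  have h5 : 0 ≤ ((hess u x)⁻¹ * -hess F x).trace := trace_mul_nonneg hpos.inv.posSemidef hp
  have h6 : ((hess u x)⁻¹ * -hess F x).trace = -Lop u F x := by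
    rw [Matrix.mul_neg, trace_neg, Lop]
  have hn' : (0 : ℝ) < n := Nat.cast_pos.2 hn
  have h7 : ((hess u x)⁻¹ * -hess F x).trace / n
      ≤ ((n : ℝ) + 2) * ((1 / 2 - u x) ^ (n + 1) * v x) := by
    rw [div_le_iff₀ hn', h6]; linarith
  have h8 : |(hess F x).det| = (-hess F x).det := by
    rw [← abs_of_nonneg hp.det_nonneg, det_neg, abs_mul, abs_pow, abs_neg, abs_one, one_pow,
      one_mul]
  have hd := hB.det_le x (WH_sub_mono (by norm_num) hx)
  have hΛ0 : 0 ≤ Λ := (hB.good.det_pos hx.1).le.trans hd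
  have h9 : ((1 / 2 - u x) ^ (n + 1) * v x) ^ n ≤ Mx ^ (n - 1) * max (v x) 0 := by
    obtain ⟨m, rfl⟩ : ∃ m, n = m + 1 := ⟨n - 1, by omega⟩
    rw [Nat.add_sub_cancel, max_eq_left hv0.le]
    have e : ((1 / 2 - u x) ^ (m + 1 + 1) * v x) ^ (m + 1)
        = ((1 / 2 - u x) ^ (m + 1 + 2) * v x) ^ m * ((1 / 2 - u x) ^ 2 * v x) := by
      generalize 1 / 2 - u x = z
      ring
    rw [e]
    have b1 : ((1 / 2 - u x) ^ (m + 1 + 2) * v x) ^ m ≤ Mx ^ m :=
      pow_le_pow_left₀ (by linarith) hM m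
    have b2 : (1 / 2 - u x) ^ 2 * v x ≤ v x := by
      have : (1 / 2 - u x) ^ 2 ≤ 1 := pow_le_one₀ hz hz1
      nlinarith
    exact mul_le_mul b1 b2 (by positivity) (pow_nonneg (by linarith) m)
  calc |(hess F x).det| = (-hess F x).det := h8
    _ ≤ (hess u x).det * (((hess u x)⁻¹ * -hess F x).trace / n) ^ n := h4
    _ ≤ Λ * (((n : ℝ) + 2) * ((1 / 2 - u x) ^ (n + 1) * v x)) ^ n :=
        mul_le_mul hd (pow_le_pow_left₀ (by positivity) h7 n) (by positivity) hΛ0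
    _ = Λ * ((n : ℝ) + 2) ^ n * ((1 / 2 - u x) ^ (n + 1) * v x) ^ n := by rw [mul_pow, mul_assoc]
    _ ≤ Λ * ((n : ℝ) + 2) ^ n * (Mx ^ (n - 1) * max (v x) 0) := by gcongr
    _ = _ := by ring

theorem WH_cover (hn : 0 < n) (hB : Bnd Λ U u) (hv : Sm U v)
    (hL : ∀ x ∈ U, ip u x (gr v x) (gr v x) ≤ Lop u v x) {x₀ : Fin n → ℝ}
    (hx₀ : x₀ ∈ sub U u (1 / 2)) {Mx : ℝ} (hM0 : (1 / 2 - u x₀) ^ (n + 2) * v x₀ = Mx)
    (hM : ∀ x ∈ sub U u (1 / 2), (1 / 2 - u x) ^ (n + 2) * v x ≤ Mx) (h4 : 4 ≤ Mx) :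
    Metric.closedBall (0 : Fin n → ℝ) (Mx / (4 * n)) ⊆
      gr (fun y => (1 / 2 - u y) ^ (n + 2) * v y) '' {x | x ∈ sub U u (1 / 2) ∧
        |(hess (fun y => (1 / 2 - u y) ^ (n + 2) * v y) x).det|
          ≤ Λ * ((n : ℝ) + 2) ^ n * Mx ^ (n - 1) * max (v x) 0} := by
  intro p hp
  have hU := hB.good.op
  have hu := hB.good.sm
  have hζ := WH_sm_cut hu (1 / 2)
  have hK2 : IsCompact (sub U u (1 / 2)) := hB.good.isCompact_sub (by norm_num) hB.cpt
  have hn' : (0 : ℝ) < n := Nat.cast_pos.2 hn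
  set F : (Fin n → ℝ) → ℝ := fun y => (1 / 2 - u y) ^ (n + 2) * v y with hF
  have hFs : Sm U F := (hζ.pow (n + 2)).mul hv
  have hls : Sm U (fun y => p ⬝ᵥ y) := by
    unfold dotProduct
    exact ContDiffOn.sum fun i _ => contDiffOn_const.mul (contDiffOn_apply ℝ ℝ i U)
  have hGs : Sm U (fun y => F y - p ⬝ᵥ y) := hFs.sub hls
  obtain ⟨x, hx, hmax⟩ := hK2.exists_isMaxOn ⟨x₀, hx₀⟩
    (hGs.continuousOn.mono (WH_sub_subset _))
  have h1 : F x₀ - p ⬝ᵥ x₀ ≤ F x - p ⬝ᵥ x := hmax hx₀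
  have hsm : sub U u (1 / 2) ⊆ Metric.closedBall 0 1 := (WH_sub_mono (by norm_num)).trans hB.small
  have hb : ∀ y ∈ sub U u (1 / 2), |p ⬝ᵥ y| ≤ Mx / 4 := by
    intro y hy
    have c1 := WH_dot_le (b := y) (mem_closedBall_zero_iff.1 hp)
    have c2 : ∑ i, |y i| ≤ n := by
      have : ∀ i, |y i| ≤ 1 := fun i =>
        (norm_le_pi_norm y i).trans (mem_closedBall_zero_iff.1 (hsm hy))
      calc ∑ i, |y i| ≤ ∑ _i : Fin n, (1 : ℝ) := Finset.sum_le_sum fun i _ => this i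
        _ = n := by simp
    calc |p ⬝ᵥ y| ≤ Mx / (4 * n) * ∑ i, |y i| := c1
      _ ≤ Mx / (4 * n) * n := mul_le_mul_of_nonneg_left c2 (by positivity)
      _ = Mx / 4 := by field_simp
  have h2 : 2 ≤ F x := by
    have c1 := abs_le.1 (hb x hx)
    have c2 := abs_le.1 (hb x₀ hx₀)
    have c3 : F x₀ = Mx := hM0
    linarith [c1.1, c2.2]
  have hlt : u x < 1 / 2 := by
    refine lt_of_le_of_ne hx.2 fun he => ?_
    have : F x = 0 := by simp [hF, he]
    linarith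
  have hnb : sub U u (1 / 2) ∈ nhds x := by
    have c1 : U ∈ nhds x := hU.mem_nhds hx.1
    have c2 : ∀ᶠ y in nhds x, u y < 1 / 2 :=
      (hu.at hU hx.1).continuousAt.eventually_lt continuousAt_const hlt
    filter_upwards [c1, c2] with y hy1 hy2 using ⟨hy1, hy2.le⟩
  have hloc : IsLocalMax (fun y => F y - p ⬝ᵥ y) x := hmax.isLocalMax hnb
  have g1 := gr_eq_zero_of_isLocalMax hloc
  rw [gr_sub (hFs.diff hU hx.1) (hls.diff hU hx.1), gr_dot, sub_eq_zero] at g1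
  have g2 := hess_nonpos_of_isLocalMax hU hGs hx.1 hloc
  rw [hess_sub hU hFs hls hx.1, hess_dot, sub_zero] at g2
  exact ⟨x, ⟨hx, WH_det_le hn hB hv hx (hL x hx.1) h2 (hM x hx) g2⟩, g1⟩

theorem WH_max_le (hn : 0 < n) (hΛ : 1 ≤ Λ) (hB : Bnd Λ U u) (hv : Sm U v)
    (hL : ∀ x ∈ U, ip u x (gr v x) (gr v x) ≤ Lop u v x) {x₀ : Fin n → ℝ}
    (hx₀ : x₀ ∈ sub U u (1 / 2)) {Mx : ℝ} (hM0 : (1 / 2 - u x₀) ^ (n + 2) * v x₀ = Mx)
    (hM : ∀ x ∈ sub U u (1 / 2), (1 / 2 - u x) ^ (n + 2) * v x ≤ Mx) (h4 : 4 ≤ Mx) :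
    Mx ≤ (2 * n) ^ n * (Λ * ((n : ℝ) + 2) ^ n) * ∫ y in sub U u (1 / 2), max (v y) 0 := by
  have hU := hB.good.op
  have hu := hB.good.sm
  have hζ := WH_sm_cut hu (1 / 2)
  have hK2 : IsCompact (sub U u (1 / 2)) := hB.good.isCompact_sub (by norm_num) hB.cpt
  have hn' : (0 : ℝ) < n := Nat.cast_pos.2 hn
  have hΛ0 : 0 < Λ := by linarith
  have hMx : 0 < Mx := by linarith
  have hcov := WH_cover hn hB hv hL hx₀ hM0 hM h4
  set F : (Fin n → ℝ) → ℝ := fun y => (1 / 2 - u y) ^ (n + 2) * v y with hF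
  have hFs : Sm U F := (hζ.pow (n + 2)).mul hv
  set c : ℝ := Λ * ((n : ℝ) + 2) ^ n * Mx ^ (n - 1) with hc
  have hc0 : 0 ≤ c := by positivity
  set Γ : Set (Fin n → ℝ) := {x | x ∈ sub U u (1 / 2) ∧ |(hess F x).det| ≤ c * max (v x) 0}
    with hΓ
  have hΓm : MeasurableSet Γ :=
    (hK2.isClosed.isClosed_le ((hFs.det hU).continuousOn.abs.mono (WH_sub_subset _))
      ((continuousOn_const.mul (WH_cont_max hv)).mono (WH_sub_subset _))).measurableSet
  have harea := addHaar_image_le_lintegral_abs_det_fderiv volume hΓm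
    (f := gr F) (f' := fun x => LinearMap.toContinuousLinearMap (Matrix.toLin' (hess F x)))
    (fun x hx => (hasFDerivAt_gr hU hFs hx.1.1).hasFDerivWithinAt)
  have hi1 : IntegrableOn (fun x => max (v x) 0) (sub U u (1 / 2)) :=
    ((WH_cont_max hv).mono (WH_sub_subset _)).integrableOn_compact hK2
  have hI : 0 ≤ ∫ y in sub U u (1 / 2), max (v y) 0 := integral_nonneg fun x => le_max_right _ _
  have key : ENNReal.ofReal ((2 * (Mx / (4 * n))) ^ n)
      ≤ ENNReal.ofReal (c * ∫ y in sub U u (1 / 2), max (v y) 0) := by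
    calc ENNReal.ofReal ((2 * (Mx / (4 * n))) ^ n)
        = volume (Metric.closedBall (0 : Fin n → ℝ) (Mx / (4 * n))) := by
          rw [Real.volume_pi_closedBall _ (by positivity), Fintype.card_fin]
      _ ≤ volume (gr F '' Γ) := measure_mono hcov
      _ ≤ _ := harea
      _ ≤ ∫⁻ x in Γ, ENNReal.ofReal (c * max (v x) 0) := by
          refine setLIntegral_mono' hΓm fun x hx => ENNReal.ofReal_le_ofReal ?_
          have : (LinearMap.toContinuousLinearMap (Matrix.toLin' (hess F x))).det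
              = (hess F x).det := by
            rw [LinearMap.det_toContinuousLinearMap, LinearMap.det_toLin']
          rw [this]
          exact hx.2
      _ ≤ ∫⁻ x in sub U u (1 / 2), ENNReal.ofReal (c * max (v x) 0) :=
          lintegral_mono_set fun x hx => hx.1
      _ = ENNReal.ofReal (∫ y in sub U u (1 / 2), c * max (v y) 0) :=
          (ofReal_integral_eq_lintegral_ofReal (hi1.const_mul c)
            (Filter.Eventually.of_forall fun x => mul_nonneg hc0 (le_max_right _ _))).symm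
      _ = _ := by rw [integral_const_mul]
  rw [ENNReal.ofReal_le_ofReal_iff (mul_nonneg hc0 hI)] at key
  have e1 : (2 * (Mx / (4 * n))) ^ n = Mx * Mx ^ (n - 1) / (2 * n) ^ n := by
    rw [← pow_succ', Nat.sub_add_cancel hn, ← div_pow]
    congr 1
    field_simp
    ring
  rw [e1, div_le_iff₀ (by positivity), hc] at key
  have hp : 0 < Mx ^ (n - 1) := by positivity
  refine le_of_mul_le_mul_right ?_ hp
  linarith

end aux

/-- The Laplacian is integrable on the half section. -/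
theorem int_trace (n : ℕ) {Λ : ℝ} (hΛ : 1 ≤ Λ) :
    ∃ C : ℝ, 0 < C ∧ ∀ (U : Set (Fin n → ℝ)) (u : (Fin n → ℝ) → ℝ), Bnd Λ U u →
      ∫ x in sub U u (1 / 2), (hess u x).trace ≤ C :=
  ⟨8 * n * Λ ^ 2 * 2 ^ n + 1, by positivity, fun _ _ hB => by linarith [WH_int_trace hΛ hB]⟩

/-- Energy estimate for `L v ≥ |∇ v|²`. -/
theorem int_grad (n : ℕ) {Λ : ℝ} (hΛ : 1 ≤ Λ) :
    ∃ C : ℝ, 0 < C ∧ ∀ (U : Set (Fin n → ℝ)) (u v : (Fin n → ℝ) → ℝ), Bnd Λ U u → Sm U v →
      (∀ x ∈ U, ip u x (gr v x) (gr v x) ≤ Lop u v x) →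
      ∫ x in sub U u (1 / 2), ∑ i, |gr v x i| ≤ C :=
  ⟨(n * (8 * n * Λ ^ 2 * 2 ^ n) + 16 * Λ * (16 * n / 3 * Λ * 2 ^ n)) / 2 + 1,
    by have : 0 < Λ := by linarith
       positivity,
    fun _ _ _ hB hv hL => by linarith [WH_int_grad hΛ hB hv hL]⟩

/-- Local maximum principle (Aleksandrov) for `L v ≥ |∇ v|²`. -/
theorem local_max (n : ℕ) (hn : 0 < n) {Λ : ℝ} (hΛ : 1 ≤ Λ) :
    ∃ C : ℝ, 0 < C ∧ ∀ (U : Set (Fin n → ℝ)) (u v : (Fin n → ℝ) → ℝ), Bnd Λ U u → Sm U v →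
      (∀ x ∈ U, ip u x (gr v x) (gr v x) ≤ Lop u v x) →
      ∀ x ∈ sub U u (1 / 4), v x ≤ C * (1 + ∫ y in sub U u (1 / 2), max (v y) 0) := by
  have hΛ0 : 0 < Λ := by linarith
  set D : ℝ := (2 * n) ^ n * (Λ * ((n : ℝ) + 2) ^ n) with hD
  have hD0 : 0 ≤ D := by positivity
  refine ⟨4 ^ (n + 2) * (4 + D), by positivity, fun U u v hB hv hL x hx => ?_⟩
  have hK2 : IsCompact (sub U u (1 / 2)) := hB.good.isCompact_sub (by norm_num) hB.cpt
  have hx2 : x ∈ sub U u (1 / 2) := WH_sub_mono (by norm_num) hx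
  have hFs : Sm U (fun y => (1 / 2 - u y) ^ (n + 2) * v y) :=
    ((WH_sm_cut hB.good.sm (1 / 2)).pow (n + 2)).mul hv
  obtain ⟨x₀, hx₀, hmax⟩ := hK2.exists_isMaxOn ⟨x, hx2⟩ (hFs.continuousOn.mono (WH_sub_subset _))
  have hI : 0 ≤ ∫ y in sub U u (1 / 2), max (v y) 0 := integral_nonneg fun x => le_max_right _ _
  set I := ∫ y in sub U u (1 / 2), max (v y) 0 with hIdef
  have hM : (1 / 2 - u x₀) ^ (n + 2) * v x₀ ≤ (4 + D) * (1 + I) := by
    rcases le_total 4 ((1 / 2 - u x₀) ^ (n + 2) * v x₀) with h4 | h4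
    · have := WH_max_le hn hΛ hB hv hL hx₀ rfl (fun y hy => hmax hy) h4
      nlinarith
    · nlinarith [mul_nonneg hD0 hI]
  have h1 : (1 / 2 - u x) ^ (n + 2) * v x ≤ (4 + D) * (1 + I) := (hmax hx2).trans hM
  rcases le_total (v x) 0 with h0 | h0
  · exact h0.trans (by positivity)
  · have h2 : (1 / 4 : ℝ) ^ (n + 2) ≤ (1 / 2 - u x) ^ (n + 2) :=
      pow_le_pow_left₀ (by norm_num) (by linarith [hx.2]) _
    have h3 : (4 : ℝ) ^ (n + 2) * (1 / 4) ^ (n + 2) = 1 := by rw [← mul_pow]; norm_num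
    calc v x = 4 ^ (n + 2) * ((1 / 4) ^ (n + 2) * v x) := by rw [← mul_assoc, h3, one_mul]
      _ ≤ 4 ^ (n + 2) * ((1 / 2 - u x) ^ (n + 2) * v x) := by gcongr
      _ ≤ 4 ^ (n + 2) * ((4 + D) * (1 + I)) := by gcongr
      _ = _ := by ring

/-- Weak Harnack inequality in logarithmic form. -/
theorem weak_harnack (n : ℕ) (hn : 0 < n) {Λ γ : ℝ} (hΛ : 1 ≤ Λ) (hγ : 0 < γ) :
    ∃ C : ℝ, 0 < C ∧ ∀ (U : Set (Fin n → ℝ)) (u v : (Fin n → ℝ) → ℝ), Bnd Λ U u → Sm U v →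
      (∀ x ∈ U, ip u x (gr v x) (gr v x) ≤ Lop u v x) →
      γ ≤ volume.real {x | x ∈ sub U u (1 / 2) ∧ v x ≤ 0} →
      ∀ x ∈ sub U u (1 / 4), v x ≤ C := by
  obtain ⟨C1, hC1, h1⟩ := int_grad n hΛ
  obtain ⟨C2, hC2, h2⟩ := local_max n hn hΛ
  refine ⟨C2 * (1 + 2 * 4 ^ n * C1 / γ), by positivity, fun U u v hB hv hL hγ' x hx => ?_⟩
  have hK2 : IsCompact (sub U u (1 / 2)) := hB.good.isCompact_sub (by norm_num) hB.cpt
  have hZ : MeasurableSet {x | x ∈ sub U u (1 / 2) ∧ v x ≤ 0} :=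
    (hK2.isClosed.isClosed_le (hv.continuousOn.mono (WH_sub_subset _))
      continuousOn_const).measurableSet
  have h3 := poincare hB.good.op hv hK2 (hB.good.convex_sub hB.conv _) (WH_sub_subset _)
    ((WH_sub_mono (by norm_num)).trans hB.small) hZ (fun _ hx => hx.1) (fun _ hx => hx.2)
  have h4 := h1 U u v hB hv hL
  have h5 : 0 ≤ ∫ y in sub U u (1 / 2), max (v y) 0 := integral_nonneg fun x => le_max_right _ _
  have h6 : ∫ y in sub U u (1 / 2), max (v y) 0 ≤ 2 * 4 ^ n * C1 / γ := by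
    rw [le_div_iff₀ hγ]
    calc (∫ y in sub U u (1 / 2), max (v y) 0) * γ
        ≤ (∫ y in sub U u (1 / 2), max (v y) 0)
          * volume.real {x | x ∈ sub U u (1 / 2) ∧ v x ≤ 0} := by gcongr
      _ ≤ 2 * 4 ^ n * ∫ x in sub U u (1 / 2), ∑ i, |gr v x i| := by rw [mul_comm]; exact h3
      _ ≤ 2 * 4 ^ n * C1 := by gcongr
  exact (h2 U u v hB hv hL x hx).trans (by gcongr)

end Vale.Agent.P252
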