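import Vale.Agent.P252.B.DetB
import Vale.Agent.P252.B.WH

open Matrix MeasureTheory
open scoped ContDiff

namespace Vale.Agent.P252

variable {n : ℕ} {C₀ : ℝ} {Ω : Set (Fin n → ℝ)} {u : (Fin n → ℝ) → ℝ}

theorem final_back {V : Matrix (Fin n) (Fin n) ℝ} (hV : V.det ≠ 0) (x : Fin n → ℝ) :
    V *ᵥ V⁻¹ *ᵥ x = x := by
  rw [mulVec_mulVec, Matrix.mul_nonsing_inv _ hV.isUnit, one_mulVec]

theorem final_back' {V : Matrix (Fin n) (Fin n) ℝ} (hV : V.det ≠ 0) (x x₀ : Fin n → ℝ) :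
    x₀ + V *ᵥ V⁻¹ *ᵥ (x - x₀) = x := by
  rw [final_back hV, add_sub_cancel]

theorem final_breg_self (x : Fin n → ℝ) : breg u x x = 0 := by simp [breg]

/-- Uniform bounds on all normalised sections centred at `x₀`. -/
theorem exists_bnd (hn : 0 < n) (hC : 1 ≤ C₀) (h : Sol Ω u) (hq : QS C₀ Ω u) {x₀ : Fin n → ℝ}
    (hx : x₀ ∈ Ω) :
    ∃ Λ r : ℝ, 1 ≤ Λ ∧ 0 < r ∧
      (∀ x ∈ Ω, Λ⁻¹ ≤ (hess u x).det ∧ (hess u x).det ≤ Λ) ∧
      ∀ H : ℝ, 0 < H → ∃ (V : Matrix (Fin n) (Fin n) ℝ) (a : Fin n → ℝ) (b : ℝ), V.det ≠ 0 ∧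
        Bnd Λ (pre x₀ V Ω) (tr u x₀ V H⁻¹ a b) ∧
        (∀ y, tr u x₀ V H⁻¹ a b y = H⁻¹ * breg u (x₀ + V *ᵥ y) x₀) ∧
        Metric.closedBall 0 r ⊆ sub (pre x₀ V Ω) (tr u x₀ V H⁻¹ a b) (1 / 2) := by
  obtain ⟨r, R, hr, hR, hg⟩ := nrm_grad n hC
  obtain ⟨D, hD, hup⟩ := nrm_det_le n hn hC
  obtain ⟨d, hd, hlo⟩ := nrm_le_det n hn hC
  have hC2 : 1 ≤ C₀ ^ 2 := one_le_pow₀ hC
  have hhalf : 1 / (2 * C₀ ^ 2) ≤ 1 / 2 := by
    refine one_div_le_one_div_of_le two_pos ?_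
    linarith
  have hδ := h.good.det_pos hx
  set δ := (hess u x₀).det with hδdef
  have key : ∀ H : ℝ, 0 < H → ∀ V : Matrix (Fin n) (Fin n) ℝ,
      Nrm C₀ (pre x₀ V Ω) (tr u x₀ V H⁻¹ (-(H⁻¹ • Vᵀ *ᵥ gr u x₀)) (-(H⁻¹ * u x₀))) →
      ∀ y ∈ sub (pre x₀ V Ω) (tr u x₀ V H⁻¹ (-(H⁻¹ • Vᵀ *ᵥ gr u x₀)) (-(H⁻¹ * u x₀)))
        (1 / (2 * C₀ ^ 2)), d ≤ H⁻¹ ^ n * V.det ^ 2 * (hess u (x₀ + V *ᵥ y)).det ∧
          H⁻¹ ^ n * V.det ^ 2 * (hess u (x₀ + V *ᵥ y)).det ≤ D := by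
    intro H _ V hN y hy
    rw [← det_hess_tr h.good.op h.good.sm hy.1]
    exact ⟨hlo _ _ hN y hy, hup _ _ hN y ⟨hy.1, hy.2.trans hhalf⟩⟩
  have key0 : ∀ H : ℝ, 0 < H → ∀ V : Matrix (Fin n) (Fin n) ℝ,
      Nrm C₀ (pre x₀ V Ω) (tr u x₀ V H⁻¹ (-(H⁻¹ • Vᵀ *ᵥ gr u x₀)) (-(H⁻¹ * u x₀))) →
      d ≤ H⁻¹ ^ n * V.det ^ 2 * δ ∧ H⁻¹ ^ n * V.det ^ 2 * δ ≤ D := by
    intro H hH V hN
    have := key H hH V hN 0 ⟨hN.zero_mem, by rw [hN.val_zero]; positivity⟩
    rwa [mulVec_zero, add_zero] at this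
  have all : ∀ x ∈ Ω, d * δ ≤ D * (hess u x).det ∧ d * (hess u x).det ≤ D * δ := by
    intro x hxΩ
    have hb := h.good.breg_nonneg h.conv hxΩ hx
    have hH : 0 < 2 * C₀ ^ 2 * breg u x x₀ + 1 := by positivity
    obtain ⟨V, hV, hN, hf⟩ := exists_nrm h hq hx hH
    obtain ⟨e1, e2⟩ := key0 _ hH V hN
    obtain ⟨e3, e4⟩ := key _ hH V hN (V⁻¹ *ᵥ (x - x₀)) ⟨by
      change x₀ + _ ∈ Ω
      rwa [final_back' hV], by
      rw [hf, final_back' hV, inv_mul_eq_div, div_le_div_iff₀ hH (by positivity)]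
      linarith⟩
    rw [final_back' hV] at e3 e4
    have hx0 := h.good.det_pos hxΩ
    set κ := (2 * C₀ ^ 2 * breg u x x₀ + 1)⁻¹ ^ n * V.det ^ 2
    constructor
    · have f1 := mul_le_mul_of_nonneg_right e3 hδ.le
      have f2 := mul_le_mul_of_nonneg_right e2 hx0.le
      linarith
    · have f1 := mul_le_mul_of_nonneg_right e1 hx0.le
      have f2 := mul_le_mul_of_nonneg_right e4 hδ.le
      linarith
  have p1 : 0 ≤ D * δ / d := by positivity
  have p2 : 0 ≤ D / (d * δ) := by positivity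
  have p3 : 0 ≤ D * D / d := by positivity
  have p4 : 0 ≤ D / (d * d) := by positivity
  set Λ := 1 + R + D * δ / d + D / (d * δ) + D * D / d + D / (d * d) with hΛ
  have hΛ0 : 0 < Λ := by positivity
  refine ⟨Λ, r, by linarith, hr, fun x hxΩ => ⟨?_, ?_⟩, fun H hH => ?_⟩
  · have e1 : Λ⁻¹ ≤ (D / (d * δ))⁻¹ := inv_anti₀ (by positivity) (by linarith)
    refine e1.trans ?_
    rw [inv_div, div_le_iff₀ hD]
    linarith [(all x hxΩ).1]
  · refine le_trans ?_ (show D * δ / d ≤ Λ by linarith)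
    rw [le_div_iff₀ hd]
    linarith [(all x hxΩ).2]
  · obtain ⟨V, hV, hN, hf⟩ := exists_nrm h hq hx hH
    obtain ⟨e1, e2⟩ := key0 _ hH V hN
    have hκ : 0 ≤ H⁻¹ ^ n * V.det ^ 2 := by positivity
    refine ⟨V, _, _, hV, ⟨hN.good, hN.conv, fun y hy => ?_, hN.cpt, hN.small,
      fun y hy => ((hg _ _ hN).2 y hy).trans (by linarith), fun y hy => ?_, fun y hy => ?_⟩,
      hf, (hg _ _ hN).1⟩
    · rw [hf]
      exact mul_nonneg (by positivity) (h.good.breg_nonneg h.conv hy hx)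
    · rw [det_hess_tr h.good.op h.good.sm hy.1]
      refine le_trans ?_ (show D * D / d ≤ Λ by linarith)
      rw [le_div_iff₀ hd]
      have f1 := mul_le_mul_of_nonneg_left (all _ hy.1).2 hκ
      have f2 := mul_le_mul_of_nonneg_left e2 hD.le
      linarith
    · rw [det_hess_tr h.good.op h.good.sm hy.1]
      have e3 : Λ⁻¹ ≤ (D / (d * d))⁻¹ := inv_anti₀ (by positivity) (by linarith)
      refine e3.trans ?_
      rw [inv_div, div_le_iff₀ hD]
      have f1 := mul_le_mul_of_nonneg_left (all _ hy.1).1 hκ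
      have f2 := mul_le_mul_of_nonneg_left e1 hd.le
      linarith

theorem final_neglog {U : Set (Fin n → ℝ)} {g : (Fin n → ℝ) → ℝ} (hU : IsOpen U) (hg : Sm U g)
    {x : Fin n → ℝ} (hx : x ∈ U) (hp : ∀ y ∈ U, 0 < g y) (hL : Lop u g x ≤ 0) :
    ip u x (gr (fun y => -1 * Real.log (g y)) x) (gr (fun y => -1 * Real.log (g y)) x) ≤
      Lop u (fun y => -1 * Real.log (g y)) x := by
  have h1 : Sm U fun y => Real.log (g y) := hg.log fun y hy => (hp y hy).ne'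
  have h2 := hp x hx
  rw [Lop_const_mul hU _ h1 hx, Lop_log hU hg hx h2, gr_const_mul _ (h1.diff hU hx),
    gr_log (hg.diff hU hx) h2.ne', ip_smul_left, ip_smul_right, ip_smul_left, ip_smul_right]
  have h3 : Lop u g x / g x ≤ 0 := div_nonpos_of_nonpos_of_nonneg hL h2.le
  have h4 : (g x)⁻¹ * ((g x)⁻¹ * ip u x (gr g x) (gr g x)) =
      ip u x (gr g x) (gr g x) / g x ^ 2 := by
    field_simp
  linarith

/-- Finitely many nonnegative supersolutions with infimum zero are small at a common point. -/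
theorem simul_small (hn : 0 < n) (hC : 1 ≤ C₀) (h : Sol Ω u) (hq : QS C₀ Ω u) (hne : Ω.Nonempty)
    {ι : Type} [Fintype ι] (W : ι → (Fin n → ℝ) → ℝ) (hW : ∀ i, Sm Ω (W i))
    (hpos : ∀ i, ∀ x ∈ Ω, 0 ≤ W i x) (hsup : ∀ i, ∀ x ∈ Ω, Lop u (W i) x ≤ 0)
    (hinf : ∀ i, ∀ ε > 0, ∃ x ∈ Ω, W i x < ε) {τ : ℝ} (hτ : 0 < τ) :
    ∃ x ∈ Ω, ∀ i, W i x < τ := by
  by_contra hcon
  have hcon' : ∀ x ∈ Ω, ∃ i, τ ≤ W i x := by
    intro x hx
    by_contra h1
    exact hcon ⟨x, hx, fun i => not_le.1 fun h2 => h1 ⟨i, h2⟩⟩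
  obtain ⟨x₀, hx₀⟩ := hne
  have hι : Nonempty ι := ⟨(hcon' x₀ hx₀).choose⟩
  obtain ⟨Λ, r, hΛ, hr, -, hsec⟩ := exists_bnd hn hC h hq hx₀
  have hcard : (0 : ℝ) < Fintype.card ι := by exact_mod_cast Fintype.card_pos
  obtain ⟨C, -, hwh⟩ := weak_harnack n hn hΛ (γ := (2 * r) ^ n / Fintype.card ι) (by positivity)
  have hε : 0 < Real.exp (-C) / 2 := by positivity
  set ε := Real.exp (-C) / 2 with hεdef
  choose x hxΩ hxW using fun i => hinf i (τ * ε) (by positivity)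
  have hb : ∀ i, 0 ≤ breg u (x i) x₀ := fun i => h.good.breg_nonneg h.conv (hxΩ i) hx₀
  have hS : 0 ≤ ∑ i, breg u (x i) x₀ := Finset.sum_nonneg fun i _ => hb i
  have hH : 0 < 4 * ∑ i, breg u (x i) x₀ + 1 := by positivity
  set H := 4 * ∑ i, breg u (x i) x₀ + 1 with hHdef
  obtain ⟨V, a, b, hV, hB, hf, hball⟩ := hsec H hH
  let g : ι → (Fin n → ℝ) → ℝ := fun i y => τ⁻¹ * W i (x₀ + V *ᵥ y) + ε
  have gp : ∀ i, ∀ y ∈ pre x₀ V Ω, 0 < g i y := fun i y hy =>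
    add_pos_of_nonneg_of_pos (mul_nonneg (inv_nonneg.2 hτ.le) (hpos i _ hy)) hε
  have g0 : ∀ i, Sm (pre x₀ V Ω) fun y => τ⁻¹ * W i (x₀ + V *ᵥ y) := fun i =>
    contDiffOn_const.mul (hW i).comp_aff
  have gs : ∀ i, Sm (pre x₀ V Ω) (g i) := fun i => (g0 i).add contDiffOn_const
  have gL : ∀ i, ∀ y ∈ pre x₀ V Ω, Lop (tr u x₀ V H⁻¹ a b) (g i) y ≤ 0 := by
    intro i y hy
    rw [Lop_add hB.good.op (g0 i) contDiffOn_const hy, Lop_const,
      Lop_const_mul hB.good.op _ (hW i).comp_aff hy,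
      Lop_tr h.good hV (inv_pos.2 hH) (hW i) hy, add_zero]
    exact mul_nonpos_of_nonneg_of_nonpos (inv_nonneg.2 hτ.le)
      (mul_nonpos_of_nonneg_of_nonpos (by positivity) (hsup i _ hy))
  let Z : ι → Set (Fin n → ℝ) := fun i =>
    {y | y ∈ sub (pre x₀ V Ω) (tr u x₀ V H⁻¹ a b) (1 / 2) ∧ -1 * Real.log (g i y) ≤ 0}
  have hcov : Metric.closedBall 0 r ⊆ ⋃ i, Z i := by
    intro y hy
    have hy' := hball hy
    obtain ⟨i, hi⟩ := hcon' _ hy'.1
    refine Set.mem_iUnion.2 ⟨i, hy', ?_⟩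
    have e1 : 1 ≤ τ⁻¹ * W i (x₀ + V *ᵥ y) := by
      rw [inv_mul_eq_div, le_div_iff₀ hτ]
      linarith
    have e2 := Real.log_nonneg (show 1 ≤ g i y by simp only [g]; linarith)
    linarith
  have hK : IsCompact (sub (pre x₀ V Ω) (tr u x₀ V H⁻¹ a b) (1 / 2)) :=
    hB.good.isCompact_sub (by norm_num) hB.cpt
  have hvol : (2 * r) ^ n ≤ ∑ i, volume.real (Z i) := by
    have e1 : volume.real (Metric.closedBall (0 : Fin n → ℝ) r) = (2 * r) ^ n := by
      rw [measureReal_def, Real.volume_pi_closedBall _ hr.le, Fintype.card_fin,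
        ENNReal.toReal_ofReal (by positivity)]
    rw [← e1]
    refine (measureReal_mono hcov ?_).trans (measureReal_iUnion_fintype_le Z)
    exact measure_ne_top_of_subset (Set.iUnion_subset fun i y hy => hy.1) hK.measure_ne_top
  obtain ⟨i, hi⟩ : ∃ i, (2 * r) ^ n / Fintype.card ι ≤ volume.real (Z i) := by
    by_contra h1
    have h2 := Finset.sum_lt_sum_of_nonempty (Finset.univ_nonempty (α := ι))
      fun i _ => not_le.1 fun h2 => h1 ⟨i, h2⟩
    rw [Finset.sum_const, Finset.card_univ, nsmul_eq_mul, mul_div_cancel₀ _ hcard.ne'] at h2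
    linarith
  have hy : V⁻¹ *ᵥ (x i - x₀) ∈ sub (pre x₀ V Ω) (tr u x₀ V H⁻¹ a b) (1 / 4) := by
    refine ⟨?_, ?_⟩
    · change x₀ + _ ∈ Ω
      rw [final_back' hV]
      exact hxΩ i
    · rw [hf, final_back' hV, inv_mul_eq_div, div_le_div_iff₀ hH (by positivity)]
      have := Finset.single_le_sum (f := fun i => breg u (x i) x₀) (fun i _ => hb i)
        (Finset.mem_univ i)
      linarith
  have e1 := hwh _ _ (fun y => -1 * Real.log (g i y)) hB
    (contDiffOn_const.mul ((gs i).log fun y hy => (gp i y hy).ne'))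
    (fun y hy => final_neglog hB.good.op (gs i) hy (gp i) (gL i y hy)) hi _ hy
  have e2 : g i (V⁻¹ *ᵥ (x i - x₀)) < Real.exp (-C) := by
    simp only [g]
    rw [final_back' hV]
    have : τ⁻¹ * W i (x i) < ε := by
      rw [inv_mul_lt_iff₀ hτ]
      exact hxW i
    linarith
  have e3 := Real.log_lt_log (gp i _ hy.1) e2
  rw [Real.log_exp] at e3
  linarith

theorem final_th_pos (n : ℕ) : 0 < th n := by
  unfold th
  positivity

theorem det_const (hn : 0 < n) (hC : 1 ≤ C₀) (h : Sol Ω u) (hq : QS C₀ Ω u) :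
    ∀ x ∈ Ω, ∀ y ∈ Ω, (hess u x).det = (hess u y).det := by
  intro x hx y hy
  have hg := h.good
  obtain ⟨Λ, -, hΛ, -, hb, -⟩ := exists_bnd hn hC h hq hx
  have hθ := final_th_pos n
  let w : (Fin n → ℝ) → ℝ := fun z => Real.exp (-th n * ld u z)
  have h1 : Sm Ω fun y => -th n * ld u y := contDiffOn_const.mul hg.sm_ld
  have hw : Sm Ω w := h1.exp
  have hL : ∀ z ∈ Ω, Lop u w z = 0 := by
    intro z hz
    rw [Lop_exp hg.op h1 hz, Lop_const_mul hg.op _ hg.sm_ld hz,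
      gr_const_mul _ (hg.sm_ld.diff hg.op hz), ip_smul_left, ip_smul_right, h.eqn.ld hz]
    ring
  have bl : BddBelow (w '' Ω) := ⟨0, by rintro _ ⟨z, -, rfl⟩; exact (Real.exp_pos _).le⟩
  have bu : BddAbove (w '' Ω) := ⟨Real.exp (-th n * Real.log Λ⁻¹), by
    rintro _ ⟨z, hz, rfl⟩
    refine Real.exp_le_exp.2 (mul_le_mul_of_nonpos_left ?_ (by linarith))
    exact Real.log_le_log (inv_pos.2 (by linarith)) (hb z hz).1⟩
  have ne : (w '' Ω).Nonempty := ⟨_, x, hx, rfl⟩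
  have key : sSup (w '' Ω) ≤ sInf (w '' Ω) := by
    refine le_of_forall_pos_lt_add fun τ hτ => ?_
    obtain ⟨z, -, hz⟩ := simul_small hn hC h hq ⟨x, hx⟩ (ι := Bool)
      (fun i z => if i then w z - sInf (w '' Ω) else sSup (w '' Ω) - w z)
      (by
        rintro (_ | _)
        · exact contDiffOn_const.sub hw
        · exact hw.sub contDiffOn_const)
      (by
        rintro (_ | _) z hz
        · exact sub_nonneg.2 (le_csSup bu ⟨z, hz, rfl⟩)
        · exact sub_nonneg.2 (csInf_le bl ⟨z, hz, rfl⟩))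
      (by
        rintro (_ | _) z hz
        · exact (Lop_sub hg.op contDiffOn_const hw hz).trans_le (by rw [Lop_const, hL z hz]; simp)
        · exact (Lop_sub hg.op hw contDiffOn_const hz).trans_le (by rw [Lop_const, hL z hz]; simp))
      (by
        rintro (_ | _) ε hε
        · obtain ⟨_, ⟨z, hz, rfl⟩, h2⟩ := exists_lt_of_lt_csSup ne (sub_lt_self _ hε)
          exact ⟨z, hz, sub_lt_comm.1 h2⟩
        · obtain ⟨_, ⟨z, hz, rfl⟩, h2⟩ := exists_lt_of_csInf_lt ne (lt_add_of_pos_right _ hε)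
          exact ⟨z, hz, sub_lt_iff_lt_add'.2 h2⟩)
      (half_pos hτ)
    have e1 : sSup (w '' Ω) - w z < τ / 2 := hz false
    have e2 : w z - sInf (w '' Ω) < τ / 2 := hz true
    linarith
  have e : w x = w y := le_antisymm
    ((le_csSup bu ⟨x, hx, rfl⟩).trans (key.trans (csInf_le bl ⟨y, hy, rfl⟩)))
    ((le_csSup bu ⟨y, hy, rfl⟩).trans (key.trans (csInf_le bl ⟨x, hx, rfl⟩)))
  have e2 := mul_left_cancel₀ (neg_ne_zero.2 hθ.ne') (Real.exp_injective e)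
  exact Real.log_injOn_pos (hg.det_pos hx) (hg.det_pos hy) e2

theorem final_dd_ld {U : Set (Fin n → ℝ)} (hU : IsOpen U)
    (hd : ∀ x ∈ U, ∀ y ∈ U, (hess u x).det = (hess u y).det) (e : Fin n → ℝ) {x : Fin n → ℝ}
    (hx : x ∈ U) : dd e (ld u) x = 0 ∧ dd e (dd e (ld u)) x = 0 := by
  have h1 : ∀ y ∈ U, dd e (ld u) y = 0 := by
    intro y hy
    rw [dd_congr_on hU (g := fun _ => ld u x) (fun z hz => by rw [ld, ld, hd z hz x hx]) hy,
      dd, gr_const, dotProduct_zero]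
  refine ⟨h1 x hx, ?_⟩
  rw [dd_congr_on hU h1 hx, dd, gr_const, dotProduct_zero]

theorem final_q2_smul (c : ℝ) (e x : Fin n → ℝ) : q2 u (c • e) x = c ^ 2 * q2 u e x := by
  simp only [q2, mulVec_smul, dotProduct_smul, smul_dotProduct, smul_eq_mul]
  ring

theorem final_q2_sec (hn : 2 ≤ n) {Λ : ℝ} (hΛ : 1 ≤ Λ) :
    ∃ C : ℝ, 0 < C ∧ ∀ (U : Set (Fin n → ℝ)) (u : (Fin n → ℝ) → ℝ), Bnd Λ U u →
      (∀ x ∈ U, ∀ y ∈ U, (hess u x).det = (hess u y).det) →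
      ∀ x ∈ sub U u (1 / 4), ∀ e, q2 u e x ≤ C * (e ⬝ᵥ e) := by
  obtain ⟨C₁, hC₁, hmax⟩ := local_max n (by omega) hΛ
  obtain ⟨C₂, hC₂, htr⟩ := int_trace n hΛ
  have hn1 : (1 : ℝ) ≤ (n : ℝ) - 1 := by
    have : (2 : ℝ) ≤ n := by exact_mod_cast hn
    linarith
  set k := (n : ℝ) - 1 with hk
  have hk0 : 0 < k := by linarith
  refine ⟨Real.exp (k * (C₁ * (1 + C₂))), Real.exp_pos _, fun U u hB hd x hx => ?_⟩
  have hg := hB.good
  have hK : IsCompact (sub U u (1 / 2)) := hg.isCompact_sub (by norm_num) hB.cpt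
  have hKU : sub U u (1 / 2) ⊆ U := fun y hy => hy.1
  have unit : ∀ e : Fin n → ℝ, e ⬝ᵥ e = 1 → q2 u e x ≤ Real.exp (k * (C₁ * (1 + C₂))) := by
    intro e he
    have he0 : e ≠ 0 := by
      rintro rfl
      simp at he
    have s1 : Sm U fun y => Real.log (q2 u e y) :=
      (hg.sm.q2 hg.op e).log fun y hy => (hg.q2_pos hy he0).ne'
    have s2 : Sm U fun y => k⁻¹ * Real.log (q2 u e y) := contDiffOn_const.mul s1
    have e1 := hmax U u _ hB s2 (fun y hy => by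
      have f1 := hg.pog hn hy he0
      obtain ⟨f2, f3⟩ := final_dd_ld hg.op hd e hy
      have hq := hg.q2_pos hy he0
      have f4 := cs_ip (hg.pos y hy) (gr (fun y => Real.log (q2 u e y)) y) e
      rw [dotProduct_comm] at f4
      change (dd e (fun y => Real.log (q2 u e y)) y) ^ 2 ≤
        ip u y (gr (fun y => Real.log (q2 u e y)) y) (gr (fun y => Real.log (q2 u e y)) y) *
          q2 u e y at f4
      rw [f2, f3, zero_div, zero_add, zero_sub, neg_sq, ← hk] at f1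
      rw [Lop_const_mul hg.op _ s1 hy, gr_const_mul _ (s1.diff hg.op hy), ip_smul_left,
        ip_smul_right]
      refine mul_le_mul_of_nonneg_left (le_trans ?_ f1) (by positivity)
      set I := ip u y (gr (fun y => Real.log (q2 u e y)) y) (gr (fun y => Real.log (q2 u e y)) y)
      set E := dd e (fun y => Real.log (q2 u e y)) y
      have f5 : E ^ 2 / q2 u e y ≤ I := (div_le_iff₀ hq).2 f4
      have f6 : E ^ 2 / (k * q2 u e y) = k⁻¹ * (E ^ 2 / q2 u e y) := by field_simp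
      have f7 : k⁻¹ ≤ 1 := inv_le_one_of_one_le₀ hn1
      rw [f6]
      nlinarith) x hx
    have e2 : ∫ y in sub U u (1 / 2), max (k⁻¹ * Real.log (q2 u e y)) 0 ≤ C₂ := by
      refine le_trans (setIntegral_mono_on ?_ ((hg.sm.trace hg.op).integrableOn hK hKU)
        hK.measurableSet fun y hy => ?_) (htr U u hB)
      · exact ((s2.continuousOn.mono hKU).sup continuousOn_const).integrableOn_compact hK
      · have hq := hg.q2_pos hy.1 he0
        have f1 := quad_le_trace (hg.pos y hy.1).posSemidef e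
        rw [he, mul_one] at f1
        refine le_trans (max_le ?_ hq.le) f1
        have f2 := Real.log_le_sub_one_of_pos hq
        have f7 : k⁻¹ ≤ 1 := inv_le_one_of_one_le₀ hn1
        have f8 : 0 < k⁻¹ := inv_pos.2 hk0
        change _ ≤ q2 u e y
        nlinarith
    have e3 : k⁻¹ * Real.log (q2 u e x) ≤ C₁ * (1 + C₂) :=
      e1.trans (mul_le_mul_of_nonneg_left (by linarith) hC₁.le)
    rw [inv_mul_le_iff₀ hk0] at e3
    exact (Real.log_le_iff_le_exp (hg.q2_pos hx.1 he0)).1 e3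
  intro e
  by_cases he : e = 0
  · simp [he, q2]
  have h1 : 0 < e ⬝ᵥ e := by simpa using dotProduct_star_self_pos_iff.2 he
  have h2 : 0 < √(e ⬝ᵥ e) := Real.sqrt_pos.2 h1
  have h3 := Real.sq_sqrt h1.le
  have h4 := unit ((√(e ⬝ᵥ e))⁻¹ • e) (by
    rw [smul_dotProduct, dotProduct_smul, smul_eq_mul, smul_eq_mul]
    field_simp
    exact h3.symm)
  rw [final_q2_smul, inv_pow, h3, inv_mul_le_iff₀ h1] at h4
  linarith

theorem q2_bdd (hn : 2 ≤ n) (hC : 1 ≤ C₀) (h : Sol Ω u) (hq : QS C₀ Ω u) (e : Fin n → ℝ) :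
    ∃ M : ℝ, ∀ x ∈ Ω, q2 u e x ≤ M := by
  rcases Ω.eq_empty_or_nonempty with rfl | ⟨x₀, hx₀⟩
  · exact ⟨0, fun x hx => hx.elim⟩
  have hn0 : 0 < n := by omega
  obtain ⟨Λ, r, hΛ, -, -, hsec⟩ := exists_bnd hn0 hC h hq hx₀
  obtain ⟨C, hC0, hup⟩ := final_q2_sec hn hΛ
  obtain ⟨D, -, hlo⟩ := lower_of_upper_det n (C := C) (c := Λ⁻¹) (inv_pos.2 (by linarith))
  refine ⟨C * (D * q2 u e x₀), fun x hx => ?_⟩
  have hb := h.good.breg_nonneg h.conv hx hx₀
  have hH : 0 < 4 * breg u x x₀ + 1 := by positivity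
  set H := 4 * breg u x x₀ + 1 with hHdef
  obtain ⟨V, a, b, hV, hB, hf, -⟩ := hsec H hH
  have hd : ∀ y ∈ pre x₀ V Ω, ∀ z ∈ pre x₀ V Ω,
      (hess (tr u x₀ V H⁻¹ a b) y).det = (hess (tr u x₀ V H⁻¹ a b) z).det := by
    intro y hy z hz
    rw [det_hess_tr h.good.op h.good.sm hy, det_hess_tr h.good.op h.good.sm hz,
      det_const hn0 hC h hq _ hy _ hz]
  have h0 : (0 : Fin n → ℝ) ∈ pre x₀ V Ω := by
    change x₀ + _ ∈ Ω
    rwa [mulVec_zero, add_zero]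
  have h0' : tr u x₀ V H⁻¹ a b 0 = 0 := by
    rw [hf, mulVec_zero, add_zero, final_breg_self, mul_zero]
  have hy : V⁻¹ *ᵥ (x - x₀) ∈ sub (pre x₀ V Ω) (tr u x₀ V H⁻¹ a b) (1 / 4) := by
    refine ⟨?_, ?_⟩
    · change x₀ + _ ∈ Ω
      rwa [final_back' hV]
    · rw [hf, final_back' hV, inv_mul_eq_div, div_le_div_iff₀ hH (by positivity)]
      linarith
  have e1 := hup _ _ hB hd _ hy (V⁻¹ *ᵥ e)
  have e2 : (V⁻¹ *ᵥ e) ⬝ᵥ (V⁻¹ *ᵥ e) ≤ D * q2 (tr u x₀ V H⁻¹ a b) (V⁻¹ *ᵥ e) 0 :=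
    hlo _ (hB.good.pos 0 h0) (hup _ _ hB hd 0 ⟨h0, by rw [h0']; norm_num⟩)
      (hB.le_det 0 ⟨h0, by rw [h0']; norm_num⟩) (V⁻¹ *ᵥ e)
  rw [q2_tr h.good.op h.good.sm hy.1, final_back' hV, final_back hV] at e1
  rw [q2_tr h.good.op h.good.sm h0, mulVec_zero, add_zero, final_back hV] at e2
  have e3 := e1.trans (mul_le_mul_of_nonneg_left e2 hC0.le)
  refine le_of_mul_le_mul_left (e3.trans_eq ?_) (inv_pos.2 hH)
  ring

theorem hess_const_of_qs (hn : 2 ≤ n) (hC : 1 ≤ C₀) (h : Sol Ω u) (hq : QS C₀ Ω u) :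
    ∀ x ∈ Ω, ∀ y ∈ Ω, hess u x = hess u y := by
  intro x hx
  have hn0 : 0 < n := by omega
  have hg := h.good
  have hd := det_const hn0 hC h hq
  let m : (Fin n → ℝ) → ℝ := fun e => sSup (q2 u e '' Ω)
  have hm : ∀ e, ∀ z ∈ Ω, q2 u e z ≤ m e := by
    intro e z hz
    obtain ⟨M, hM⟩ := q2_bdd hn hC h hq e
    exact le_csSup ⟨M, by rintro _ ⟨z, hz, rfl⟩; exact hM z hz⟩ ⟨z, hz, rfl⟩
  let E : Fin n → Fin n → ℝ := fun i => Pi.single i 1
  let A : Matrix (Fin n) (Fin n) ℝ := Matrix.of fun i j => (m (E i + E j) - m (E i) - m (E j)) / 2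
  have hent : ∀ z ∈ Ω, ∀ i j,
      hess u z i j = (q2 u (E i + E j) z - q2 u (E i) z - q2 u (E j) z) / 2 := by
    intro z hz i j
    have hs := (hess_symm hg.op hg.sm hz).apply i j
    simp only [q2, E, mulVec_add, add_dotProduct, dotProduct_add, single_dotProduct,
      mulVec_single_one, Matrix.col_apply, one_mul]
    linarith
  have key : ∀ e, m e = e ⬝ᵥ A *ᵥ e ∧ A.det = (hess u x).det := by
    intro e
    let vec : Option (Fin n × Fin n) ⊕ Fin n → Fin n → ℝ :=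
      Sum.elim (fun o => o.elim e fun p => E p.1 + E p.2) E
    have small : ∀ k : ℕ, ∃ z ∈ Ω, ∀ i, m (vec i) - q2 u (vec i) z < 1 / ((k : ℝ) + 1) :=
      fun k => simul_small hn0 hC h hq ⟨x, hx⟩ (fun i z => m (vec i) - q2 u (vec i) z)
        (fun i => contDiffOn_const.sub (hg.sm.q2 hg.op _))
        (fun i z hz => sub_nonneg.2 (hm _ z hz))
        (fun i z hz => by
          rw [Lop_sub hg.op contDiffOn_const (hg.sm.q2 hg.op _) hz, Lop_const, hg.Lop_q2 hz,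
            (final_dd_ld hg.op hd _ hz).2]
          have := trace_sq_nonneg (hg.pos z hz) (hess_symm hg.op (hg.sm.dd hg.op (vec i)) hz)
          linarith)
        (fun i ε hε => by
          obtain ⟨_, ⟨z, hz, rfl⟩, h2⟩ := exists_lt_of_lt_csSup (s := q2 u (vec i) '' Ω)
            ⟨_, x, hx, rfl⟩ (sub_lt_self _ hε)
          exact ⟨z, hz, sub_lt_comm.1 h2⟩)
        (by positivity)
    choose z hz hzs using small
    have t0 : ∀ i, Filter.Tendsto (fun k => q2 u (vec i) (z k)) Filter.atTop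
        (nhds (m (vec i))) := by
      intro i
      have t := (squeeze_zero (fun k => sub_nonneg.2 (hm _ _ (hz k))) (fun k => (hzs k i).le)
        tendsto_one_div_add_atTop_nhds_zero_nat).const_sub (m (vec i))
      simpa using t
    have t1 : Filter.Tendsto (fun k => hess u (z k)) Filter.atTop (nhds A) := by
      refine tendsto_pi_nhds.2 fun i => tendsto_pi_nhds.2 fun j => ?_
      simp only [fun k => hent (z k) (hz k) i j]
      exact (((t0 (Sum.inl (some (i, j)))).sub (t0 (Sum.inr i))).sub (t0 (Sum.inr j))).div_const 2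
    constructor
    · have c1 : Continuous fun M : Matrix (Fin n) (Fin n) ℝ => e ⬝ᵥ M *ᵥ e := by fun_prop
      exact tendsto_nhds_unique (t0 (Sum.inl none)) ((c1.tendsto A).comp t1)
    · have c1 : Continuous fun M : Matrix (Fin n) (Fin n) ℝ => M.det := by fun_prop
      have t2 := (c1.tendsto A).comp t1
      have e2 : ((fun M : Matrix (Fin n) (Fin n) ℝ => M.det) ∘ fun k => hess u (z k)) =
          fun _ => (hess u x).det := funext fun k => hd _ (hz k) x hx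
      rw [e2] at t2
      exact tendsto_nhds_unique t2 tendsto_const_nhds
  have hA : ∀ z ∈ Ω, A = hess u z := by
    intro z hz
    refine eq_of_le_of_det hn0 (hg.pos z hz) ?_ ((key 0).2.trans (hd x hx z hz))
    refine Matrix.PosSemidef.of_dotProduct_mulVec_nonneg (Matrix.IsHermitian.sub ?_
      (hg.pos z hz).isHermitian) fun e => ?_
    · ext i j
      simp only [A, Matrix.conjTranspose_apply, Matrix.of_apply, star_trivial, add_comm (E i)]
      ring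
    · rw [star_trivial, sub_mulVec, dotProduct_sub, ← (key e).1]
      exact sub_nonneg.2 (hm e z hz)
  intro y hy
  rw [← hA x hx, ← hA y hy]

theorem rigid_of_qs (hn : 2 ≤ n) (hC : 1 ≤ C₀) (h : Sol Ω u) (hq : QS C₀ Ω u) (hne : Ω.Nonempty) :
    Ω = Set.univ ∧ ∃ (A : Matrix (Fin n) (Fin n) ℝ) (b : Fin n → ℝ) (c : ℝ), A.PosDef ∧
      ∀ x, u x = (1 / 2) * (x ⬝ᵥ A *ᵥ x) + b ⬝ᵥ x + c := by
  obtain ⟨x₀, hx₀⟩ := hne
  obtain ⟨b, c, hbc⟩ := quadratic_of_hess_const h.good.op h.conv h.good.sm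
    fun x hx => hess_const_of_qs hn hC h hq x hx x₀ hx₀
  have hcl : IsClosed Ω := by
    refine isClosed_of_closure_subset fun p hp => ?_
    let B : (Fin n → ℝ) → ℝ := fun x => (1 / 2) * (x ⬝ᵥ hess u x₀ *ᵥ x) + b ⬝ᵥ x + c - u x₀ -
      gr u x₀ ⬝ᵥ (x - x₀)
    have hB : Continuous B := by fun_prop
    have ho : IsOpen {x | B x < B p + 1} := isOpen_lt hB continuous_const
    have h1 := ho.inter_closure (t := Ω) ⟨lt_add_one (B p), hp⟩
    have h2 : {x | B x < B p + 1} ∩ Ω ⊆ {x | x ∈ Ω ∧ breg u x x₀ ≤ B p + 1} := by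
      rintro x ⟨e1, e2⟩
      refine ⟨e2, le_trans (le_of_eq ?_) (le_of_lt e1)⟩
      rw [breg, hbc x e2]
    exact ((h.cpt x₀ hx₀ _).isClosed.closure_subset (closure_mono h2 h1)).1
  have hu : Ω = Set.univ := IsClopen.eq_univ ⟨hcl, h.good.op⟩ ⟨x₀, hx₀⟩
  exact ⟨hu, hess u x₀, b, c, h.good.pos x₀ hx₀, fun x => hbc x (hu ▸ Set.mem_univ x)⟩

end Vale.Agent.P252
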