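import Vale.Agent.P252.B.IBP
import Vale.Agent.P252.B.Conv

open Matrix MeasureTheory
open scoped ContDiff

namespace Vale.Agent.P252

theorem low_point {n : ℕ} (hn : 0 < n) {a : ℝ} (ha : 0 ≤ a) :
    ∃ A B : ℝ, 0 < A ∧ ∀ F τ ρ ζ β G : ℝ, 0 < F → 0 < τ → 1 ≤ F ^ (n + 2) * (τ / n) ^ n →
      1 ≤ ρ → ρ ≤ 2 → 0 ≤ ζ → ζ ≤ 1 → 0 ≤ β → β ≤ 1 → 0 ≤ G →
      A * ζ ^ 2 - B * (F / ρ ^ n * (3 * ζ ^ 2 * (τ / (4 * n) - n) + 6 * ζ * G
        - ζ ^ 3 * ((n : ℝ) * ((n : ℝ) + 2) * β / ρ))) ≤ Real.sqrt (F ^ (n + 2)) * τ ^ (-a) := by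
  have hn1 : (1 : ℝ) ≤ n := by exact_mod_cast hn
  obtain ⟨C, hC⟩ : ∃ C : ℝ, C = 4 * n / 3 * (3 * n + n * (n + 2)) := ⟨_, rfl⟩
  have hC0 : 0 < C := by rw [hC]; positivity
  obtain ⟨c, hc⟩ : ∃ c : ℝ, c = Real.sqrt ((1 / (1 + 2 * C)) ^ n) * (2 * C) ^ (-a) := ⟨_, rfl⟩
  have hc0 : 0 < c := by rw [hc]; positivity
  refine ⟨c / (2 * (1 + C) * 2 ^ n), c * (1 / (2 * (1 + C)) + 1 / (2 * C)) * (4 * n / 3),
    by positivity, ?_⟩
  intro F τ ρ ζ β G hF hτ hD hρ1 hρ2 hζ0 hζ1 hβ0 hβ1 hG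
  have hρ0 : 0 < ρ := by linarith
  have h1 : 1 ≤ F * (1 + τ) := by
    by_contra hlt
    have h2 : (F * (1 + τ)) ^ (n + 2) < 1 :=
      pow_lt_one₀ (by positivity) (not_le.1 hlt) (by omega)
    have h3 : (τ / n) ^ n ≤ (1 + τ) ^ (n + 2) := by
      calc (τ / n) ^ n ≤ (1 + τ) ^ n := by
            apply pow_le_pow_left₀ (by positivity)
            rw [div_le_iff₀ (by linarith)]
            nlinarith
        _ ≤ (1 + τ) ^ (n + 2) := pow_le_pow_right₀ (by linarith) (by omega)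
    rw [mul_pow] at h2
    have h4 := mul_le_mul_of_nonneg_left h3 (pow_pos hF (n + 2)).le
    linarith
  obtain ⟨m, hm⟩ : ∃ m : ℝ, m = F / ρ ^ n * ζ ^ 2 := ⟨_, rfl⟩
  have hm0 : 0 ≤ m := by rw [hm]; positivity
  have hρn : 1 ≤ ρ ^ n := one_le_pow₀ hρ1
  have hρn2 : ρ ^ n ≤ 2 ^ n := pow_le_pow_left₀ hρ0.le hρ2 n
  have hmF : m ≤ F := by
    rw [hm]
    have h5 : F / ρ ^ n ≤ F := div_le_self hF.le hρn
    have h6 : ζ ^ 2 ≤ 1 := pow_le_one₀ hζ0 hζ1
    calc F / ρ ^ n * ζ ^ 2 ≤ F / ρ ^ n * 1 := by gcongr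
      _ ≤ F := by linarith
  have h2 : ζ ^ 2 / 2 ^ n ≤ m * (1 + τ) := by
    rw [hm]
    calc ζ ^ 2 / 2 ^ n ≤ ζ ^ 2 / ρ ^ n := by gcongr
      _ = 1 * (ζ ^ 2 / ρ ^ n) := by ring
      _ ≤ F * (1 + τ) * (ζ ^ 2 / ρ ^ n) := by gcongr
      _ = _ := by ring
  have h3 : c * (m * (1 - τ / (2 * C))) ≤ Real.sqrt (F ^ (n + 2)) * τ ^ (-a) := by
    by_cases hT : τ ≤ 2 * C
    · have h4 : 1 / (1 + 2 * C) ≤ F := by
        rw [div_le_iff₀ (by positivity)]
        nlinarith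
      have h5 : Real.sqrt (F ^ (n + 2)) = F * Real.sqrt (F ^ n) := by
        rw [show F ^ (n + 2) = F ^ 2 * F ^ n by ring, Real.sqrt_mul (by positivity),
          Real.sqrt_sq hF.le]
      have h6 : Real.sqrt ((1 / (1 + 2 * C)) ^ n) ≤ Real.sqrt (F ^ n) :=
        Real.sqrt_le_sqrt (pow_le_pow_left₀ (by positivity) h4 n)
      have h7 : (2 * C) ^ (-a) ≤ τ ^ (-a) := Real.rpow_le_rpow_of_nonpos hτ hT (by linarith)
      have h8 : m * (1 - τ / (2 * C)) ≤ F := by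
        have : 0 ≤ m * (τ / (2 * C)) := by positivity
        linarith
      calc c * (m * (1 - τ / (2 * C))) ≤ c * F := by gcongr
        _ = F * Real.sqrt ((1 / (1 + 2 * C)) ^ n) * (2 * C) ^ (-a) := by rw [hc]; ring
        _ ≤ F * Real.sqrt (F ^ n) * τ ^ (-a) := by gcongr
        _ = _ := by rw [h5]
    · have h4 : 1 - τ / (2 * C) ≤ 0 := by
        rw [sub_nonpos, one_le_div (by positivity)]
        linarith
      have h5 : c * (m * (1 - τ / (2 * C))) ≤ 0 :=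
        mul_nonpos_of_nonneg_of_nonpos hc0.le (mul_nonpos_of_nonneg_of_nonpos hm0 h4)
      exact h5.trans (by positivity)
  obtain ⟨I, hI⟩ : ∃ I : ℝ, I = F / ρ ^ n * (3 * ζ ^ 2 * (τ / (4 * n) - n) + 6 * ζ * G
        - ζ ^ 3 * ((n : ℝ) * ((n : ℝ) + 2) * β / ρ)) := ⟨_, rfl⟩
  rw [← hI]
  have h4 : m * (τ - C) ≤ 4 * n / 3 * I := by
    have e1 : ζ * (β / ρ) ≤ 1 :=
      mul_le_one₀ hζ1 (by positivity) (by rw [div_le_one hρ0]; linarith)
    have e2 : 4 * n / 3 * I - m * (τ - C) = F / ρ ^ n * (8 * n * ζ * G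
        + 4 * n / 3 * (n * (n + 2)) * ζ ^ 2 * (1 - ζ * (β / ρ))) := by
      rw [hI, hm, hC]
      field_simp
      ring
    have e3 : 0 ≤ F / ρ ^ n * (8 * n * ζ * G
        + 4 * n / 3 * (n * (n + 2)) * ζ ^ 2 * (1 - ζ * (β / ρ))) := by
      have : 0 ≤ 1 - ζ * (β / ρ) := by linarith
      positivity
    linarith
  refine le_trans ?_ h3
  have e4 : c * (m * (1 - τ / (2 * C))) = c / (2 * (1 + C)) * (m * (1 + τ))
      - c * (1 / (2 * (1 + C)) + 1 / (2 * C)) * (m * (τ - C)) := by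
    field_simp
    ring
  have e5 : c / (2 * (1 + C) * 2 ^ n) * ζ ^ 2 = c / (2 * (1 + C)) * (ζ ^ 2 / 2 ^ n) := by
    field_simp
  have e6 : c / (2 * (1 + C)) * (ζ ^ 2 / 2 ^ n) ≤ c / (2 * (1 + C)) * (m * (1 + τ)) := by gcongr
  have e7 : c * (1 / (2 * (1 + C)) + 1 / (2 * C)) * (m * (τ - C))
      ≤ c * (1 / (2 * (1 + C)) + 1 / (2 * C)) * (4 * n / 3 * I) := by gcongr
  rw [e4, e5]
  linarith

theorem low_sq_le {n : ℕ} {y : Fin n → ℝ} (hy : ‖y‖ ≤ 1) : y ⬝ᵥ y ≤ n := by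
  calc y ⬝ᵥ y = ∑ i, y i * y i := rfl
    _ ≤ ∑ _i : Fin n, (1 : ℝ) := by
        refine Finset.sum_le_sum fun i _ => ?_
        have h1 : |y i| ≤ 1 := (norm_le_pi_norm y i).trans hy
        have := abs_le.1 h1
        nlinarith
    _ = n := by simp

theorem low_int {n : ℕ} {K : Set (Fin n → ℝ)} {f1 f2 f3 g : (Fin n → ℝ) → ℝ} {A B : ℝ}
    (h1 : IntegrableOn f1 K) (h2 : IntegrableOn f2 K) (h3 : IntegrableOn f3 K)
    (hg : IntegrableOn g K) (hK : MeasurableSet K) (e2 : ∫ x in K, f2 x = 0)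
    (e3 : ∫ x in K, f3 x = 0) (h : ∀ x ∈ K, A * f1 x - B * (3 * f2 x - f3 x) ≤ g x) :
    A * ∫ x in K, f1 x ≤ ∫ x in K, g x := by
  have k1 : IntegrableOn (fun x => 3 * f2 x - f3 x) K := (h2.const_mul 3).sub h3
  have k2 : IntegrableOn (fun x => A * f1 x - B * (3 * f2 x - f3 x)) K :=
    (h1.const_mul A).sub (k1.const_mul B)
  have := setIntegral_mono_on k2 hg hK h
  rw [integral_sub (h1.const_mul A) (k1.const_mul B), integral_const_mul, integral_const_mul,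
    integral_sub (h2.const_mul 3) h3, integral_const_mul, e2, e3] at this
  linarith

/-- Lower bound on a normalised section. -/
theorem low_bound {n : ℕ} (hn : 0 < n) {a : ℝ} (ha : 0 ≤ a) :
    ∃ c : ℝ, 0 < c ∧ ∀ (u : (Fin n → ℝ) → ℝ) (β : ℝ), Good Set.univ u → 0 ≤ β → β ≤ 1 →
      Eqn Set.univ u β 1 → (∀ y, 0 ≤ u y) → (∀ y, u y ≤ 1 → ‖y‖ ≤ 1) →
      (∀ z : Fin n → ℝ, ∑ i, |z i| ≤ 1 / (2 * n) → u z ≤ 1) → (∃ y, u y ≤ 1 / 4) →
      c ≤ ∫ y in {y | u y ≤ 1},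
        Real.sqrt (hess u y).det * ((hess u y)⁻¹).trace ^ (-a) := by
  obtain ⟨A, B, hA, hAB⟩ := low_point hn ha
  have hn0 : (0 : ℝ) < n := by exact_mod_cast hn
  refine ⟨A * ((1 / 4) ^ 2 * (2 * (1 / (6 * (n : ℝ) ^ 2))) ^ n), by positivity, ?_⟩
  rintro u β hu hβ0 hβ1 he h0 h1 h2 ⟨y1, hy1⟩
  have hcu : Continuous u := continuousOn_univ.1 hu.sm.continuousOn
  have hUo : IsOpen {y | u y < 1} := isOpen_lt hcu continuous_const
  set U : Set (Fin n → ℝ) := {y | u y < 1} with hU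
  have hg : Good U u := hu.mono hUo (Set.subset_univ _)
  let ζ : (Fin n → ℝ) → ℝ := fun y => (3 / 4 + 1 / (8 * n) * (y ⬝ᵥ y)) - u y
  have hζs : Sm Set.univ ζ := (contDiffOn_const.add (contDiffOn_const.mul sm_sq)).sub hu.sm
  have hζ : Sm U ζ := hζs.mono (Set.subset_univ _)
  have hζc : Continuous ζ := continuousOn_univ.1 hζs.continuousOn
  have hζle : ∀ y, u y ≤ 1 → ζ y ≤ 7 / 8 - u y := by
    intro y hy
    have := low_sq_le (h1 y hy)
    have h3 : 1 / (8 * n) * (y ⬝ᵥ y) ≤ 1 / (8 * n) * n := by gcongr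
    have h4 : 1 / (8 * n) * (n : ℝ) = 1 / 8 := by field_simp
    simp only [ζ]
    linarith
  have hS : IsCompact {y | u y ≤ 1} :=
    (isCompact_closedBall (0 : Fin n → ℝ) 1).of_isClosed_subset
      (isClosed_le hcu continuous_const) (fun y hy => by simpa using h1 y hy)
  have hK : IsCompact {x | x ∈ U ∧ 0 ≤ ζ x} := by
    have : {x | x ∈ U ∧ 0 ≤ ζ x} = {x | u x ≤ 7 / 8} ∩ {x | 0 ≤ ζ x} := by
      ext x
      constructor
      · rintro ⟨hx, hx'⟩
        have := hζle x (le_of_lt hx)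
        exact ⟨show u x ≤ 7 / 8 by linarith, hx'⟩
      · rintro ⟨hx, hx'⟩
        exact ⟨show u x < 1 by linarith [show u x ≤ 7 / 8 from hx], hx'⟩
    rw [this]
    exact hS.of_isClosed_subset
      ((isClosed_le hcu continuous_const).inter (isClosed_le continuous_const hζc))
      (fun x hx => show u x ≤ 1 by linarith [show u x ≤ 7 / 8 from hx.1])
  set K : Set (Fin n → ℝ) := {x | x ∈ U ∧ 0 ≤ ζ x} with hKd
  have hKU : K ⊆ U := fun x hx => hx.1
  have hθ : 0 < th n := by unfold th; positivity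
  have hlh : Sm U (lh u β 1) := hg.sm_lh fun x _ => (he x trivial).1
  let W : (Fin n → ℝ) → ℝ := fun y => Real.exp (-th n * lh u β 1 y)
  have hW0 : Sm U (fun y => -th n * lh u β 1 y) := contDiffOn_const.mul hlh
  have hW : Sm U W := hW0.exp
  have hLW : ∀ x ∈ U, Lop u W x = W x * ((n : ℝ) * ((n : ℝ) + 2) * β / (β * u x + 1)) := by
    intro x hx
    have e1 := he x trivial
    simp only [W]
    rw [Lop_exp hUo hW0 hx, Lop_const_mul hUo _ hlh hx, gr_const_mul _ (hlh.diff hUo hx),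
      ip_smul_left, ip_smul_right, e1.2]
    have := e1.1.ne'
    field_simp
    ring
  have hLζ : ∀ x ∈ U, Lop u ζ x = ((hess u x)⁻¹).trace / (4 * n) - n := by
    intro x hx
    simp only [ζ]
    rw [Lop_sub hUo (contDiffOn_const.add (contDiffOn_const.mul sm_sq)) hg.sm hx,
      Lop_add hUo contDiffOn_const (contDiffOn_const.mul sm_sq) hx, Lop_const,
      Lop_const_mul hUo _ sm_sq hx, Lop_sq, hg.Lop_self hx]
    field_simp
    ring
  have i1 := ibp_Lop hg hζ hK (G := fun _ => 1) contDiffOn_const hW 1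
  have i2 := ibp_Lop hg hζ hK hW hζ 0
  have hdet : Sm U (fun x => (hess u x).det) := hg.sm.det hUo
  have s1 : Sm U (fun x => (hess u x).det *
      (ζ x ^ (1 + 2) * (ip u x (gr (fun _ => (1 : ℝ)) x) (gr W x) + 1 * Lop u W x)
        + (((1 : ℕ) : ℝ) + 2) * ζ x ^ (1 + 1) * 1 * ip u x (gr ζ x) (gr W x))) :=
    hdet.mul (((hζ.pow _).mul ((hg.sm_ip contDiffOn_const hW).add
      (contDiffOn_const.mul (hg.sm_Lop hW)))).add
      (((contDiffOn_const.mul (hζ.pow _)).mul contDiffOn_const).mul (hg.sm_ip hζ hW)))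
  have s2 : Sm U (fun x => (hess u x).det *
      (ζ x ^ (0 + 2) * (ip u x (gr W x) (gr ζ x) + W x * Lop u ζ x)
        + (((0 : ℕ) : ℝ) + 2) * ζ x ^ (0 + 1) * W x * ip u x (gr ζ x) (gr ζ x))) :=
    hdet.mul (((hζ.pow _).mul ((hg.sm_ip hW hζ).add (hW.mul (hg.sm_Lop hζ)))).add
      (((contDiffOn_const.mul (hζ.pow _)).mul hW).mul (hg.sm_ip hζ hζ)))
  have j1 := s1.integrableOn hK hKU
  have j2 := s2.integrableOn hK hKU
  have j3 : IntegrableOn (fun x => ζ x ^ 2) K := Sm.integrableOn (hζ.pow 2) hK hKU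
  have hτ0 : ∀ x, 1 ≤ (hess u x).det * (((hess u x)⁻¹).trace / n) ^ n := by
    intro x
    have := amgm_trace hn (hu.pos x trivial) (PosDef.one (n := Fin n) (R := ℝ)).posSemidef
    simpa using this
  have hτ : ∀ x, 0 < ((hess u x)⁻¹).trace := by
    intro x
    refine lt_of_le_of_ne (hu.pos x trivial).inv.posSemidef.trace_nonneg fun h => ?_
    have := hτ0 x
    rw [← h, zero_div, zero_pow hn.ne', mul_zero] at this
    linarith
  let g : (Fin n → ℝ) → ℝ := fun y => Real.sqrt (hess u y).det * ((hess u y)⁻¹).trace ^ (-a)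
  have hgc : Continuous g :=
    (continuousOn_univ.1 (hu.sm.det isOpen_univ).continuousOn).sqrt.mul
      ((continuousOn_univ.1 hu.sm_trinv.continuousOn).rpow_const fun x => Or.inl (hτ x).ne')
  have hg0 : ∀ y, 0 ≤ g y := fun y =>
    mul_nonneg (Real.sqrt_nonneg _) (Real.rpow_nonneg (hτ y).le _)
  have hpt : ∀ x ∈ K, A * ζ x ^ 2 - B * (3 * ((hess u x).det *
      (ζ x ^ (0 + 2) * (ip u x (gr W x) (gr ζ x) + W x * Lop u ζ x)
        + (((0 : ℕ) : ℝ) + 2) * ζ x ^ (0 + 1) * W x * ip u x (gr ζ x) (gr ζ x)))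
      - (hess u x).det *
      (ζ x ^ (1 + 2) * (ip u x (gr (fun _ => (1 : ℝ)) x) (gr W x) + 1 * Lop u W x)
        + (((1 : ℕ) : ℝ) + 2) * ζ x ^ (1 + 1) * 1 * ip u x (gr ζ x) (gr W x))) ≤ g x := by
    intro x hx
    have hxU := hx.1
    have hD := hg.det_pos hxU
    have hu1 : u x < 1 := hxU
    have hρ := (he x trivial).1
    have hF : Real.exp (ld u x / (n + 2)) ^ (n + 2) = (hess u x).det := by
      rw [← Real.exp_nat_mul]
      push_cast
      rw [mul_div_cancel₀ _ (by positivity), ld, Real.exp_log hD]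
    have hDW : (hess u x).det * W x = Real.exp (ld u x / (n + 2)) / (β * u x + 1) ^ n := by
      have e1 : (β * u x + 1) ^ n = Real.exp (n * Real.log (β * u x + 1)) := by
        rw [Real.exp_nat_mul, Real.exp_log hρ]
      have e2 : (hess u x).det = Real.exp (ld u x) := by rw [ld, Real.exp_log hD]
      rw [e1, e2, ← Real.exp_sub]
      simp only [W]
      rw [← Real.exp_add]
      congr 1
      unfold lh
      have := hθ.ne'
      have e3 : th n = 1 - 1 / ((n : ℝ) + 2) := by unfold th; field_simp; ring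
      have e4 : -th n * (ld u x + n / th n * Real.log (β * u x + 1))
          = -th n * ld u x - n * Real.log (β * u x + 1) := by field_simp; ring
      rw [e4, e3]
      ring
    have := hAB (Real.exp (ld u x / (n + 2))) _ (β * u x + 1) (ζ x) β
      (ip u x (gr ζ x) (gr ζ x)) (Real.exp_pos _) (hτ x) (by rw [hF]; exact hτ0 x)
      (by nlinarith [h0 x]) (by nlinarith [h0 x]) hx.2
      (by linarith [hζle x hu1.le, h0 x]) hβ0 hβ1 (hg.ip_nonneg hxU)
    rw [hF, ← hDW] at this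
    refine le_trans (le_of_eq ?_) this
    rw [hLW x hxU, hLζ x hxU, gr_const, ip_zero_left, hg.ip_comm hxU (a := gr W x)]
    push_cast
    ring
  have hint := low_int j3 j2 j1 (hgc.continuousOn.integrableOn_compact hK) hK.measurableSet
    i2 i1 hpt
  have hball : Metric.closedBall ((2 / 3 : ℝ) • y1) (1 / (6 * (n : ℝ) ^ 2)) ⊆
      {x | x ∈ K ∧ 1 / 4 ≤ ζ x} := by
    intro x hx
    rw [Metric.mem_closedBall, dist_eq_norm] at hx
    have hz : u ((3 : ℝ) • (x - (2 / 3 : ℝ) • y1)) ≤ 1 := by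
      apply h2
      calc ∑ i, |((3 : ℝ) • (x - (2 / 3 : ℝ) • y1)) i|
          ≤ ∑ _i : Fin n, 3 * (1 / (6 * (n : ℝ) ^ 2)) := by
            refine Finset.sum_le_sum fun i _ => ?_
            rw [Pi.smul_apply, smul_eq_mul, abs_mul, abs_of_pos (by norm_num : (0 : ℝ) < 3)]
            have := (norm_le_pi_norm (x - (2 / 3 : ℝ) • y1) i).trans hx
            rw [Real.norm_eq_abs] at this
            linarith
        _ = 1 / (2 * n) := by
            rw [Finset.sum_const, Finset.card_univ, Fintype.card_fin, nsmul_eq_mul]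
            field_simp
            norm_num
    have hc := (hu.convexOn convex_univ).2 (Set.mem_univ y1)
      (Set.mem_univ ((3 : ℝ) • (x - (2 / 3 : ℝ) • y1))) (by norm_num : (0 : ℝ) ≤ 2 / 3)
      (by norm_num : (0 : ℝ) ≤ 1 / 3) (by norm_num)
    have e : (2 / 3 : ℝ) • y1 + (1 / 3 : ℝ) • (3 : ℝ) • (x - (2 / 3 : ℝ) • y1) = x := by
      rw [smul_smul]; norm_num
    rw [e, smul_eq_mul, smul_eq_mul] at hc
    have hx2 : 0 ≤ 1 / (8 * n) * (x ⬝ᵥ x) :=
      mul_nonneg (by positivity) (Finset.sum_nonneg fun i _ => mul_self_nonneg _)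
    have hζx : 1 / 4 ≤ ζ x := by simp only [ζ]; linarith
    exact ⟨⟨show u x < 1 by linarith, by linarith⟩, hζx⟩
  have hlow : (1 / 4) ^ 2 * (2 * (1 / (6 * (n : ℝ) ^ 2))) ^ n ≤ ∫ x in K, ζ x ^ 2 := by
    have hsub : Metric.closedBall ((2 / 3 : ℝ) • y1) (1 / (6 * (n : ℝ) ^ 2)) ⊆ K :=
      fun x hx => (hball hx).1
    refine le_trans ?_ (setIntegral_mono_set j3
      (Filter.Eventually.of_forall fun x => sq_nonneg _) hsub.eventuallyLE)
    have hv : (volume : Measure (Fin n → ℝ)).real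
        (Metric.closedBall ((2 / 3 : ℝ) • y1) (1 / (6 * (n : ℝ) ^ 2)))
        = (2 * (1 / (6 * (n : ℝ) ^ 2))) ^ n := by
      rw [Measure.real, Real.volume_pi_closedBall _ (by positivity),
        ENNReal.toReal_ofReal (by positivity), Fintype.card_fin]
    rw [← hv]
    exact setIntegral_ge_of_const_le_real measurableSet_closedBall
      (isCompact_closedBall _ _).measure_lt_top.ne
      (fun x hx => pow_le_pow_left₀ (by norm_num) (hball hx).2 2) (j3.mono_set hsub)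
  have hKS : K ⊆ {y | u y ≤ 1} := fun x hx => show u x ≤ 1 from le_of_lt (hKU hx)
  have hfin : ∫ x in K, g x ≤ ∫ x in {y | u y ≤ 1}, g x :=
    setIntegral_mono_set (hgc.continuousOn.integrableOn_compact hS)
      (Filter.Eventually.of_forall hg0) hKS.eventuallyLE
  have := mul_le_mul_of_nonneg_left hlow hA.le
  linarith

end Vale.Agent.P252
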