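import Vale.Agent.P252.B.EstA
import Vale.Agent.P252.B.Aff
import Vale.Agent.P252.B.Low

open Matrix MeasureTheory
open scoped ContDiff

namespace Vale.Agent.P252

variable {n : ℕ} {u : (Fin n → ℝ) → ℝ} {e t : Fin n → ℝ} {t₀ : ℝ}

theorem pre_univ (P : Fin n → ℝ) (V : Matrix (Fin n) (Fin n) ℝ) :
    pre P V Set.univ = Set.univ := by
  ext y; simp [pre]

theorem trace_inv_pos (hn : 0 < n) {M : Matrix (Fin n) (Fin n) ℝ} (hM : M.PosDef) :
    0 < (M⁻¹).trace := by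
  have : Nonempty (Fin n) := ⟨⟨0, hn⟩⟩
  exact Finset.sum_pos (fun i _ => hM.inv.diag_pos) Finset.univ_nonempty

/-- Lower bound for `u_ee` in terms of the normalised inverse Hessian. -/
theorem q2_lower (hn : 0 < n) (h : Good Set.univ u) (hte : t ⬝ᵥ e = 1) {P : Fin n → ℝ}
    {V : Matrix (Fin n) (Fin n) ℝ} (hV : V.det ≠ 0) {H b B : ℝ} (hH : 0 < H)
    (hB : ∀ i, |(Vᵀ *ᵥ t) i| ≤ B * H) (y : Fin n → ℝ) :
    1 ≤ ((hess (tr u P V H⁻¹ 0 b) y)⁻¹).trace * (n * B ^ 2 * H) * q2 u e (P + V *ᵥ y) := by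
  have hg : Good Set.univ (tr u P V H⁻¹ 0 b) := by
    simpa only [pre_univ] using h.tr (P := P) (a := 0) (b := b) hV (inv_pos.2 hH)
  have hVu : IsUnit V.det := isUnit_iff_ne_zero.2 hV
  have hVe : V *ᵥ (V⁻¹ *ᵥ e) = e := by rw [mulVec_mulVec, mul_nonsing_inv _ hVu, one_mulVec]
  have h1 := cs_ip (hg.pos y trivial) (Vᵀ *ᵥ t) (V⁻¹ *ᵥ e)
  have h2 : (Vᵀ *ᵥ t) ⬝ᵥ (V⁻¹ *ᵥ e) = 1 := by
    rw [mulVec_transpose, ← dotProduct_mulVec, hVe, hte]
  have h3 := quad_le_trace (hg.pos y trivial).inv.posSemidef (Vᵀ *ᵥ t)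
  have h4 := q2_tr (P := P) (V := V) (c := H⁻¹) (a := 0) (b := b) (y := y) h.op h.sm trivial
    (V⁻¹ *ᵥ e)
  rw [hVe, q2] at h4
  have h5 : (Vᵀ *ᵥ t) ⬝ᵥ (Vᵀ *ᵥ t) ≤ n * (B * H) ^ 2 := by
    have : ∑ i, (Vᵀ *ᵥ t) i * (Vᵀ *ᵥ t) i ≤ ∑ _i : Fin n, (B * H) ^ 2 :=
      Finset.sum_le_sum fun i _ => by
        rw [← pow_two, ← sq_abs]; exact pow_le_pow_left₀ (abs_nonneg _) (hB i) 2
    simpa [dotProduct] using this
  have he : e ≠ 0 := by rintro rfl; simp at hte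
  have hq := h.q2_pos (x := P + V *ᵥ y) trivial he
  have ht := trace_inv_pos hn (hg.pos y trivial)
  rw [h2, h4, one_pow] at h1
  calc (1 : ℝ) ≤ _ := h1
    _ ≤ ((hess (tr u P V H⁻¹ 0 b) y)⁻¹).trace * (n * (B * H) ^ 2)
        * (H⁻¹ * q2 u e (P + V *ᵥ y)) := by
        refine mul_le_mul_of_nonneg_right (h3.trans ?_) (by positivity)
        exact mul_le_mul_of_nonneg_left h5 ht.le
    _ = _ := by field_simp

theorem low_alg {d d' v H z X T w B c₁ p μ : ℝ} {n k : ℕ} (hH : 0 < H) (hp : 0 ≤ p)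
    (hd' : d' = H⁻¹ ^ n * v ^ 2 * d) (hz : 1 / 2 ≤ z) (hT : 0 < T) (hB : 0 < B)
    (hX : 1 ≤ T * (B * H) * X) (hc₁ : 0 ≤ c₁) (hw : c₁ * (2 * H) ^ (-μ) ≤ w) :
    (1 / 2) ^ k * c₁ * 2 ^ (-μ) * B ^ (-(p + 1)) * H ^ (-(μ + p + 1 - n / 2))
      * (√d' * T ^ (-(p + 1))) ≤ |v| * (√d * X ^ p * w * z ^ k * X) := by
  have hTB : 0 < T * (B * H) := by positivity
  have hX1 : (T * (B * H))⁻¹ ≤ X := by
    rw [inv_le_iff_one_le_mul₀' hTB]; exact hX
  have hX0 : 0 < X := (inv_pos.2 hTB).trans_le hX1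
  have h1 : (T * (B * H)) ^ (-(p + 1)) ≤ X ^ p * X := by
    rw [← Real.rpow_add_one hX0.ne', Real.rpow_neg hTB.le, ← Real.inv_rpow hTB.le]
    exact Real.rpow_le_rpow (by positivity) hX1 (by linarith)
  have h2 : √d' = H ^ (-((n : ℝ) / 2)) * (|v| * √d) := by
    rw [hd', Real.sqrt_mul (by positivity), Real.sqrt_mul (by positivity), Real.sqrt_sq_eq_abs,
      Real.sqrt_eq_rpow, inv_pow, ← Real.rpow_natCast, ← Real.rpow_neg hH.le,
      ← Real.rpow_mul hH.le, mul_assoc]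
    congr 2; ring
  have h3 : (1 / 2 : ℝ) ^ k ≤ z ^ k := pow_le_pow_left₀ (by norm_num) hz k
  have h4 : H ^ (-(μ + p + 1 - n / 2)) * H ^ (-((n : ℝ) / 2)) = H ^ (-μ) * H ^ (-(p + 1)) := by
    rw [← Real.rpow_add hH, ← Real.rpow_add hH]; congr 1; ring
  have hw0 : 0 ≤ c₁ * (2 * H) ^ (-μ) := by positivity
  calc _ = |v| * (√d * (c₁ * (2 ^ (-μ) * H ^ (-μ))) * (1 / 2) ^ k
        * (T ^ (-(p + 1)) * (B ^ (-(p + 1)) * H ^ (-(p + 1))))) := by
        rw [h2]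
        linear_combination (1 / 2) ^ k * c₁ * 2 ^ (-μ) * B ^ (-(p + 1)) * |v| * √d
          * T ^ (-(p + 1)) * h4
    _ = |v| * (√d * (c₁ * (2 * H) ^ (-μ)) * (1 / 2) ^ k * (T * (B * H)) ^ (-(p + 1))) := by
        rw [Real.mul_rpow hT.le (by positivity), Real.mul_rpow hB.le hH.le,
          Real.mul_rpow two_pos.le hH.le]
    _ ≤ |v| * (√d * w * z ^ k * (X ^ p * X)) := by
        have := hw0.trans hw
        have : 0 ≤ z ^ k := le_trans (by positivity) h3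
        gcongr
    _ = _ := by ring

theorem hat_main (hn : 2 ≤ n) {P : Par} (hc : Cert n P) :
    ∃ c C : ℝ, 0 < c ∧ ∀ (u : (Fin n → ℝ) → ℝ) (e t : Fin n → ℝ) (t₀ : ℝ), Hat u e t t₀ →
      ∀ H : ℝ, 0 < H → H ≤ 1 / 2 → (∃ y, u y - 1 ≤ H / 4) →
        c * H ^ (-(P.μ + P.p + 1 - n / 2)) ≤ C := by
  obtain ⟨m, C, hA⟩ := estA hn hc
  have hn0 : 0 < n := by omega
  have h2 : (2 : ℝ) ≤ n := by exact_mod_cast hn
  have hp := hc.p_nonneg
  obtain ⟨cl, hcl, hlow⟩ := low_bound hn0 (a := P.p + 1) (by linarith)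
  obtain ⟨η, hη⟩ : ∃ η, η = 4 * (n : ℝ) ^ 2 := ⟨_, rfl⟩
  have hη1 : 1 ≤ η := by rw [hη]; nlinarith
  obtain ⟨κ, hκ⟩ : ∃ κ, κ = P.k0 / (4 * (n : ℝ) ^ 2) := ⟨_, rfl⟩
  have hκ0 : 0 < κ := by have := hc.k0_pos; rw [hκ]; positivity
  rw [← hκ] at hA
  obtain ⟨B, hB⟩ : ∃ B, B = n * (1 + η) ^ 2 * (1 + 2 * (n : ℝ) ^ 2) ^ 2 := ⟨_, rfl⟩
  have hB0 : 0 < B := by rw [hB]; positivity
  obtain ⟨c₂, hc₂⟩ : ∃ c₂, c₂ = (1 / 2) ^ (m + 3) * (η + κ) ^ (-(P.μ / P.a)) * 2 ^ (-P.μ)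
    * B ^ (-(P.p + 1)) := ⟨_, rfl⟩
  have hc₂0 : 0 < c₂ := by rw [hc₂]; positivity
  refine ⟨c₂ * cl, C, by positivity, fun u e t t₀ h H hH hH2 ⟨y₀, hy₀⟩ => ?_⟩
  have hcont : Continuous u := continuousOn_univ.1 h.good.sm.continuousOn
  have hSt : sub Set.univ u (1 + H) ⊆ top u := fun x hx =>
    ⟨trivial, by have := hx.2; unfold zt; linarith⟩
  have hK : IsCompact (top u) := h.cpt'
  have hS : IsCompact (sub Set.univ u (1 + H)) := by
    refine hK.of_isClosed_subset ?_ hSt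
    simp only [sub, Set.mem_univ, true_and]
    exact isClosed_le hcont continuous_const
  have hint : (interior (sub Set.univ u (1 + H))).Nonempty := by
    refine ⟨y₀, mem_interior.2 ⟨{x | u x < 1 + H}, fun x hx => ⟨trivial, le_of_lt hx⟩,
      isOpen_lt hcont continuous_const, ?_⟩⟩
    show u y₀ < 1 + H
    linarith
  obtain ⟨V, Q, hV, hV1, hV2, hV3⟩ := exists_center hn0 hS (h.good.convex_sub convex_univ _) hint
  have hVu : IsUnit V.det := isUnit_iff_ne_zero.2 hV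
  obtain ⟨w, hw⟩ : ∃ w, w = tr u Q V H⁻¹ 0 (-H⁻¹) := ⟨_, rfl⟩
  have hwy : ∀ y, w y = H⁻¹ * (u (Q + V *ᵥ y) - 1) := by
    intro y; rw [hw, tr]; simp; ring
  have hw1 : ∀ y, w y ≤ 1 ↔ Q + V *ᵥ y ∈ sub Set.univ u (1 + H) := by
    intro y
    rw [hwy, inv_mul_le_iff₀ hH]
    simp only [sub, Set.mem_univ, true_and, Set.mem_ofPred_eq]
    constructor <;> intro <;> linarith
  have hg : Good Set.univ w := by
    simpa only [pre_univ, ← hw] using
      h.good.tr (P := Q) (a := 0) (b := -H⁻¹) hV (inv_pos.2 hH)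
  have he : Eqn Set.univ w H 1 := by
    have := Eqn.tr (P := Q) (b := -H⁻¹) h.good h.eqn hV (inv_pos.2 hH)
    rw [pre_univ, ← hw] at this
    convert this using 1
    · simp
    · field_simp; simp
  have hQ : Q ∈ sub Set.univ u (1 + H) := by
    simpa using hV3 0 (by simp)
  have hl := hlow w H hg hH.le (by linarith) he
    (fun y => by rw [hwy]; have := h.one_le (Q + V *ᵥ y); positivity)
    (fun y hy => by
      have := hV1 _ ((hw1 y).1 hy) _ hQ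
      rwa [add_sub_cancel_left, mulVec_mulVec, nonsing_inv_mul _ hVu, one_mulVec] at this)
    (fun z hz => (hw1 z).2 (hV3 z hz))
    ⟨V⁻¹ *ᵥ (y₀ - Q), by
      rw [hwy, mulVec_mulVec, mul_nonsing_inv _ hVu, one_mulVec, add_sub_cancel,
        inv_mul_le_iff₀ hH]
      linarith⟩
  have hpre : pre Q V (sub Set.univ u (1 + H)) = {y | w y ≤ 1} := by
    ext y; exact (hw1 y).symm
  have hcp : IsCompact {y | w y ≤ 1} := hpre ▸ isCompact_pre hV hS
  obtain ⟨f, hf⟩ : ∃ f : (Fin n → ℝ) → ℝ, f = fun x => (hess u x).det * zt u x ^ (m + 3)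
    * psiA P κ H u e t t₀ x * (q2 u e x / xi u e x ^ 2) := ⟨_, rfl⟩
  have hfs : Sm Set.univ f := by
    rw [hf]
    exact (((h.good.sm.det h.good.op).mul (h.sm_zt.pow _)).mul (h.sm_psiA hκ0 hH)).mul
      ((h.good.sm.q2 isOpen_univ e).div (h.sm_xi'.pow _) fun x _ => (pow_pos (h.xi_pos' x) 2).ne')
  have a1 : ∫ x in top u, f x ≤ C := by rw [hf]; exact hA u e t t₀ h H hH
  have a2 : ∫ x in sub Set.univ u (1 + H), f x ≤ ∫ x in top u, f x := by
    refine setIntegral_mono_set (hfs.integrableOn hK (Set.subset_univ _)) ?_ hSt.eventuallyLE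
    refine (ae_restrict_iff' hK.measurableSet).2 (Filter.Eventually.of_forall fun x hx => ?_)
    have b1 := h.good.det_pos (Set.mem_univ x)
    have b2 : 0 ≤ zt u x := hx.2
    have b3 := psiA_pos (u := u) (e := e) (x := x) (P := P) (κ := κ) (H := H) (t₀ := t₀) (t := t)
    have b4 := h.good.q2_pos (Set.mem_univ x) h.e_ne
    rw [hf]
    show 0 ≤ _ * _ * _ * _
    positivity
  have hVt : ∀ i, |(Vᵀ *ᵥ t) i| ≤ (1 + η) * H := by
    intro i
    obtain ⟨x, hx, y, hy, hxy⟩ := hV2 i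
    have b1 : (Vᵀ *ᵥ t) i = t ⬝ᵥ x - t ⬝ᵥ y := by
      rw [← dotProduct_sub, ← hxy, dotProduct_mulVec, mulVec_transpose]; simp
    have b2 := h.s_nonneg x
    have b3 := h.s_nonneg y
    have b4 := h.s_le x
    have b5 := h.s_le y
    have b6 := h.one_le x
    have b7 := h.one_le y
    have b8 : η * (u x - 1) ≤ η * H := by have := hx.2; gcongr; linarith
    have b9 : η * (u y - 1) ≤ η * H := by have := hy.2; gcongr; linarith
    rw [← hη] at b4 b5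
    have := hx.2
    have := hy.2
    rw [b1, abs_le]
    constructor <;> linarith
  have a3 : ∀ y ∈ {y | w y ≤ 1}, c₂ * H ^ (-(P.μ + P.p + 1 - n / 2))
      * (√(hess w y).det * ((hess w y)⁻¹).trace ^ (-(P.p + 1))) ≤ |V.det| * f (Q + V *ᵥ y) := by
    intro y hy
    have hx := ((hw1 y).1 hy).2
    obtain ⟨x, hxe⟩ : ∃ x, x = Q + V *ᵥ y := ⟨_, rfl⟩
    have b1 := q2_lower hn0 h.good h.te (P := Q) (b := -H⁻¹) hV hH hVt y
    have b2 := det_hess_tr (P := Q) (V := V) (c := H⁻¹) (a := 0) (b := -H⁻¹) (y := y)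
      h.good.op h.good.sm trivial
    rw [← hw, ← hxe] at b1 b2
    rw [← hxe] at hx ⊢
    have hT := trace_inv_pos hn0 (hg.pos y trivial)
    have hξ := h.xi_pos' x
    have hξ2 : xi u e x ≤ 1 + 2 * (n : ℝ) ^ 2 := h.xi_le x
    have hq := h.good.q2_pos (Set.mem_univ x) h.e_ne
    have b3 : 1 ≤ ((hess w y)⁻¹).trace * (B * H) * (q2 u e x / xi u e x ^ 2) := by
      refine b1.trans ?_
      have : q2 u e x ≤ (1 + 2 * (n : ℝ) ^ 2) ^ 2 * (q2 u e x / xi u e x ^ 2) := by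
        rw [← mul_div_assoc, le_div_iff₀ (by positivity), mul_comm]
        gcongr
      calc _ ≤ ((hess w y)⁻¹).trace * (n * (1 + η) ^ 2 * H)
          * ((1 + 2 * (n : ℝ) ^ 2) ^ 2 * (q2 u e x / xi u e x ^ 2)) := by gcongr
        _ = _ := by rw [hB]; ring
    have b4 := wt_ge (κ := κ) (H := 2 * H) hc.μ_nonneg hc.a_pos hc.a_le hκ0 hη1 (h.es_pos hH x)
      (h.el_pos hH x) (hη ▸ h.es_le hn hH x) (by unfold el; linarith)
    have b5 := low_alg (k := m + 3) (z := zt u x) hH hp b2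
      (by unfold zt; linarith) hT hB0 b3 (by positivity) b4
    rw [← h.det_psiB] at b5
    rw [hc₂, hf]
    refine b5.trans_eq ?_
    simp only [psiA]
    ring
  have i1 : IntegrableOn (fun y => √(hess w y).det * ((hess w y)⁻¹).trace ^ (-(P.p + 1)))
      {y | w y ≤ 1} := by
    refine ContinuousOn.integrableOn_compact hcp (ContinuousOn.mono ?_ (Set.subset_univ _))
    exact (hg.sm.det hg.op).continuousOn.sqrt.mul (hg.sm_trinv.continuousOn.rpow_const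
      fun y _ => Or.inl (trace_inv_pos hn0 (hg.pos y trivial)).ne')
  have i2 : IntegrableOn (fun y => f (Q + V *ᵥ y)) {y | w y ≤ 1} :=
    (hfs.comp_aff (P := Q) (V := V)).integrableOn hcp fun _ _ => trivial
  have a4 := setIntegral_mono_on (i1.const_mul _) (i2.const_mul _) hcp.measurableSet a3
  rw [integral_const_mul, integral_const_mul, ← hpre, ← setIntegral_pre hV hS.measurableSet,
    hpre] at a4
  have a5 := mul_le_mul_of_nonneg_left hl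
    (by positivity : 0 ≤ c₂ * H ^ (-(P.μ + P.p + 1 - n / 2)))
  linarith

/-- The key estimate in the projective normalisation. -/
theorem hat_claim (hn : 2 ≤ n) {P : Par} (hc : Cert n P) :
    ∃ δ : ℝ, 0 < δ ∧ ∀ (u : (Fin n → ℝ) → ℝ) (e t : Fin n → ℝ) (t₀ : ℝ), Hat u e t t₀ →
      ∀ y, δ ≤ u y - 1 := by
  obtain ⟨c, C, hc0, hm⟩ := hat_main hn hc
  obtain ⟨γ, hγ⟩ : ∃ γ, γ = P.μ + P.p + 1 - (n : ℝ) / 2 := ⟨_, rfl⟩
  have hγ0 : 0 < γ := by have := hc.big; rw [hγ]; linarith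
  rw [← hγ] at hm
  have hr : 0 < c / (|C| + 1) := by positivity
  obtain ⟨H, hH⟩ : ∃ H, H = min (1 / 2) ((c / (|C| + 1)) ^ γ⁻¹) := ⟨_, rfl⟩
  have hH0 : 0 < H := by rw [hH]; positivity
  refine ⟨H / 4, by positivity, fun u e t t₀ h y => ?_⟩
  by_contra hy
  have h1 := hm u e t t₀ h H hH0 (hH ▸ min_le_left _ _) ⟨y, (not_le.1 hy).le⟩
  have h2 : H ^ γ ≤ c / (|C| + 1) := by
    rw [← Real.rpow_inv_rpow hr.le hγ0.ne']
    exact Real.rpow_le_rpow hH0.le (hH ▸ min_le_right _ _) hγ0.le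
  have h3 := Real.rpow_pos_of_pos hH0 γ
  rw [Real.rpow_neg hH0.le, ← div_eq_mul_inv, div_le_iff₀ h3] at h1
  rw [le_div_iff₀ (by positivity)] at h2
  nlinarith [le_abs_self C]

end Vale.Agent.P252
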