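import Vale.Agent.P252.B.Calc

open Matrix MeasureTheory
open scoped ContDiff

namespace Vale.Agent.P252

variable {n : ℕ} {U : Set (Fin n → ℝ)} {u ζ F G : (Fin n → ℝ) → ℝ} {e : Fin n → ℝ}

theorem Sm.integrableOn {K : Set (Fin n → ℝ)} (hF : Sm U F) (hK : IsCompact K) (hKU : K ⊆ U) :
    IntegrableOn F K :=
  (hF.continuousOn.mono hKU).integrableOn_compact hK

theorem ibp_hasDerivAt_max (k : ℕ) {t : ℝ} (ht : 0 ≤ t) :
    HasDerivAt (fun s : ℝ => max s 0 ^ (k + 2)) (((k : ℝ) + 2) * t ^ (k + 1)) t := by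
  rcases ht.eq_or_lt with rfl | ht
  · rw [hasDerivAt_iff_isLittleO_nhds_zero]
    refine Asymptotics.IsBigO.trans_isLittleO (Asymptotics.isBigO_of_le _ fun s => ?_)
      (Asymptotics.isLittleO_pow_id (𝕜 := ℝ) (n := k + 2) (by omega))
    simp only [zero_add, max_self, ne_eq, Nat.add_eq_zero_iff, and_false, not_false_eq_true,
      zero_pow, sub_zero, one_ne_zero, mul_zero, smul_zero, norm_pow, Real.norm_eq_abs,
      OfNat.ofNat_ne_zero]
    refine pow_le_pow_left₀ (abs_nonneg _) ?_ _
    rw [abs_of_nonneg (le_max_right _ _)]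
    exact max_le (le_abs_self _) (abs_nonneg _)
  · have h := hasDerivAt_pow (k + 2) t
    push_cast at h
    refine h.congr_of_eventuallyEq ?_
    filter_upwards [lt_mem_nhds ht] with s hs
    rw [max_eq_left hs.le]

/-- Integration by parts in one direction against a power of a cut-off. -/
theorem ibp_dir (hU : IsOpen U) (hζ : Sm U ζ) (hK : IsCompact {x | x ∈ U ∧ 0 ≤ ζ x})
    (hG : Sm U G) (k : ℕ) (e : Fin n → ℝ) :
    ∫ x in {x | x ∈ U ∧ 0 ≤ ζ x},
      (ζ x ^ (k + 2) * dd e G x + ((k : ℝ) + 2) * ζ x ^ (k + 1) * G x * dd e ζ x) = 0 := by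
  set K := {x | x ∈ U ∧ 0 ≤ ζ x} with hKd
  have hKU : K ⊆ U := fun _ hx => hx.1
  have hKm := hK.isClosed.measurableSet
  have i1 : Integrable (K.indicator fun x => ζ x ^ (k + 2) * G x) :=
    (integrable_indicator_iff hKm).2 (Sm.integrableOn ((hζ.pow _).mul hG) hK hKU)
  have i2 : Integrable (K.indicator fun x =>
      ζ x ^ (k + 2) * dd e G x + ((k : ℝ) + 2) * ζ x ^ (k + 1) * G x * dd e ζ x) :=
    (integrable_indicator_iff hKm).2 (Sm.integrableOn (((hζ.pow _).mul (hG.dd hU e)).add
      (((contDiffOn_const.mul (hζ.pow _)).mul hG).mul (hζ.dd hU e))) hK hKU)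
  have key := integral_bilinear_hasLineDerivAt_right_eq_neg_left_of_integrable (μ := volume)
    (f := fun _ : Fin n → ℝ => (1 : ℝ)) (f' := fun _ => 0) (v := e)
    (B := ContinuousLinearMap.mul ℝ ℝ) (by simp) (by simpa using i2) (by simpa using i1)
    (fun x _ => (hasFDerivAt_const (1 : ℝ) x).hasLineDerivAt e) fun x _ => by
      by_cases hx : x ∈ K
      · have h1 := (((ibp_hasDerivAt_max k hx.2).comp_hasFDerivAt x
          (hζ.diff hU hx.1).hasFDerivAt).mul (hG.diff hU hx.1).hasFDerivAt)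
        have h2 : (K.indicator fun x => ζ x ^ (k + 2) * G x) =ᶠ[nhds x]
            ((fun s : ℝ => max s 0 ^ (k + 2)) ∘ ζ) * G := by
          filter_upwards [hU.mem_nhds hx.1] with y hy
          by_cases h : 0 ≤ ζ y
          · simp [Set.indicator_of_mem (show y ∈ K from ⟨hy, h⟩), max_eq_left h]
          · simp [Set.indicator_of_notMem (show y ∉ K from fun h' => h h'.2),
              max_eq_right (not_le.1 h).le]
        have h3 := (h1.congr_of_eventuallyEq h2).hasLineDerivAt e
        rw [Set.indicator_of_mem hx, dd_eq_fderiv, dd_eq_fderiv]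
        refine h3.congr_deriv ?_
        simp [max_eq_left hx.2]
        ring
      · have h2 : (K.indicator fun x => ζ x ^ (k + 2) * G x) =ᶠ[nhds x] fun _ => 0 := by
          filter_upwards [hK.isClosed.isOpen_compl.mem_nhds hx] with y hy
          exact Set.indicator_of_notMem hy _
        rw [Set.indicator_of_notMem hx]
        exact ((hasFDerivAt_const (0 : ℝ) x).congr_of_eventuallyEq h2).hasLineDerivAt e
  simpa [integral_indicator hKm] using key

/-- Integration by parts for the linearised operator against a power of a cut-off. -/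
theorem ibp_Lop (h : Good U u) (hζ : Sm U ζ) (hK : IsCompact {x | x ∈ U ∧ 0 ≤ ζ x})
    (hG : Sm U G) (hF : Sm U F) (k : ℕ) :
    ∫ x in {x | x ∈ U ∧ 0 ≤ ζ x}, (hess u x).det *
      (ζ x ^ (k + 2) * (ip u x (gr G x) (gr F x) + G x * Lop u F x)
        + ((k : ℝ) + 2) * ζ x ^ (k + 1) * G x * ip u x (gr ζ x) (gr F x)) = 0 := by
  let W : Fin n → (Fin n → ℝ) → ℝ := fun i y =>
    ∑ j, (hess u y).det * (hess u y)⁻¹ i j * pd j F y
  have s1 := fun i j => (h.sm.det h.op).mul (h.sm_inv i j)
  have sW : ∀ i, Sm U (W i) := fun i => ContDiffOn.sum fun j _ => (s1 i j).mul (hF.pd h.op j)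
  have hsum := Finset.sum_eq_zero fun i (_ : i ∈ Finset.univ) =>
    ibp_dir h.op hζ hK (hG.mul (sW i)) k (Pi.single i 1)
  rw [← integral_finsetSum _ fun i _ => Sm.integrableOn
    (((hζ.pow _).mul (Sm.dd h.op (hG.mul (sW i)) _)).add
      (((contDiffOn_const.mul (hζ.pow _)).mul (hG.mul (sW i))).mul (hζ.dd h.op _))) hK
      fun _ hx => hx.1] at hsum
  refine Eq.trans (setIntegral_congr_fun hK.isClosed.measurableSet fun x hx => ?_) hsum
  have hip : ∀ f : (Fin n → ℝ) → ℝ,
      ∑ i, W i x * pd i f x = (hess u x).det * ip u x (gr f x) (gr F x) := by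
    intro f
    simp only [W, ip, dotProduct, mulVec, gr, Finset.mul_sum, Finset.sum_mul]
    exact Finset.sum_congr rfl fun i _ => Finset.sum_congr rfl fun j _ => by ring
  have hL : ∑ i, pd i (W i) x = (hess u x).det * Lop u F x := by
    have e1 : ∀ i, pd i (W i) x = ∑ j, ((hess u x).det * (hess u x)⁻¹ i j * pd i (pd j F) x +
        pd j F x * pd i (fun y => (hess u y).det * (hess u y)⁻¹ i j) x) := by
      intro i
      have d1 := fun j => Sm.diff h.op (s1 i j) hx.1
      have d2 := fun j => (hF.pd h.op j).diff h.op hx.1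
      rw [← dd_single, dd_sum _ fun j _ => (d1 j).fun_mul (d2 j)]
      simp only [dd_mul (d1 _) (d2 _), dd_single]
    simp only [e1, Finset.sum_add_distrib]
    rw [Finset.sum_comm (f := fun i j => pd j F x * _)]
    simp only [← Finset.mul_sum, h.div_free hx.1, mul_zero, Finset.sum_const_zero, add_zero]
    simp only [Lop, Matrix.trace, Matrix.diag, Matrix.mul_apply, Finset.mul_sum]
    exact Finset.sum_congr rfl fun i _ => Finset.sum_congr rfl fun j _ => by
      rw [pd_comm h.op hF hx.1 i j, mul_assoc]; rfl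
  have e2 : ∀ i, ζ x ^ (k + 2) * dd (Pi.single i 1) (fun y => G y * W i y) x +
      ((k : ℝ) + 2) * ζ x ^ (k + 1) * (G x * W i x) * dd (Pi.single i 1) ζ x =
      ζ x ^ (k + 2) * G x * pd i (W i) x + ζ x ^ (k + 2) * (W i x * pd i G x) +
        ((k : ℝ) + 2) * ζ x ^ (k + 1) * G x * (W i x * pd i ζ x) := by
    intro i
    rw [dd_mul (hG.diff h.op hx.1) ((sW i).diff h.op hx.1), dd_single, dd_single, dd_single]
    ring
  simp only [e2, Finset.sum_add_distrib, ← Finset.mul_sum, hip, hL]
  ring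

end Vale.Agent.P252
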