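import Vale.Agent.P252.B.Proj
import Vale.Agent.P252.B.Aff

open Matrix MeasureTheory
open scoped ContDiff

namespace Vale.Agent.P252

theorem sc_single_sum {n : ℕ} (i : Fin n) {c : ℝ} (hc : |c| = 1 / (2 * n)) :
    ∑ j, |(Pi.single i c : Fin n → ℝ) j| ≤ 1 / (2 * n) := by
  rw [Finset.sum_eq_single i (fun j _ hj => by simp [Pi.single_eq_of_ne hj]) (by simp)]
  simp [hc]

theorem sc_abs_le {n : ℕ} (hn : 0 < n) {p : Fin n → ℝ} {c : ℝ}
    (h : ∀ z : Fin n → ℝ, ∑ i, |z i| ≤ 1 / (2 * n) → p ⬝ᵥ z ≤ c) (i : Fin n) :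
    |p i| ≤ 2 * n * c := by
  have hn0 : (0 : ℝ) < n := by exact_mod_cast hn
  have h1 := h _ (sc_single_sum i (c := 1 / (2 * n)) (abs_of_pos (by positivity)))
  have h2 := h _ (sc_single_sum i (c := -(1 / (2 * n)))
    (by rw [abs_neg]; exact abs_of_pos (by positivity)))
  rw [dotProduct_single] at h1 h2
  have e : ∀ s : ℝ, s * (1 / (2 * n)) ≤ c → s ≤ 2 * n * c := by
    intro s hs
    rw [mul_one_div, div_le_iff₀ (by positivity)] at hs
    linarith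
  rw [abs_le]
  constructor
  · have := e (-p i) (by linarith)
    linarith
  · exact e _ h1

theorem sc_core {n : ℕ} (hn : 0 < n) {δ : ℝ}
    (hh : ∀ (w : (Fin n → ℝ) → ℝ) (e t : Fin n → ℝ) (t₀ : ℝ), Hat w e t t₀ → ∀ y, δ ≤ w y - 1)
    {Ω : Set (Fin n → ℝ)} {v : (Fin n → ℝ) → ℝ} (hv : Good Ω v) (hc : Convex ℝ Ω)
    (he : Eqn Ω v 0 1) (hK : IsCompact (sub Ω v 1)) (hsm : ∀ y ∈ Ω, v y ≤ 1 → ‖y‖ ≤ 1)
    (hbig : ∀ z : Fin n → ℝ, ∑ i, |z i| ≤ 1 / (2 * n) → z ∈ Ω ∧ v z ≤ 1)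
    {y1 e b : Fin n → ℝ} {d b0 : ℝ} (hy1 : y1 ∈ Ω) (heΩ : e ∈ Ω) (hvy : v y1 = d) (hd0 : 0 ≤ d)
    (hd1 : d < 1) (hve : v e = 1) (hey : ‖e - y1‖ ≤ 1)
    (hb1 : ∀ y ∈ Ω, b0 + b ⬝ᵥ y ≤ v y) (hb2 : ∀ y ∈ Ω, -v y ≤ b0 + b ⬝ᵥ y)
    (hbe : b0 + b ⬝ᵥ e = 1) (hby : b0 + b ⬝ᵥ y1 = -d) : δ ≤ (1 - d)⁻¹ - 1 := by
  have hn0 : (0 : ℝ) < n := by exact_mod_cast hn
  have hnn : ∀ y ∈ Ω, 0 ≤ v y := fun y hy => by linarith [hb1 y hy, hb2 y hy]
  have h0 := hbig 0 (by simp)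
  have hy1n := hsm y1 hy1 (by linarith)
  have hv0 : v 0 < 1 := by
    have hz := hbig ((-(1 / (2 * (n : ℝ) ^ 2))) • y1) (by
      calc ∑ i, |((-(1 / (2 * (n : ℝ) ^ 2))) • y1) i|
          ≤ ∑ _i : Fin n, 1 / (2 * (n : ℝ) ^ 2) := by
            refine Finset.sum_le_sum fun i _ => ?_
            rw [Pi.smul_apply, smul_eq_mul, abs_mul, abs_neg, abs_of_pos (by positivity)]
            have := (norm_le_pi_norm y1 i).trans hy1n
            rw [Real.norm_eq_abs] at this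
            exact mul_le_of_le_one_right (by positivity) this
        _ = 1 / (2 * n) := by
            rw [Finset.sum_const, Finset.card_univ, Fintype.card_fin, nsmul_eq_mul]
            field_simp)
    have hs0 : (0 : ℝ) < 1 / (2 * (n : ℝ) ^ 2 + 1) := by positivity
    have hcv := (hv.convexOn hc).2 hy1 hz.1 hs0.le
      (show (0 : ℝ) ≤ 2 * (n : ℝ) ^ 2 / (2 * (n : ℝ) ^ 2 + 1) by positivity) (by field_simp; ring)
    have e0 : (1 / (2 * (n : ℝ) ^ 2 + 1)) • y1 + (2 * (n : ℝ) ^ 2 / (2 * (n : ℝ) ^ 2 + 1)) •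
        (-(1 / (2 * (n : ℝ) ^ 2))) • y1 = 0 := by
      rw [smul_smul, ← add_smul]
      convert zero_smul ℝ y1 using 2
      field_simp
      ring
    rw [e0, smul_eq_mul, smul_eq_mul, hvy] at hcv
    have e1 : 2 * (n : ℝ) ^ 2 / (2 * (n : ℝ) ^ 2 + 1) = 1 - 1 / (2 * (n : ℝ) ^ 2 + 1) := by
      field_simp
      ring
    have hs1 : 0 ≤ 1 - 1 / (2 * (n : ℝ) ^ 2 + 1) := by rw [← e1]; positivity
    rw [e1] at hcv
    nlinarith [mul_le_mul_of_nonneg_left hz.2 hs1, mul_lt_mul_of_pos_left hd1 hs0]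
  have hb0 : 1 ≤ 2 * (n : ℝ) ^ 2 * (1 - b0) := by
    have h1 := sc_abs_le hn (p := b) (c := 1 - b0)
      fun z hz => by linarith [hb1 z (hbig z hz).1, (hbig z hz).2]
    calc (1 : ℝ) ≤ b ⬝ᵥ (e - y1) := by rw [dotProduct_sub]; linarith
      _ = ∑ i, b i * (e - y1) i := rfl
      _ ≤ ∑ _i : Fin n, 2 * n * (1 - b0) := by
          refine Finset.sum_le_sum fun i _ => (le_abs_self _).trans ?_
          have := (norm_le_pi_norm (e - y1) i).trans hey
          rw [Real.norm_eq_abs] at this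
          rw [abs_mul]
          exact (mul_le_of_le_one_right (abs_nonneg _) this).trans (h1 i)
      _ = _ := by
          rw [Finset.sum_const, Finset.card_univ, Fintype.card_fin, nsmul_eq_mul]
          ring
  have hb0' : 0 < 1 - b0 := by
    by_contra hlt
    have : 2 * (n : ℝ) ^ 2 * (1 - b0) ≤ 0 :=
      mul_nonpos_of_nonneg_of_nonpos (by positivity) (not_lt.1 hlt)
    linarith
  obtain ⟨w, hw, hwe, hw1, hw2⟩ := exists_proj hv hc he hK h0.1 hv0 hnn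
  have hs : ∀ y, ∃ x ∈ Ω, v x < 1 ∧ w y = (1 - v x)⁻¹ ∧
      (1 - b0) * (w y - 1 - (((1 - b0)⁻¹ • b) ⬝ᵥ y + b0 / (1 - b0)))
        = (1 - v x)⁻¹ * (v x - (b0 + b ⬝ᵥ x)) := by
    intro y
    obtain ⟨x, hx, h1, h2, h3, -⟩ := hw1 y
    refine ⟨x, hx, h1, h2, ?_⟩
    have h4 : b ⬝ᵥ y = (1 - v x)⁻¹ * (b ⬝ᵥ x) := by
      conv_lhs => rw [h3, h2]
      rw [dotProduct_smul, smul_eq_mul]
    have h5 : 1 - v x ≠ 0 := by linarith
    rw [smul_dotProduct, smul_eq_mul, h4, h2]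
    field_simp
    ring
  have hat : Hat w e ((1 - b0)⁻¹ • b) (b0 / (1 - b0)) := by
    refine ⟨hw, hwe, fun y => ?_, fun y => ?_, fun y => ?_, hsm e heΩ hve.le, fun y => ?_, ?_,
      fun y => ?_, fun y => ?_⟩
    · obtain ⟨x, hx, h1, h2, -⟩ := hw1 y
      rw [h2]
      exact (one_le_inv₀ (by linarith)).2 (by linarith [hnn x hx])
    · obtain ⟨x, hx, h1, h2, h3, -⟩ := hw1 y
      have h4 : 0 ≤ w y := by rw [h2]; exact inv_nonneg.2 (by linarith)
      conv_lhs => rw [h3]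
      rw [norm_smul, Real.norm_of_nonneg h4]
      exact mul_le_of_le_one_right h4 (hsm x hx h1.le)
    · obtain ⟨x, hx, h1, -, -, h4, h5⟩ := hw1 y
      have h6 := sc_abs_le hn (p := gr v x) (c := 1 - v x + x ⬝ᵥ gr v x) fun z hz => by
        have := hv.breg_nonneg hc (hbig z hz).1 hx
        unfold breg at this
        rw [dotProduct_sub, dotProduct_comm (gr v x) x] at this
        linarith [(hbig z hz).2]
      rw [h5, pi_norm_le_iff_of_nonneg (by positivity)]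
      intro i
      rw [Pi.smul_apply, smul_eq_mul, Real.norm_eq_abs, abs_mul, abs_of_pos (inv_pos.2 h4),
        inv_mul_le_iff₀ h4]
      linarith [h6 i]
    · obtain ⟨x, hx, h1, -, -, h4, h5⟩ := hw1 y
      have := hv.breg_nonneg hc heΩ hx
      unfold breg at this
      rw [dotProduct_sub, dotProduct_comm (gr v x) x, dotProduct_comm (gr v x) e, hve] at this
      rw [dd, h5, dotProduct_smul, smul_eq_mul, inv_mul_le_iff₀ h4]
      linarith
    · rw [smul_dotProduct, smul_eq_mul, show b ⬝ᵥ e = 1 - b0 by linarith,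
        inv_mul_cancel₀ hb0'.ne']
    · obtain ⟨x, hx, h1, -, h3⟩ := hs y
      refine le_of_mul_le_mul_left ?_ hb0'
      rw [h3, mul_zero]
      exact mul_nonneg (inv_nonneg.2 (by linarith)) (by linarith [hb1 x hx])
    · obtain ⟨x, hx, h1, h2, h3⟩ := hs y
      refine le_of_mul_le_mul_left ?_ hb0'
      rw [h3, h2]
      have h4 : 0 < 1 - v x := by linarith
      have h5 : (1 - v x)⁻¹ - 1 = (1 - v x)⁻¹ * v x := by field_simp; ring
      have h6 : 0 ≤ (1 - v x)⁻¹ * v x := mul_nonneg (inv_nonneg.2 h4.le) (hnn x hx)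
      rw [h5]
      calc (1 - v x)⁻¹ * (v x - (b0 + b ⬝ᵥ x)) ≤ (1 - v x)⁻¹ * (2 * v x) :=
            mul_le_mul_of_nonneg_left (by linarith [hb2 x hx]) (inv_nonneg.2 h4.le)
        _ = 2 * 1 * ((1 - v x)⁻¹ * v x) := by ring
        _ ≤ 2 * (2 * (n : ℝ) ^ 2 * (1 - b0)) * ((1 - v x)⁻¹ * v x) := by gcongr
        _ = _ := by ring
  have := hh _ _ _ _ hat ((1 - v y1)⁻¹ • y1)
  rwa [hw2 y1 hy1 (by linarith), hvy] at this

/-- Reduction of quasi-symmetry to the estimate in the projective normalisation. -/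
theorem qs_of_hat {n : ℕ} (hn : 0 < n) {δ : ℝ} (hδ : 0 < δ)
    (hh : ∀ (w : (Fin n → ℝ) → ℝ) (e t : Fin n → ℝ) (t₀ : ℝ), Hat w e t t₀ → ∀ y, δ ≤ w y - 1) :
    ∃ C₀ : ℝ, 1 ≤ C₀ ∧ ∀ (Ω : Set (Fin n → ℝ)) (u : (Fin n → ℝ) → ℝ), Sol Ω u → QS C₀ Ω u := by
  refine ⟨max 4 (2 / δ), le_trans (by norm_num) (le_max_left _ _), ?_⟩
  intro Ω u hS x2 hx2 x1 hx1
  have hu := hS.good
  have hself : ∀ z, breg u z z = 0 := fun z => by simp [breg]
  by_cases hxx : x2 = x1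
  · rw [hxx, hself, mul_zero]
  have hB := hu.breg_pos hS.conv hx2 hx1 hxx
  have hD := hu.breg_nonneg hS.conv hx1 hx2
  set B := breg u x2 x1 with hBd
  by_cases hd : B ≤ 4 * breg u x1 x2
  · exact hd.trans (mul_le_mul_of_nonneg_right (le_max_left _ _) hD)
  have hd4 : breg u x1 x2 / B < 1 / 4 := by
    rw [div_lt_iff₀ hB]
    linarith [not_le.1 hd]
  have hd0 : 0 ≤ breg u x1 x2 / B := div_nonneg hD hB.le
  let ub := tr u 0 1 (2 / B) (-(B⁻¹ • (gr u x1 + gr u x2)))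
    (B⁻¹ * (gr u x1 ⬝ᵥ x1 + gr u x2 ⬝ᵥ x2 - u x1 - u x2))
  have hub : ∀ z, ub z = (breg u z x2 + breg u z x1) / B := by
    intro z
    simp only [ub, tr, breg, zero_add, one_mulVec, neg_dotProduct, smul_dotProduct,
      add_dotProduct, dotProduct_sub, smul_eq_mul]
    field_simp
    ring
  have hpre : pre 0 1 Ω = Ω := by ext z; simp [pre]
  have h1det : (1 : Matrix (Fin n) (Fin n) ℝ).det ≠ 0 := by simp
  have h2B : 0 < 2 / B := by positivity
  have hg : Good Ω ub := hpre ▸ hu.tr h1det h2B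
  have heq : Eqn Ω ub 0 1 := hpre ▸ Eqn.tr_zero hu hS.eqn h1det h2B
  have hub1 : ub x1 = breg u x1 x2 / B := by rw [hub, hself, add_zero]
  have hub2 : ub x2 = 1 := by rw [hub, hself, zero_add, div_self hB.ne']
  have hK : IsCompact (sub Ω ub 1) := by
    have hC := hS.cpt x1 hx1 B
    have : sub Ω ub 1 = {x | x ∈ Ω ∧ breg u x x1 ≤ B} ∩ ub ⁻¹' Set.Iic 1 := by
      ext z
      constructor
      · rintro ⟨hz, hz1⟩
        refine ⟨⟨hz, ?_⟩, hz1⟩
        rw [hub, div_le_one hB] at hz1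
        linarith [hu.breg_nonneg hS.conv hz hx2]
      · rintro ⟨hz, hz1⟩
        exact ⟨hz.1, hz1⟩
    rw [this]
    exact hC.of_isClosed_subset
      ((hg.sm.continuousOn.mono fun z hz => hz.1).preimage_isClosed_of_isClosed hC.isClosed
        isClosed_Iic) Set.inter_subset_left
  have hint : (interior (sub Ω ub 1)).Nonempty := by
    refine ⟨x1, mem_interior.2 ⟨Ω ∩ ub ⁻¹' Set.Iio 1, fun z hz => ⟨hz.1, le_of_lt hz.2⟩,
      hg.sm.continuousOn.isOpen_inter_preimage hg.op isOpen_Iio, hx1, ?_⟩⟩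
    show ub x1 < 1
    linarith
  obtain ⟨V, P, hV, hV1, -, hV2⟩ := exists_center hn hK (hg.convex_sub hS.conv 1) hint
  have hP : P ∈ sub Ω ub 1 := by simpa using hV2 0 (by simp)
  have hinv : ∀ z, P + V *ᵥ (V⁻¹ *ᵥ (z - P)) = z := by
    intro z
    rw [mulVec_mulVec, Matrix.mul_nonsing_inv _ hV.isUnit, one_mulVec, add_sub_cancel]
  have hvv : ∀ y, tr ub P V 1 0 0 y = ub (P + V *ᵥ y) := fun y => by simp [tr]
  have hk1 : x1 ∈ sub Ω ub 1 := ⟨hx1, by linarith⟩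
  have hk2 : x2 ∈ sub Ω ub 1 := ⟨hx2, hub2.le⟩
  have hbb : ∀ y, (breg u P x1 - breg u P x2) / B + (B⁻¹ • Vᵀ *ᵥ (gr u x2 - gr u x1)) ⬝ᵥ y
      = (breg u (P + V *ᵥ y) x1 - breg u (P + V *ᵥ y) x2) / B := by
    intro y
    rw [smul_dotProduct, smul_eq_mul, mulVec_transpose, ← dotProduct_mulVec]
    simp only [breg, dotProduct_sub, dotProduct_add, sub_dotProduct]
    field_simp
    ring
  have key := sc_core hn hh (hg.tr (P := P) (a := 0) (b := 0) hV one_pos) (convex_pre hS.conv)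
    (Eqn.tr_zero hg heq hV one_pos) ?_ ?_ ?_ (y1 := V⁻¹ *ᵥ (x1 - P)) (e := V⁻¹ *ᵥ (x2 - P))
    (b := B⁻¹ • Vᵀ *ᵥ (gr u x2 - gr u x1)) (d := breg u x1 x2 / B)
    (b0 := (breg u P x1 - breg u P x2) / B) ?_ ?_ ?_ hd0 (by linarith) ?_ ?_ ?_ ?_ ?_ ?_
  · refine le_trans ?_ (mul_le_mul_of_nonneg_right (le_max_right _ _) hD)
    set d := breg u x1 x2 / B with hdd
    have e1 : breg u x1 x2 = d * B := by rw [hdd]; field_simp
    have e2 : (1 - d)⁻¹ - 1 ≤ 2 * d := by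
      rw [sub_le_iff_le_add, inv_le_iff_one_le_mul₀ (by linarith)]
      nlinarith
    rw [e1, div_mul_eq_mul_div, le_div_iff₀ hδ]
    nlinarith
  · have : sub (pre P V Ω) (tr ub P V 1 0 0) 1 = pre P V (sub Ω ub 1) := by
      ext y
      simp only [sub, pre, Set.mem_ofPred_eq, hvv]
    rw [this]
    exact isCompact_pre hV hK
  · intro y hy hy1
    rw [hvv] at hy1
    have := hV1 _ ⟨hy, hy1⟩ _ hP
    rwa [add_sub_cancel_left, mulVec_mulVec, Matrix.nonsing_inv_mul _ hV.isUnit,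
      one_mulVec] at this
  · intro z hz
    rw [hvv]
    exact hV2 z hz
  · show P + V *ᵥ _ ∈ Ω
    rw [hinv]
    exact hx1
  · show P + V *ᵥ _ ∈ Ω
    rw [hinv]
    exact hx2
  · rw [hvv, hinv, hub1]
  · rw [hvv, hinv, hub2]
  · rw [← mulVec_sub, sub_sub_sub_cancel_right]
    exact hV1 _ hk2 _ hk1
  · intro y hy
    rw [hbb, hvv, hub]
    have := hu.breg_nonneg hS.conv hy hx2
    gcongr
    linarith
  · intro y hy
    rw [hbb, hvv, hub, ← neg_div]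
    have := hu.breg_nonneg hS.conv hy hx1
    gcongr
    linarith
  · rw [hbb, hinv, hself, sub_zero, div_self hB.ne']
  · rw [hbb, hinv, hself, zero_sub, neg_div]

end Vale.Agent.P252
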