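import Vale.Agent.P252.Main
import Vale.Agent.P252.B.HatC
import Vale.Agent.P252.B.SC
import Vale.Agent.P252.B.Final
import Vale.Agent.P252.B.Compl
import Vale.Agent.P252.B.Cert3
import Vale.Agent.P252.B.Cert4
import Vale.Agent.P252.B.Cert5
import Vale.Agent.P252.B.Cert6
import Vale.Agent.P252.B.Cert7
import Vale.Agent.P252.B.Cert8
import Vale.Agent.P252.B.Cert9

open Matrix
open scoped ContDiff

namespace Vale.Agent.P252

theorem exists_cert {n : ℕ} (h3 : 3 ≤ n) (h9 : n ≤ 9) : ∃ P, Cert n P := by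
  interval_cases n
  exacts [⟨_, cert3⟩, ⟨_, cert4⟩, ⟨_, cert5⟩, ⟨_, cert6⟩, ⟨_, cert7⟩, ⟨_, cert8⟩, ⟨_, cert9⟩]

theorem bern_of_le {n : ℕ} (h3 : 3 ≤ n) (h9 : n ≤ 9) : Bern n := by
  intro Ω u hne ho hc hs hp ha hcomp
  obtain ⟨P, hP⟩ := exists_cert h3 h9
  obtain ⟨δ, hδ, hh⟩ := hat_claim (by omega) hP
  obtain ⟨C₀, hC, hq⟩ := qs_of_hat (n := n) (by omega) hδ hh
  have hg : Good Ω u := ⟨ho, hs, hp⟩
  have hS : Sol Ω u := ⟨hg, hc, hg.eqn_of_AM ha, hg.cpt_of_complete hc hcomp⟩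
  exact rigid_of_qs (by omega) hC hS (hq Ω u hS) hne

theorem bernEntire_of_bern {n : ℕ} (h : Bern n) : BernEntire n := by
  intro u hu hp ha
  obtain ⟨-, A, b, c, -, h2⟩ := h Set.univ u Set.univ_nonempty isOpen_univ convex_univ
    hu.contDiffOn (fun x _ => hp x) ha (complete_univ hu)
  exact ⟨A, b, c, h2⟩

theorem le_of_bernEntire {n : ℕ} (h : BernEntire n) : n ≤ 9 := by
  by_contra hn
  obtain ⟨u, hu, hp, ha, hq⟩ := main n (by omega)
  exact hq (h u hu hp fun x _ => ha x)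

theorem full (n : ℕ) (h3 : 3 ≤ n) : (Bern n ↔ n ≤ 9) ∧ (BernEntire n ↔ n ≤ 9) :=
  ⟨⟨fun h => le_of_bernEntire (bernEntire_of_bern h), bern_of_le h3⟩,
    ⟨le_of_bernEntire, fun h => bernEntire_of_bern (bern_of_le h3 h)⟩⟩

end Vale.Agent.P252
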