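import Vale.Agent.P252.B.Defs

open Matrix

namespace Vale.Agent.P252

variable {n : ℕ} {M X A T P : Matrix (Fin n) (Fin n) ℝ}

open scoped MatrixOrder in
theorem exists_factor (h : X.PosSemidef) : ∃ R : Matrix (Fin n) (Fin n) ℝ, X = Rᵀ * R := by
  obtain ⟨B, hB⟩ := CStarAlgebra.nonneg_iff_eq_star_mul_self.mp h.nonneg
  exact ⟨B, by rw [hB]; rfl⟩

theorem Mat_conj (hX : X.PosSemidef) (R : Matrix (Fin n) (Fin n) ℝ) :
    (R * X * Rᵀ).PosSemidef := hX.mul_mul_conjTranspose_same R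

theorem Mat_symm (hX : X.PosSemidef) : Xᵀ = X := hX.1

theorem Mat_quad (R : Matrix (Fin n) (Fin n) ℝ) (a b : Fin n → ℝ) :
    a ⬝ᵥ (Rᵀ * R) *ᵥ b = (R *ᵥ a) ⬝ᵥ (R *ᵥ b) := by
  rw [← mulVec_mulVec, dotProduct_mulVec, vecMul_transpose]

theorem Mat_trace_conj (R Y : Matrix (Fin n) (Fin n) ℝ) :
    (Rᵀ * R * Y).trace = (R * Y * Rᵀ).trace := by
  rw [Matrix.mul_assoc, trace_mul_comm]

theorem Mat_unit (hM : M.PosDef) : IsUnit M.det := hM.det_pos.ne'.isUnit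

theorem trace_mul_nonneg (hP : P.PosSemidef) (hX : X.PosSemidef) : 0 ≤ (P * X).trace := by
  obtain ⟨R, rfl⟩ := exists_factor hP
  rw [Mat_trace_conj]
  exact (Mat_conj hX R).trace_nonneg

theorem eq_zero_of_trace_mul_nonpos (hP : P.PosDef) (hX : X.PosSemidef)
    (h : (P * X).trace ≤ 0) : X = 0 := by
  obtain ⟨R, hR⟩ := exists_factor hP.posSemidef
  have hd : IsUnit R.det := by
    have := hP.det_pos
    rw [hR, det_mul, det_transpose] at this
    refine Ne.isUnit fun h0 => ?_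
    rw [h0] at this
    simp at this
  have hd' : IsUnit Rᵀ.det := by rwa [det_transpose]
  rw [hR, Mat_trace_conj] at h
  have h0 := (Mat_conj hX R).trace_eq_zero_iff.1
    (le_antisymm h (Mat_conj hX R).trace_nonneg)
  have : X = R⁻¹ * (R * X * Rᵀ) * Rᵀ⁻¹ := by
    rw [Matrix.mul_assoc R, ← Matrix.mul_assoc R⁻¹, nonsing_inv_mul _ hd, Matrix.one_mul,
      Matrix.mul_assoc, mul_nonsing_inv _ hd', Matrix.mul_one]
  rw [this, h0]; simp

theorem Mat_det_le (hn : 0 < n) (hX : X.PosSemidef) : X.det ≤ (X.trace / n) ^ n := by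
  have hn' : (0 : ℝ) < n := by exact_mod_cast hn
  have h1 := hX.1.det_eq_prod_eigenvalues
  have h2 := hX.1.trace_eq_sum_eigenvalues
  simp only [RCLike.ofReal_real_eq_id, id] at h1 h2
  have h3 := Real.geom_mean_le_arith_mean_weighted Finset.univ (fun _ : Fin n => (1 : ℝ) / n)
    hX.1.eigenvalues (fun _ _ => by positivity) (by simp; field_simp)
    fun i _ => hX.eigenvalues_nonneg i
  have h4 : (∏ i, hX.1.eigenvalues i ^ ((1 : ℝ) / n)) ^ n = ∏ i, hX.1.eigenvalues i := by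
    rw [← Finset.prod_pow]
    refine Finset.prod_congr rfl fun i _ => ?_
    rw [one_div, Real.rpow_inv_natCast_pow (hX.eigenvalues_nonneg i) hn.ne']
  rw [h1, h2, ← h4]
  refine pow_le_pow_left₀ (Finset.prod_nonneg fun i _ =>
    Real.rpow_nonneg (hX.eigenvalues_nonneg i) _) (h3.trans (le_of_eq ?_)) n
  rw [← Finset.mul_sum]; ring

/-- Arithmetic-geometric mean inequality for the pencil. -/
theorem amgm_trace (hn : 0 < n) (hM : M.PosDef) (hX : X.PosSemidef) :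
    X.det ≤ M.det * ((M⁻¹ * X).trace / n) ^ n := by
  obtain ⟨R, hR⟩ := exists_factor hM.inv.posSemidef
  have h1 := Mat_det_le hn (Mat_conj hX R)
  have h2 : M.det * (R.det * R.det) = 1 := by
    have : (M * M⁻¹).det = 1 := by rw [mul_nonsing_inv _ (Mat_unit hM), det_one]
    rwa [det_mul, hR, det_mul, det_transpose] at this
  rw [hR, Mat_trace_conj]
  rw [det_mul, det_mul, det_transpose] at h1
  calc X.det = M.det * (R.det * X.det * R.det) := by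
        rw [show M.det * (R.det * X.det * R.det) = M.det * (R.det * R.det) * X.det by ring, h2,
          one_mul]
    _ ≤ _ := mul_le_mul_of_nonneg_left h1 hM.det_pos.le

theorem eq_of_le_of_det (hn : 0 < n) (hM : M.PosDef) (h : (A - M).PosSemidef)
    (hd : A.det = M.det) : A = M := by
  have hn' : (0 : ℝ) < n := by exact_mod_cast hn
  have hA : A.PosDef := by
    have := hM.add_posSemidef h
    rwa [add_sub_cancel] at this
  have h1 := amgm_trace hn hA hM.posSemidef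
  have h0 : 0 ≤ (A⁻¹ * M).trace / n :=
    div_nonneg (trace_mul_nonneg hA.inv.posSemidef hM.posSemidef) hn'.le
  have h2 : 1 ≤ ((A⁻¹ * M).trace / n) ^ n := by
    rw [hd] at h1
    have := hM.det_pos
    nlinarith
  have h3 : 1 ≤ (A⁻¹ * M).trace / n := by
    by_contra hc
    push Not at hc
    exact absurd (pow_lt_one₀ h0 hc hn.ne') (not_lt.2 h2)
  rw [le_div_iff₀ hn'] at h3
  have h4 : (A⁻¹ * (A - M)).trace ≤ 0 := by
    rw [Matrix.mul_sub, trace_sub, nonsing_inv_mul _ (Mat_unit hA), trace_one, Fintype.card_fin]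
    linarith
  exact sub_eq_zero.1 (eq_zero_of_trace_mul_nonpos hA.inv h h4)

theorem Mat_cs (a b : Fin n → ℝ) : (a ⬝ᵥ b) ^ 2 ≤ (a ⬝ᵥ a) * (b ⬝ᵥ b) := by
  have := Finset.sum_mul_sq_le_sq_mul_sq Finset.univ a b
  simpa only [dotProduct, sq] using this

theorem Mat_cs_psd (hX : X.PosSemidef) (a b : Fin n → ℝ) :
    (a ⬝ᵥ X *ᵥ b) ^ 2 ≤ (a ⬝ᵥ X *ᵥ a) * (b ⬝ᵥ X *ᵥ b) := by
  obtain ⟨R, rfl⟩ := exists_factor hX
  simp only [Mat_quad]
  exact Mat_cs _ _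

theorem Mat_inv_mulVec (hM : M.PosDef) (e : Fin n → ℝ) : M⁻¹ *ᵥ (M *ᵥ e) = e := by
  rw [mulVec_mulVec, nonsing_inv_mul _ (Mat_unit hM), one_mulVec]

theorem cs_ip (hM : M.PosDef) (a e : Fin n → ℝ) :
    (a ⬝ᵥ e) ^ 2 ≤ (a ⬝ᵥ M⁻¹ *ᵥ a) * (e ⬝ᵥ M *ᵥ e) := by
  have := Mat_cs_psd hM.inv.posSemidef a (M *ᵥ e)
  rwa [Mat_inv_mulVec hM, dotProduct_comm (M *ᵥ e)] at this

theorem cs_psd (hX : X.PosSemidef) (a b : Fin n → ℝ) :
    (a ⬝ᵥ X *ᵥ b) ^ 2 ≤ (a ⬝ᵥ X *ᵥ a) * (b ⬝ᵥ X *ᵥ b) := Mat_cs_psd hX a b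

theorem quad_le_trace (hX : X.PosSemidef) (a : Fin n → ℝ) :
    a ⬝ᵥ X *ᵥ a ≤ X.trace * (a ⬝ᵥ a) := by
  obtain ⟨R, rfl⟩ := exists_factor hX
  have h1 : (Rᵀ * R).trace = ∑ k, R k ⬝ᵥ R k := by
    rw [trace_mul_comm]
    simp [trace, mul_apply, dotProduct]
  rw [Mat_quad, h1, Finset.sum_mul]
  refine Finset.sum_le_sum fun k _ => ?_
  have := Mat_cs (R k) a
  rw [sq] at this
  exact this

theorem Mat_pos (hM : M.PosDef) {e : Fin n → ℝ} (he : e ≠ 0) : 0 < e ⬝ᵥ M *ᵥ e := by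
  simpa using hM.dotProduct_mulVec_pos he

theorem Mat_vv (a b e : Fin n → ℝ) : a ⬝ᵥ vecMulVec e e *ᵥ b = (a ⬝ᵥ e) * (b ⬝ᵥ e) := by
  simp only [dotProduct, mulVec, vecMulVec_apply, Finset.mul_sum, Finset.sum_mul]
  rw [Finset.sum_comm]
  exact Finset.sum_congr rfl fun i _ => Finset.sum_congr rfl fun j _ => by ring

/-- Splitting of the inverse metric along `e` and its orthogonal complement. -/
theorem orth_decomp (hM : M.PosDef) {e : Fin n → ℝ} (he : e ≠ 0) :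
    ∃ R : Matrix (Fin n) (Fin n) ℝ, R *ᵥ (M *ᵥ e) = 0 ∧ ∀ a b : Fin n → ℝ,
      a ⬝ᵥ M⁻¹ *ᵥ b = (a ⬝ᵥ e) * (b ⬝ᵥ e) / (e ⬝ᵥ M *ᵥ e) + (R *ᵥ a) ⬝ᵥ (R *ᵥ b) := by
  have hq := Mat_pos hM he
  set q := e ⬝ᵥ M *ᵥ e with hqd
  have hform : ∀ a b : Fin n → ℝ, a ⬝ᵥ (M⁻¹ - q⁻¹ • vecMulVec e e) *ᵥ b
      = a ⬝ᵥ M⁻¹ *ᵥ b - (a ⬝ᵥ e) * (b ⬝ᵥ e) / q := by
    intro a b
    rw [sub_mulVec, dotProduct_sub, smul_mulVec, dotProduct_smul, Mat_vv, smul_eq_mul,
      div_eq_inv_mul]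
  have hN : (M⁻¹ - q⁻¹ • vecMulVec e e).PosSemidef := by
    refine PosSemidef.of_dotProduct_mulVec_nonneg ?_ fun x => ?_
    · change (M⁻¹ - q⁻¹ • vecMulVec e e)ᵀ = _
      rw [transpose_sub, transpose_smul, Mat_symm hM.inv.posSemidef, transpose_vecMulVec]
    · rw [star_trivial, hform, sub_nonneg, div_le_iff₀ hq, ← sq]
      exact cs_ip hM x e
  obtain ⟨R, hR⟩ := exists_factor hN
  refine ⟨R, ?_, fun a b => ?_⟩
  · rw [← dotProduct_self_eq_zero, ← Mat_quad, ← hR, hform, Mat_inv_mulVec hM,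
      dotProduct_comm (M *ᵥ e), ← hqd]
    field_simp
    ring
  · rw [← Mat_quad, ← hR, hform]; ring

theorem Mat_trace_sq {S : Matrix (Fin n) (Fin n) ℝ} (hS : Sᵀ = S) : 0 ≤ (S * S).trace := by
  have : (Sᵀ * S).PosSemidef := posSemidef_conjTranspose_mul_self S
  rw [hS] at this
  exact this.trace_nonneg

theorem Mat_trace_four (R T : Matrix (Fin n) (Fin n) ℝ) :
    (Rᵀ * R * T * (Rᵀ * R) * T).trace = (R * T * Rᵀ * (R * T * Rᵀ)).trace := by
  simp only [Matrix.mul_assoc]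
  rw [trace_mul_comm]
  simp only [Matrix.mul_assoc]

theorem Mat_conj_symm (R : Matrix (Fin n) (Fin n) ℝ) (hT : T.IsSymm) :
    (R * T * Rᵀ)ᵀ = R * T * Rᵀ := by
  rw [transpose_mul, transpose_mul, transpose_transpose, hT.eq, Matrix.mul_assoc]

theorem trace_sq_nonneg (hM : M.PosDef) (hT : T.IsSymm) :
    0 ≤ (M⁻¹ * T * M⁻¹ * T).trace := by
  obtain ⟨R, hR⟩ := exists_factor hM.inv.posSemidef
  rw [hR, Mat_trace_four]
  exact Mat_trace_sq (Mat_conj_symm R hT)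

theorem Mat_trace_vv (v : Fin n → ℝ) (Y : Matrix (Fin n) (Fin n) ℝ) :
    (vecMulVec v v * Y).trace = v ⬝ᵥ Y *ᵥ v := by
  rw [trace_mul_comm]
  simp only [trace, diag_apply, mul_apply, vecMulVec_apply, dotProduct, mulVec, Finset.mul_sum]
  exact Finset.sum_congr rfl fun i _ => Finset.sum_congr rfl fun j _ => by ring

theorem Mat_vv_mul (v : Fin n → ℝ) (Y : Matrix (Fin n) (Fin n) ℝ) :
    vecMulVec v v * Y * vecMulVec v v = (v ⬝ᵥ Y *ᵥ v) • vecMulVec v v := by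
  ext i j
  simp only [mul_apply, vecMulVec_apply, dotProduct, mulVec, Finset.mul_sum, Finset.sum_mul,
    Matrix.smul_apply, smul_eq_mul]
  rw [Finset.sum_comm]
  exact Finset.sum_congr rfl fun a _ => Finset.sum_congr rfl fun b _ => by ring

theorem Mat_pog (hn : 2 ≤ n) {S : Matrix (Fin n) (Fin n) ℝ} (hS : Sᵀ = S) {v : Fin n → ℝ}
    (hv : 0 < v ⬝ᵥ v) :
    (S.trace - (v ⬝ᵥ S *ᵥ v) / (v ⬝ᵥ v)) ^ 2 / ((n : ℝ) - 1)
      + 2 * ((S *ᵥ v) ⬝ᵥ (S *ᵥ v)) / (v ⬝ᵥ v)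
      - ((v ⬝ᵥ S *ᵥ v) / (v ⬝ᵥ v)) ^ 2 ≤ (S * S).trace := by
  have hn1 : (0 : ℝ) < (n : ℝ) - 1 := by
    have : (2 : ℝ) ≤ n := by exact_mod_cast hn
    linarith
  set q := v ⬝ᵥ v with hq
  set E : Matrix (Fin n) (Fin n) ℝ := q⁻¹ • vecMulVec v v with hE
  set s := (v ⬝ᵥ S *ᵥ v) / q with hs
  have hEt : Eᵀ = E := by rw [hE, transpose_smul, transpose_vecMulVec]
  have hEY : ∀ Y : Matrix (Fin n) (Fin n) ℝ, E * Y * E = ((v ⬝ᵥ Y *ᵥ v) / q) • E := by
    intro Y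
    rw [hE, Matrix.smul_mul, Matrix.smul_mul, Matrix.mul_smul, Mat_vv_mul, smul_smul, smul_smul,
      smul_smul]
    congr 1
    ring
  have hEE : E * E = E := by
    have := hEY 1
    rwa [Matrix.mul_one, one_mulVec, ← hq, div_self hv.ne', one_smul] at this
  have htr : ∀ Y : Matrix (Fin n) (Fin n) ℝ, (E * Y).trace = (v ⬝ᵥ Y *ᵥ v) / q := by
    intro Y
    rw [hE, Matrix.smul_mul, trace_smul, Mat_trace_vv, smul_eq_mul, div_eq_inv_mul]
  have hE1 : E.trace = 1 := by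
    have := htr 1
    rwa [Matrix.mul_one, one_mulVec, ← hq, div_self hv.ne'] at this
  have hES : (E * S).trace = s := htr S
  have hSE : (S * E).trace = s := by rw [trace_mul_comm, hES]
  have hESE : E * S * E = s • E := hEY S
  have hESS : (E * (S * S)).trace = ((S *ᵥ v) ⬝ᵥ (S *ᵥ v)) / q := by
    rw [htr, ← Mat_quad, hS]
  clear_value E s
  set c := (S.trace - s) / ((n : ℝ) - 1) with hc
  set B : Matrix (Fin n) (Fin n) ℝ := S - E * S - S * E + s • E with hB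
  have hBt : Bᵀ = B := by
    rw [hB, transpose_add, transpose_sub, transpose_sub, transpose_mul, transpose_mul,
      transpose_smul, hEt, hS]
    abel
  have hEB : E * B = 0 := by
    rw [hB, Matrix.mul_add, Matrix.mul_sub, Matrix.mul_sub, ← Matrix.mul_assoc, hEE,
      ← Matrix.mul_assoc, hESE, Matrix.mul_smul, hEE]
    abel
  have hBE : B * E = 0 := by
    have := congrArg transpose hEB
    rwa [transpose_mul, hBt, hEt, transpose_zero] at this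
  have hBtr : B.trace = S.trace - s := by
    rw [hB, trace_add, trace_sub, trace_sub, hES, hSE, trace_smul, hE1, smul_eq_mul]; ring
  have hBB : (B * B).trace = (S * S).trace - 2 * (((S *ᵥ v) ⬝ᵥ (S *ᵥ v)) / q) + s ^ 2 := by
    have h1 : (B * B).trace = (B * S).trace := by
      conv_lhs => rw [hB]
      rw [← hB]
      nth_rewrite 2 [hB]
      rw [Matrix.mul_add, Matrix.mul_sub, Matrix.mul_sub, ← Matrix.mul_assoc, hBE,
        Matrix.mul_smul, hBE, trace_add, trace_sub, trace_sub, ← Matrix.mul_assoc,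
        trace_mul_comm (B * S) E, ← Matrix.mul_assoc, hEB]
      simp
    rw [h1, hB, Matrix.add_mul, Matrix.sub_mul, Matrix.sub_mul, trace_add, trace_sub, trace_sub,
      Matrix.mul_assoc, hESS, Matrix.mul_assoc, trace_mul_comm S (E * S), Matrix.mul_assoc, hESS,
      Matrix.smul_mul, trace_smul, hES, smul_eq_mul]
    ring
  have hW := Mat_trace_sq (S := B - c • (1 - E))
    (by rw [transpose_sub, transpose_smul, transpose_sub, transpose_one, hBt, hEt])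
  have hexp : (B - c • (1 - E)) * (B - c • (1 - E))
      = B * B - (2 * c) • B + (c ^ 2) • (1 - E) := by
    simp only [Matrix.sub_mul, Matrix.mul_sub, Matrix.smul_mul, Matrix.mul_smul, Matrix.one_mul,
      Matrix.mul_one, hEB, hBE, hEE]
    module
  rw [hexp, trace_add, trace_sub, trace_smul, trace_smul, trace_sub, trace_one, Fintype.card_fin,
    hE1, hBtr, hBB, smul_eq_mul, smul_eq_mul] at hW
  have h5 : S.trace - s = c * ((n : ℝ) - 1) := by rw [hc]; field_simp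
  have h6 : (S.trace - s) ^ 2 / ((n : ℝ) - 1) = c ^ 2 * ((n : ℝ) - 1) := by
    rw [h5]; field_simp
  rw [h6, mul_div_assoc]
  rw [h5] at hW
  nlinarith

/-- The algebraic inequality behind the Pogorelov computation. -/
theorem pog_ineq (hn : 2 ≤ n) (hM : M.PosDef) (hT : T.IsSymm) {e : Fin n → ℝ} (he : e ≠ 0) :
    ((M⁻¹ * T).trace - (e ⬝ᵥ T *ᵥ e) / (e ⬝ᵥ M *ᵥ e)) ^ 2 / ((n : ℝ) - 1)
      + 2 * ((T *ᵥ e) ⬝ᵥ M⁻¹ *ᵥ (T *ᵥ e)) / (e ⬝ᵥ M *ᵥ e)
      - ((e ⬝ᵥ T *ᵥ e) / (e ⬝ᵥ M *ᵥ e)) ^ 2 ≤ (M⁻¹ * T * M⁻¹ * T).trace := by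
  obtain ⟨R, hR⟩ := exists_factor hM.inv.posSemidef
  have hq := Mat_pos hM he
  have h1 : Rᵀ *ᵥ (R *ᵥ (M *ᵥ e)) = e := by
    rw [mulVec_mulVec, ← hR, Mat_inv_mulVec hM]
  have h2 : (R *ᵥ (M *ᵥ e)) ⬝ᵥ (R *ᵥ (M *ᵥ e)) = e ⬝ᵥ M *ᵥ e := by
    rw [← Mat_quad, ← hR, Mat_inv_mulVec hM, dotProduct_comm]
  have h3 : (R * T * Rᵀ) *ᵥ (R *ᵥ (M *ᵥ e)) = R *ᵥ (T *ᵥ e) := by
    rw [← mulVec_mulVec, h1, ← mulVec_mulVec]
  have h4 : (R *ᵥ (M *ᵥ e)) ⬝ᵥ (R *ᵥ (T *ᵥ e)) = e ⬝ᵥ T *ᵥ e := by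
    rw [dotProduct_comm, ← Mat_quad, ← hR, Mat_inv_mulVec hM, dotProduct_comm]
  have h := Mat_pog hn (Mat_conj_symm R hT) (v := R *ᵥ (M *ᵥ e)) (by rwa [h2])
  rw [h3, h2, h4, ← Mat_quad, ← Mat_trace_four, ← Mat_trace_conj, ← hR] at h
  exact h

/-- An upper bound and a lower determinant bound give a lower bound. -/
theorem lower_of_upper_det (n : ℕ) {C c : ℝ} (hc : 0 < c) :
    ∃ D : ℝ, 0 < D ∧ ∀ M : Matrix (Fin n) (Fin n) ℝ, M.PosDef →
      (∀ e : Fin n → ℝ, e ⬝ᵥ M *ᵥ e ≤ C * (e ⬝ᵥ e)) → c ≤ M.det →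
      ∀ e : Fin n → ℝ, e ⬝ᵥ e ≤ D * (e ⬝ᵥ M *ᵥ e) := by
  have hC1 : (1 : ℝ) ≤ max C 1 := le_max_right _ _
  refine ⟨max C 1 ^ n / c, by positivity, fun M hM hC hd e => ?_⟩
  obtain ⟨U, l, hU1, hU2, hl0, hMe⟩ : ∃ (U : Matrix (Fin n) (Fin n) ℝ) (l : Fin n → ℝ),
      Uᵀ * U = 1 ∧ U * Uᵀ = 1 ∧ (∀ i, 0 ≤ l i) ∧ M = U * diagonal l * Uᵀ := by
    refine ⟨hM.1.eigenvectorUnitary, hM.1.eigenvalues,
      Unitary.coe_star_mul_self hM.1.eigenvectorUnitary,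
      Unitary.coe_mul_star_self hM.1.eigenvectorUnitary, hM.posSemidef.eigenvalues_nonneg, ?_⟩
    have := hM.1.spectral_theorem
    rw [Unitary.conjStarAlgAut_apply] at this
    simp only [RCLike.ofReal_real_eq_id, Function.id_comp] at this
    exact this
  have hq : ∀ x : Fin n → ℝ, x ⬝ᵥ M *ᵥ x = ∑ i, l i * (Uᵀ *ᵥ x) i ^ 2 := by
    intro x
    rw [hMe, ← mulVec_mulVec, ← mulVec_mulVec, dotProduct_mulVec, ← mulVec_transpose]
    simp only [dotProduct, mulVec_diagonal]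
    exact Finset.sum_congr rfl fun i _ => by ring
  have hn : ∀ x : Fin n → ℝ, x ⬝ᵥ x = ∑ i, (Uᵀ *ᵥ x) i ^ 2 := by
    intro x
    have := Mat_quad Uᵀ x x
    rw [transpose_transpose, hU2, one_mulVec] at this
    rw [this]
    simp only [dotProduct, sq]
  have hl : ∀ i, l i ≤ max C 1 := by
    intro i
    have h := hC (U *ᵥ Pi.single i 1)
    rw [hq, hn, mulVec_mulVec, hU1, one_mulVec] at h
    simp only [Pi.single_apply, ite_pow, one_pow, ne_eq, OfNat.ofNat_ne_zero, not_false_eq_true,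
      zero_pow, mul_ite, mul_one, mul_zero, Finset.sum_ite_eq', Finset.mem_univ, if_true] at h
    exact h.trans (le_max_left _ _)
  have hdet : M.det = ∏ i, l i := by
    have h1 : U.det * U.det = 1 := by
      have := congrArg det hU1
      rwa [det_mul, det_transpose, det_one] at this
    rw [hMe, det_mul, det_mul, det_transpose, det_diagonal]
    linear_combination (∏ i, l i) * h1
  have hlow : ∀ i, c ≤ l i * max C 1 ^ n := by
    intro i
    rw [hdet, ← Finset.mul_prod_erase _ _ (Finset.mem_univ i)] at hd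
    refine hd.trans (mul_le_mul_of_nonneg_left ?_ (hl0 i))
    calc ∏ j ∈ Finset.univ.erase i, l j ≤ ∏ _j ∈ Finset.univ.erase i, max C 1 :=
          Finset.prod_le_prod (fun j _ => hl0 j) fun j _ => hl j
      _ = max C 1 ^ (Finset.univ.erase i).card := Finset.prod_const _
      _ ≤ max C 1 ^ n := pow_le_pow_right₀ hC1 (by simp)
  rw [hq, hn, Finset.mul_sum]
  refine Finset.sum_le_sum fun i _ => ?_
  have h1 : 1 ≤ max C 1 ^ n / c * l i := by
    rw [div_mul_eq_mul_div, le_div_iff₀ hc]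
    linarith [hlow i]
  nlinarith [sq_nonneg ((Uᵀ *ᵥ e) i)]

theorem Mat_col (V : Matrix (Fin n) (Fin n) ℝ) (i : Fin n) :
    V *ᵥ Pi.single i 1 = fun k => V k i := by
  funext k
  simp [mulVec, dotProduct, Pi.single_apply]

/-- A frame of maximal volume in a compact set. -/
theorem exists_max_frame {D : Set (Fin n → ℝ)} (hD : IsCompact D)
    (h0 : ∃ V : Matrix (Fin n) (Fin n) ℝ, V.det ≠ 0 ∧ ∀ i, V *ᵥ Pi.single i 1 ∈ D) :
    ∃ V : Matrix (Fin n) (Fin n) ℝ, V.det ≠ 0 ∧ (∀ i, V *ᵥ Pi.single i 1 ∈ D) ∧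
      ∀ d ∈ D, ‖V⁻¹ *ᵥ d‖ ≤ 1 := by
  obtain ⟨V₀, hV₀, hV₀D⟩ := h0
  have hK : IsCompact (Set.pi Set.univ fun _ : Fin n => D) := isCompact_univ_pi fun _ => hD
  have hcont : Continuous fun W : Fin n → Fin n → ℝ => |(Matrix.of W).det| :=
    (Continuous.matrix_det (A := fun W : Fin n → Fin n → ℝ => Matrix.of W) continuous_id).abs
  have hmem : ∀ V : Matrix (Fin n) (Fin n) ℝ, (∀ i, V *ᵥ Pi.single i 1 ∈ D) →
      (fun i k => V k i) ∈ Set.pi Set.univ fun _ : Fin n => D := by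
    intro V hV i _
    have := hV i
    rwa [Mat_col] at this
  obtain ⟨W, hW, hmax⟩ := hK.exists_isMaxOn ⟨_, hmem V₀ hV₀D⟩ hcont.continuousOn
  have hle : ∀ V : Matrix (Fin n) (Fin n) ℝ, (∀ i, V *ᵥ Pi.single i 1 ∈ D) →
      |V.det| ≤ |(Matrix.of W)ᵀ.det| := by
    intro V hV
    have h := hmax (hmem V hV)
    rw [det_transpose, ← det_transpose V]
    exact h
  have hpos : 0 < |(Matrix.of W)ᵀ.det| := (abs_pos.2 hV₀).trans_le (hle V₀ hV₀D)
  have hWD : ∀ i, (Matrix.of W)ᵀ *ᵥ Pi.single i 1 ∈ D := by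
    intro i
    rw [Mat_col]
    exact hW i (Set.mem_univ i)
  refine ⟨(Matrix.of W)ᵀ, abs_pos.1 hpos, hWD, fun d hd => ?_⟩
  refine (pi_norm_le_iff_of_nonneg zero_le_one).2 fun i => ?_
  have h1 := congrFun (det_smul_inv_mulVec_eq_cramer (Matrix.of W)ᵀ d (abs_pos.1 hpos).isUnit) i
  rw [cramer_apply, Pi.smul_apply, smul_eq_mul] at h1
  have h2 := hle (((Matrix.of W)ᵀ).updateCol i d) fun j => by
    rw [Mat_col]
    by_cases hj : j = i
    · subst hj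
      simpa using hd
    · have := hWD j
      rw [Mat_col] at this
      simpa [updateCol_ne hj] using this
  rw [← h1, abs_mul] at h2
  rw [Real.norm_eq_abs]
  nlinarith [abs_nonneg (((Matrix.of W)ᵀ⁻¹ *ᵥ d) i)]

/-- Normalisation of a compact convex set with interior. -/
theorem exists_center (hn : 0 < n) {K : Set (Fin n → ℝ)} (hK : IsCompact K) (hc : Convex ℝ K)
    (hi : (interior K).Nonempty) :
    ∃ (V : Matrix (Fin n) (Fin n) ℝ) (P : Fin n → ℝ), V.det ≠ 0 ∧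
      (∀ x ∈ K, ∀ y ∈ K, ‖V⁻¹ *ᵥ (x - y)‖ ≤ 1) ∧
      (∀ i, ∃ x ∈ K, ∃ y ∈ K, V *ᵥ Pi.single i 1 = x - y) ∧
      ∀ z : Fin n → ℝ, ∑ i, |z i| ≤ 1 / (2 * n) → P + V *ᵥ z ∈ K := by
  have hn' : (0 : ℝ) < n := by exact_mod_cast hn
  have hD : IsCompact ((fun p : (Fin n → ℝ) × (Fin n → ℝ) => p.1 - p.2) '' (K ×ˢ K)) :=
    (hK.prod hK).image (continuous_fst.sub continuous_snd)
  obtain ⟨x₀, hx₀⟩ := hi
  obtain ⟨r, hr, hball⟩ := Metric.mem_nhds_iff.1 (mem_interior_iff_mem_nhds.1 hx₀)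
  obtain ⟨V, hV, hVD, hVn⟩ := exists_max_frame hD
    ⟨(r / 2) • (1 : Matrix (Fin n) (Fin n) ℝ), by
      rw [det_smul, det_one, mul_one]; positivity, fun i => by
      refine ⟨(x₀ + (r / 2) • Pi.single i 1, x₀), ⟨hball ?_, interior_subset hx₀⟩, ?_⟩
      · rw [Metric.mem_ball, dist_eq_norm, add_sub_cancel_left, norm_smul, Pi.norm_single,
          norm_one, Real.norm_eq_abs, abs_of_pos (by positivity)]
        linarith
      · simp only [add_sub_cancel_left]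
        rw [smul_mulVec, one_mulVec]⟩
  have hab : ∀ i, ∃ x ∈ K, ∃ y ∈ K, V *ᵥ Pi.single i 1 = x - y := by
    intro i
    obtain ⟨⟨x, y⟩, ⟨hx, hy⟩, h⟩ := hVD i
    exact ⟨x, hx, y, hy, h.symm⟩
  choose a ha b hb hab' using hab
  refine ⟨V, ∑ i, (1 / (2 * (n : ℝ))) • (a i + b i), hV,
    fun x hx y hy => hVn _ ⟨(x, y), ⟨hx, hy⟩, rfl⟩,
    fun i => ⟨a i, ha i, b i, hb i, hab' i⟩, fun z hz => ?_⟩
  have hzi : ∀ i, |z i| ≤ 1 / (2 * n) := fun i =>
    (Finset.single_le_sum (f := fun i => |z i|) (fun j _ => abs_nonneg _)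
      (Finset.mem_univ i)).trans hz
  have hVz : V *ᵥ z = ∑ i, z i • (a i - b i) := by
    have : z = ∑ i, z i • (Pi.single i 1 : Fin n → ℝ) := by
      funext k
      simp [Finset.sum_apply, Pi.single_apply]
    conv_lhs => rw [this]
    rw [mulVec_sum]
    exact Finset.sum_congr rfl fun i _ => by rw [mulVec_smul, hab']
  have hmem : ∀ i, (1 / 2 + n * z i) • a i + (1 / 2 - n * z i) • b i ∈ K := by
    intro i
    have h1 := abs_le.1 (hzi i)
    have h2 : (n : ℝ) * (1 / (2 * n)) = 1 / 2 := by field_simp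
    exact hc (ha i) (hb i) (by nlinarith [h1.1]) (by nlinarith [h1.2]) (by ring)
  have := hc.sum_mem (t := Finset.univ) (w := fun _ : Fin n => (1 : ℝ) / n)
    (fun _ _ => by positivity) (by simp; field_simp) fun i _ => hmem i
  have e : ∑ i, (1 / (2 * (n : ℝ))) • (a i + b i) + V *ᵥ z
      = ∑ i, ((1 : ℝ) / n) • ((1 / 2 + n * z i) • a i + (1 / 2 - n * z i) • b i) := by
    rw [hVz, ← Finset.sum_add_distrib]
    refine Finset.sum_congr rfl fun i _ => ?_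
    funext k
    simp only [Pi.add_apply, Pi.smul_apply, Pi.sub_apply, smul_eq_mul]
    field_simp
    ring
  rw [e]
  exact this

end Vale.Agent.P252
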