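import Vale.Agent.P252.B.Conv

open Matrix MeasureTheory
open scoped ContDiff

namespace Vale.Agent.P252

variable {n : ℕ} {Ω S : Set (Fin n → ℝ)} {u G w : (Fin n → ℝ) → ℝ}
  {Φ : (Fin n → ℝ) → Fin n → ℝ} {x : Fin n → ℝ}

/-- The Jacobian matrix of a map. -/
noncomputable def Proj.jac (Φ : (Fin n → ℝ) → Fin n → ℝ) (x : Fin n → ℝ) :
    Matrix (Fin n) (Fin n) ℝ := Matrix.of fun k i => pd i (fun y => Φ y k) x

theorem Proj.hasFDerivAt_jac (hΦ : DifferentiableAt ℝ Φ x) :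
    HasFDerivAt Φ (LinearMap.toContinuousLinearMap (Matrix.toLin' (Proj.jac Φ x))) x := by
  refine hasFDerivAt_pi'.2 fun k => ?_
  refine (differentiableAt_pi.1 hΦ k).hasFDerivAt.congr_fderiv ?_
  ext v
  rw [fderiv_eq_dot, dotProduct_comm]
  rfl

theorem Proj.gr_chain (hG : DifferentiableAt ℝ G (Φ x)) (hΦ : DifferentiableAt ℝ Φ x) :
    gr (fun y => G (Φ y)) x = (Proj.jac Φ x)ᵀ *ᵥ gr G (Φ x) := by
  ext i
  have h := (hG.hasFDerivAt.comp x (Proj.hasFDerivAt_jac hΦ)).fderiv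
  change fderiv ℝ (G ∘ Φ) x (Pi.single i 1) = _
  rw [h, ContinuousLinearMap.comp_apply, fderiv_eq_dot]
  simp [Matrix.mulVec, dotProduct, Pi.single_apply]

theorem Proj.hess_chain (hS : IsOpen S) (hG : Sm Set.univ G) (hΦ : ContDiffOn ℝ ∞ Φ S)
    (hx : x ∈ S) :
    hess (fun y => G (Φ y)) x = (Proj.jac Φ x)ᵀ * hess G (Φ x) * Proj.jac Φ x +
      ∑ k, gr G (Φ x) k • hess (fun y => Φ y k) x := by
  have hd : ∀ y ∈ S, DifferentiableAt ℝ Φ y := fun y hy =>
    (hΦ.contDiffAt (hS.mem_nhds hy)).differentiableAt (by simp)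
  have hk : ∀ k, Sm S fun y => Φ y k := fun k => contDiffOn_pi.1 hΦ k
  have hp : ∀ k, DifferentiableAt ℝ (pd k G) (Φ x) := fun k =>
    (hG.pd isOpen_univ k).diff isOpen_univ (Set.mem_univ _)
  ext i j
  have h1 : ∀ y ∈ S, pd j (fun y => G (Φ y)) y =
      ∑ k, pd j (fun y => Φ y k) y * pd k G (Φ y) := fun y hy =>
    congrFun (Proj.gr_chain (hG.diff isOpen_univ (Set.mem_univ _)) (hd y hy)) j
  have h2 := gr_congr_on hS h1 hx
  have d1 := fun k => ((hk k).pd hS j).diff hS hx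
  have d2 : ∀ k, DifferentiableAt ℝ (fun y => pd k G (Φ y)) x := fun k => (hp k).comp x (hd x hx)
  rw [gr_sum _ fun k _ => (d1 k).fun_mul (d2 k)] at h2
  simp only [gr_mul (d1 _) (d2 _), Proj.gr_chain (hp _) (hd x hx)] at h2
  refine (congrFun h2 i).trans ?_
  simp only [Finset.sum_apply, Pi.add_apply, Pi.smul_apply, smul_eq_mul, Finset.sum_add_distrib,
    Matrix.add_apply, Matrix.sum_apply, Matrix.smul_apply, Matrix.mul_apply]
  congr 1
  exact Finset.sum_congr rfl fun k _ => mul_comm _ _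

/-- The conformal factor. -/
noncomputable def Proj.lam (u : (Fin n → ℝ) → ℝ) (y : Fin n → ℝ) : ℝ := (1 - u y)⁻¹

/-- The support function. -/
noncomputable def Proj.sig (u : (Fin n → ℝ) → ℝ) (y : Fin n → ℝ) : ℝ := 1 - u y + y ⬝ᵥ gr u y

/-- The projective map. -/
noncomputable def Proj.phi (u : (Fin n → ℝ) → ℝ) (y : Fin n → ℝ) : Fin n → ℝ :=
  Proj.lam u y • y

/-- The standing hypotheses on the open cap. -/
structure Proj.Cap (S : Set (Fin n → ℝ)) (u : (Fin n → ℝ) → ℝ) : Prop where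
  good : Good S u
  lt : ∀ x ∈ S, u x < 1
  pos : ∀ x ∈ S, 0 < Proj.sig u x

namespace Proj.Cap

theorem sm_one_sub (h : Cap S u) : Sm S fun y => 1 - u y := contDiffOn_const.sub h.good.sm

theorem sm_lam (h : Cap S u) : Sm S (lam u) :=
  h.sm_one_sub.inv fun x hx => (sub_pos.2 (h.lt x hx)).ne'

theorem sig_eq (u : (Fin n → ℝ) → ℝ) : sig u = fun y => (y ⬝ᵥ gr u y - u y) + 1 := by
  funext y
  rw [sig]
  ring

theorem sm_sig (h : Cap S u) : Sm S (sig u) := by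
  rw [sig_eq]
  exact h.good.sm_sig.add contDiffOn_const

theorem sm_phi (h : Cap S u) : ContDiffOn ℝ ∞ (phi u) S := h.sm_lam.smul contDiffOn_id

theorem lam_pos (h : Cap S u) (hx : x ∈ S) : 0 < lam u x := inv_pos.2 (sub_pos.2 (h.lt x hx))

theorem dot_gr (u : (Fin n → ℝ) → ℝ) (x : Fin n → ℝ) : x ⬝ᵥ gr u x = sig u x - (lam u x)⁻¹ := by
  rw [sig, lam, inv_inv]
  ring

theorem gr_one_sub (h : Cap S u) (hx : x ∈ S) : gr (fun y => 1 - u y) x = -gr u x := by
  rw [gr_sub (differentiableAt_const _) (h.good.sm.diff h.good.op hx), gr_const, zero_sub]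

theorem gr_lam (h : Cap S u) (hx : x ∈ S) : gr (lam u) x = lam u x ^ 2 • gr u x := by
  have h1 := gr_inv (h.sm_one_sub.diff h.good.op hx) (sub_pos.2 (h.lt x hx)).ne'
  rw [h.gr_one_sub hx, smul_neg, neg_smul, neg_neg, ← inv_pow] at h1
  exact h1

theorem hess_lam (h : Cap S u) (hx : x ∈ S) : hess (lam u) x =
    lam u x ^ 2 • hess u x + (2 * lam u x ^ 3) • vecMulVec (gr u x) (gr u x) := by
  refine hess_comp (h := fun t => (1 - t)⁻¹) (h' := fun t => (1 - t)⁻¹ ^ 2)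
    (h'' := fun t => 2 * (1 - t)⁻¹ ^ 3) (T := Set.Iio 1) isOpen_Iio (fun t ht => ?_)
    (fun t ht => ?_) h.good.op h.good.sm hx (h.lt x hx)
  · have h0 : 1 - t ≠ 0 := (sub_pos.2 ht).ne'
    refine (((hasDerivAt_id t).const_sub 1).fun_inv h0).congr_deriv ?_
    simp
  · have h0 : 1 - t ≠ 0 := (sub_pos.2 ht).ne'
    refine ((((hasDerivAt_id t).const_sub 1).fun_inv h0).fun_pow 2).congr_deriv ?_
    simp only [id, show 2 - 1 = 1 from rfl, pow_one, Nat.cast_ofNat]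
    field_simp

theorem jac_phi (h : Cap S u) (hx : x ∈ S) :
    jac (phi u) x = lam u x • 1 + lam u x ^ 2 • vecMulVec x (gr u x) := by
  ext k i
  have h1 := gr_mul (h.sm_lam.diff h.good.op hx) (differentiableAt_apply k x)
  rw [gr_coord, h.gr_lam hx] at h1
  refine (congrFun h1 i).trans ?_
  simp only [Pi.add_apply, Pi.smul_apply, smul_eq_mul, Matrix.add_apply, Matrix.smul_apply,
    vecMulVec_apply, Pi.single_apply, Matrix.one_apply, eq_comm (a := k)]
  ring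

theorem jac_mulVec (h : Cap S u) (hx : x ∈ S) (g : Fin n → ℝ) :
    (jac (phi u) x)ᵀ *ᵥ g = lam u x • g + (lam u x ^ 2 * (x ⬝ᵥ g)) • gr u x := by
  rw [h.jac_phi hx, transpose_add, transpose_smul, transpose_smul, transpose_one,
    transpose_vecMulVec, add_mulVec, smul_mulVec, smul_mulVec, one_mulVec, vecMulVec_mulVec,
    op_smul_eq_smul, smul_smul]

theorem det_jac (h : Cap S u) (hx : x ∈ S) :
    (jac (phi u) x).det = lam u x ^ (n + 1) * sig u x := by
  have h0 := (h.lam_pos hx).ne'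
  have h1 : jac (phi u) x = lam u x • (1 + vecMulVec (lam u x • x) (gr u x)) := by
    rw [h.jac_phi hx, smul_add, smul_vecMulVec, smul_smul, sq]
  rw [h1, det_smul, vecMulVec_eq Unit, det_one_add_replicateCol_mul_replicateRow, Fintype.card_fin,
    dotProduct_smul, dotProduct_comm, dot_gr, smul_eq_mul]
  field_simp
  ring

theorem hess_phi (h : Cap S u) (hx : x ∈ S) (g : Fin n → ℝ) :
    ∑ k, g k • hess (fun y => phi u y k) x = (x ⬝ᵥ g) • hess (lam u) x +
      lam u x ^ 2 • vecMulVec (gr u x) g + lam u x ^ 2 • vecMulVec g (gr u x) := by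
  have h1 : ∀ k, hess (fun y => phi u y k) x = x k • hess (lam u) x +
      vecMulVec (lam u x ^ 2 • gr u x) (Pi.single k 1) +
        vecMulVec (Pi.single k 1) (lam u x ^ 2 • gr u x) := by
    intro k
    have h2 := hess_mul h.good.op h.sm_lam (sm_coord k) hx
    have h3 : hess (fun y : Fin n → ℝ => y k) x = 0 := by
      have : (fun y : Fin n → ℝ => y k) = fun y => (Pi.single k 1 : Fin n → ℝ) ⬝ᵥ y := by
        funext y; simp
      rw [this, hess_dot]
    rw [h3, smul_zero, zero_add, gr_coord, h.gr_lam hx] at h2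
    exact h2
  simp only [h1]
  ext i j
  simp only [Matrix.sum_apply, Matrix.smul_apply, Matrix.add_apply, vecMulVec_apply, smul_eq_mul,
    Pi.smul_apply, Pi.single_apply, mul_add, Finset.sum_add_distrib, mul_ite, ite_mul, mul_one,
    one_mul, mul_zero, zero_mul, Finset.sum_ite_eq, Finset.mem_univ, if_true, dotProduct,
    Finset.sum_mul]
  congr 1
  · congr 1
    · exact Finset.sum_congr rfl fun k _ => by ring
    · ring
  · ring

theorem diff_phi (h : Cap S u) (hx : x ∈ S) : DifferentiableAt ℝ (phi u) x :=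
  (h.sm_phi.contDiffAt (h.good.op.mem_nhds hx)).differentiableAt (by simp)

theorem gr_w (h : Cap S u) (hw : Sm Set.univ w) (hwl : ∀ y ∈ S, w (phi u y) = lam u y)
    (hx : x ∈ S) : gr w (phi u x) = (sig u x)⁻¹ • gr u x := by
  have h0 := (h.lam_pos hx).ne'
  have h0' := (h.pos x hx).ne'
  have h1 := gr_chain (hw.diff isOpen_univ (Set.mem_univ _)) (h.diff_phi hx)
  rw [gr_congr_on h.good.op hwl hx, h.gr_lam hx, h.jac_mulVec hx] at h1
  have h2 := congrArg (x ⬝ᵥ ·) h1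
  simp only [dotProduct_add, dotProduct_smul, smul_eq_mul, dot_gr] at h2
  have h3 : x ⬝ᵥ gr w (phi u x) = 1 - (lam u x * sig u x)⁻¹ := by
    field_simp at h2 ⊢
    linear_combination -h2
  rw [h3] at h1
  ext i
  have h4 := congrFun h1 i
  simp only [Pi.add_apply, Pi.smul_apply, smul_eq_mul] at h4 ⊢
  field_simp at h4 ⊢
  linear_combination -h4

theorem conj_w (h : Cap S u) (hw : Sm Set.univ w) (hwl : ∀ y ∈ S, w (phi u y) = lam u y)
    (hx : x ∈ S) : (jac (phi u) x)ᵀ * hess w (phi u x) * jac (phi u) x =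
      (lam u x / sig u x) • hess u x := by
  have h0 := (h.lam_pos hx).ne'
  have h0' := (h.pos x hx).ne'
  have h1 := hess_chain h.good.op hw h.sm_phi hx
  rw [hess_congr_on h.good.op hwl hx, h.hess_phi hx, h.gr_w hw hwl hx, h.hess_lam hx,
    dotProduct_smul, dot_gr] at h1
  rw [eq_sub_of_add_eq h1.symm]
  ext i j
  simp only [Matrix.smul_apply, Matrix.add_apply, Matrix.sub_apply, vecMulVec_apply, smul_eq_mul,
    Pi.smul_apply]
  field_simp
  ring

theorem posDef_w (h : Cap S u) (hw : Sm Set.univ w) (hwl : ∀ y ∈ S, w (phi u y) = lam u y)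
    (hx : x ∈ S) : (hess w (phi u x)).PosDef := by
  have h1 : IsUnit (jac (phi u) x) := by
    rw [Matrix.isUnit_iff_isUnit_det, h.det_jac hx]
    exact (mul_pos (pow_pos (h.lam_pos hx) _) (h.pos x hx)).ne'.isUnit
  have h2 := (h.good.pos x hx).smul (div_pos (h.lam_pos hx) (h.pos x hx))
  rw [← h.conj_w hw hwl hx] at h2
  exact (Matrix.IsUnit.posDef_star_left_conjugate_iff h1).1 h2

theorem inv_w (h : Cap S u) (hw : Sm Set.univ w) (hwl : ∀ y ∈ S, w (phi u y) = lam u y)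
    (hx : x ∈ S) : (hess w (phi u x))⁻¹ =
      (sig u x / lam u x) • (jac (phi u) x * (hess u x)⁻¹ * (jac (phi u) x)ᵀ) := by
  have h0 := (h.lam_pos hx).ne'
  have h0' := (h.pos x hx).ne'
  have h1 : (jac (phi u) x)ᵀ * (hess w (phi u x) *
      (sig u x / lam u x) • (jac (phi u) x * (hess u x)⁻¹)) = 1 := by
    rw [Matrix.mul_smul, Matrix.mul_smul, ← Matrix.mul_assoc, ← Matrix.mul_assoc,
      h.conj_w hw hwl hx, Matrix.smul_mul, smul_smul,
      Matrix.mul_nonsing_inv _ (h.good.det_pos hx).ne'.isUnit, div_mul_div_cancel₀ h0,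
      div_self h0', one_smul]
  refine Matrix.inv_eq_right_inv ?_
  rw [← Matrix.smul_mul, ← Matrix.mul_assoc]
  exact mul_eq_one_comm.1 h1

theorem ld_w (h : Cap S u) (hw : Sm Set.univ w) (hwl : ∀ y ∈ S, w (phi u y) = lam u y)
    (hx : x ∈ S) : ld w (phi u x) =
      ld u x + ((n : ℝ) + 2) * Real.log (1 - u x) - ((n : ℝ) + 2) * Real.log (sig u x) := by
  have h0 := (h.lam_pos hx).ne'
  have h0' := (h.pos x hx).ne'
  have h1 := congrArg Matrix.det (h.conj_w hw hwl hx)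
  rw [det_mul, det_mul, det_transpose, det_smul, Fintype.card_fin, h.det_jac hx] at h1
  have h2 : (hess w (phi u x)).det = (hess u x).det * ((lam u x)⁻¹ / sig u x) ^ (n + 2) := by
    refine mul_left_cancel₀ (pow_ne_zero 2 (mul_ne_zero (pow_ne_zero (n + 1) h0) h0')) ?_
    rw [sq, mul_right_comm, h1, div_pow, div_pow, inv_pow]
    field_simp
    ring
  rw [ld, h2, Real.log_mul (h.good.det_pos hx).ne' (pow_ne_zero _ (div_ne_zero (inv_ne_zero h0) h0')),
    Real.log_pow, Real.log_div (inv_ne_zero h0) h0', lam, inv_inv, ld]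
  push_cast
  ring

theorem ip_w (h : Cap S u) (hw : Sm Set.univ w) (hwl : ∀ y ∈ S, w (phi u y) = lam u y)
    (hx : x ∈ S) (a b : Fin n → ℝ) : ip w (phi u x) a b =
      sig u x / lam u x * ip u x ((jac (phi u) x)ᵀ *ᵥ a) ((jac (phi u) x)ᵀ *ᵥ b) := by
  rw [ip, ip, h.inv_w hw hwl hx, smul_mulVec, dotProduct_smul, smul_eq_mul, ← mulVec_mulVec,
    ← mulVec_mulVec, dotProduct_mulVec, mulVec_transpose (jac (phi u) x) a]

theorem Lop_w (h : Cap S u) (hw : Sm Set.univ w) (hwl : ∀ y ∈ S, w (phi u y) = lam u y)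
    (hG : Sm Set.univ G) (hx : x ∈ S) : Lop w G (phi u x) = sig u x / lam u x *
      (Lop u (fun y => G (phi u y)) x - n * (x ⬝ᵥ gr (fun y => G (phi u y)) x) / sig u x -
        2 * lam u x * ip u x (gr u x) (gr (fun y => G (phi u y)) x)) := by
  have h0 := (h.lam_pos hx).ne'
  have h0' := (h.pos x hx).ne'
  have h1 : ((hess u x)⁻¹ * hess u x).trace = n := h.good.Lop_self hx
  have h2 : ∀ a b, ((hess u x)⁻¹ * vecMulVec a b).trace = ip u x b a := fun a b =>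
    trace_mul_vecMulVec _ a b
  rw [Lop, Lop, h.inv_w hw hwl hx, hess_chain h.good.op hG h.sm_phi hx, h.hess_phi hx,
    gr_chain (hG.diff isOpen_univ (Set.mem_univ _)) (h.diff_phi hx), h.jac_mulVec hx,
    h.hess_lam hx, Matrix.smul_mul, trace_smul, smul_eq_mul, Matrix.mul_assoc, Matrix.mul_assoc,
    trace_mul_comm (jac (phi u) x), Matrix.mul_assoc]
  simp only [Matrix.mul_add, Matrix.mul_smul, trace_add, trace_smul, smul_eq_mul, h1, h2,
    dotProduct_add, dotProduct_smul, dot_gr, ip_add_right, ip_smul_right,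
    h.good.ip_comm (a := gr G (phi u x)) hx]
  field_simp
  ring

theorem eqn_w (h : Cap S u) (he : Eqn S u 0 1) (hw : Good Set.univ w) (hp : ∀ y, 0 < 1 * w y + 0)
    (hwl : ∀ y ∈ S, w (phi u y) = lam u y) (hx : x ∈ S) :
    Lop w (lh w 1 0) (phi u x) =
      th n * ip w (phi u x) (gr (lh w 1 0) (phi u x)) (gr (lh w 1 0) (phi u x)) -
        (n : ℝ) * ((n : ℝ) + 2) * 1 / (th n * (1 * w (phi u x) + 0)) := by
  have h0 := (h.lam_pos hx).ne'
  have h0' := (h.pos x hx).ne'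
  have hG : Sm Set.univ (lh w 1 0) := hw.sm_lh fun y _ => hp y
  have hn1 : (n : ℝ) + 1 ≠ 0 := by positivity
  have hn2 : (n : ℝ) + 2 ≠ 0 := by positivity
  have hF : ∀ y ∈ S, lh w 1 0 (phi u y) = ld u y + (th n)⁻¹ * Real.log (1 - u y) -
      ((n : ℝ) + 2) * Real.log (sig u y) := by
    intro y hy
    rw [lh, h.ld_w hw.sm hwl hy, hwl y hy, one_mul, add_zero, lam, Real.log_inv, th]
    field_simp
    ring
  have s1 : Sm S fun y => Real.log (1 - u y) :=
    h.sm_one_sub.log fun y hy => (sub_pos.2 (h.lt y hy)).ne'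
  have s2 : Sm S fun y => Real.log (sig u y) := h.sm_sig.log fun y hy => (h.pos y hy).ne'
  have s3 : Sm S fun y => (th n)⁻¹ * Real.log (1 - u y) := contDiffOn_const.mul s1
  have s4 : Sm S fun y => ((n : ℝ) + 2) * Real.log (sig u y) := contDiffOn_const.mul s2
  have s5 := h.good.sm_ld
  have hS := h.good.op
  have g1 : gr (sig u) x = hess u x *ᵥ x := by rw [sig_eq, gr_add_const, h.good.gr_sig hx]
  have l1 : Lop u (sig u) x = n + x ⬝ᵥ gr (ld u) x := by
    rw [sig_eq, Lop_add hS h.good.sm_sig contDiffOn_const hx, Lop_const, h.good.Lop_sig hx,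
      add_zero]
  have l2 : Lop u (fun y => 1 - u y) x = -n := by
    rw [Lop_sub hS contDiffOn_const h.good.sm hx, Lop_const, h.good.Lop_self hx, zero_sub]
  have e1 : 1 - u x = (lam u x)⁻¹ := by rw [lam, inv_inv]
  rw [h.ip_w hw.sm hwl hx, ← gr_chain (hG.diff isOpen_univ (Set.mem_univ _)) (h.diff_phi hx),
    h.Lop_w hw.sm hwl hG hx, hwl x hx, gr_congr_on hS hF hx, Lop_congr_on hS hF hx,
    gr_sub (Sm.diff hS (s5.add s3) hx) (s4.diff hS hx), gr_add (s5.diff hS hx) (s3.diff hS hx),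
    gr_const_mul _ (s1.diff hS hx), gr_const_mul _ (s2.diff hS hx),
    gr_log (h.sm_one_sub.diff hS hx) (sub_pos.2 (h.lt x hx)).ne', gr_log (h.sm_sig.diff hS hx) h0',
    Lop_sub hS (s5.add s3) s4 hx, Lop_add hS s5 s3 hx, Lop_const_mul hS _ s1 hx,
    Lop_const_mul hS _ s2 hx, Lop_log hS h.sm_one_sub hx (sub_pos.2 (h.lt x hx)),
    Lop_log hS h.sm_sig hx (h.pos x hx), he.ld hx, h.gr_one_sub hx, g1, l1, l2, e1]
  have c1 : ∀ a, ip u x (hess u x *ᵥ x) a = x ⬝ᵥ a := fun a => by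
    rw [h.good.ip_comm hx, h.good.ip_hess hx, dotProduct_comm]
  have c2 : ∀ a, ip u x a (hess u x *ᵥ x) = x ⬝ᵥ a := fun a => by rw [h.good.ip_comm hx, c1]
  simp only [ip_add_left, ip_add_right, ip_sub_left, ip_sub_right, ip_smul_left, ip_smul_right,
    ip_neg_left, ip_neg_right, c1, c2, dotProduct_add, dotProduct_sub, dotProduct_smul,
    dotProduct_neg, smul_eq_mul, dot_gr u x, h.good.ip_comm (a := gr (ld u) x) (b := gr u x) hx,
    th, one_mul, add_zero]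
  field_simp
  ring

end Proj.Cap

theorem Proj.Cap.injOn (h : Proj.Cap S u) (hb : ∀ x ∈ S, ∀ y ∈ S, 0 ≤ breg u y x) :
    Set.InjOn (Proj.phi u) S := by
  have key : ∀ x ∈ S, ∀ y ∈ S, Proj.phi u x = Proj.phi u y → Proj.lam u x ≤ Proj.lam u y := by
    intro x hx y hy hxy
    have h1 := hb x hx y hy
    have h2 := congrArg (gr u x ⬝ᵥ ·) hxy
    have h3 := Proj.Cap.dot_gr u x
    have h4 : 1 - u y = (Proj.lam u y)⁻¹ := by rw [Proj.lam, inv_inv]
    have h5 : (Proj.lam u y)⁻¹ + gr u x ⬝ᵥ y ≤ Proj.sig u x := by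
      rw [breg, dotProduct_sub, dotProduct_comm _ x] at h1
      rw [← h4, Proj.sig]
      linarith
    simp only [Proj.phi, dotProduct_smul, smul_eq_mul] at h2
    rw [dotProduct_comm _ x, h3, mul_sub, mul_inv_cancel₀ (h.lam_pos hx).ne'] at h2
    have h6 := mul_le_mul_of_nonneg_left h5 (h.lam_pos hy).le
    rw [mul_add, mul_inv_cancel₀ (h.lam_pos hy).ne'] at h6
    exact le_of_mul_le_mul_right (by linarith) (h.pos x hx)
  intro x hx y hy hxy
  have h1 := le_antisymm (key x hx y hy hxy) (key y hy x hx hxy.symm)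
  rw [Proj.phi, Proj.phi, h1] at hxy
  exact smul_right_injective _ (h.lam_pos hy).ne' hxy

theorem Proj.surj (h : Good Ω u) (hK : IsCompact (sub Ω u 1)) (h0 : (0 : Fin n → ℝ) ∈ Ω)
    (hu0 : u 0 < 1) (hnn : ∀ x ∈ Ω, 0 ≤ u x) (z : Fin n → ℝ) :
    ∃ x, (x ∈ Ω ∧ u x < 1) ∧ Proj.phi u x = z := by
  have hcont : Continuous fun r : ℝ => r • z := by fun_prop
  have hT : IsCompact (Set.Icc (0 : ℝ) 1 ∩ (fun r : ℝ => r • z) ⁻¹' sub Ω u 1) :=
    isCompact_Icc.inter_right (hK.isClosed.preimage hcont)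
  have hc : ContinuousOn (fun r : ℝ => u (r • z) + r)
      (Set.Icc (0 : ℝ) 1 ∩ (fun r : ℝ => r • z) ⁻¹' sub Ω u 1) :=
    (h.sm.continuousOn.comp hcont.continuousOn fun r hr => hr.2.1).add continuousOn_id
  have hT' := hT.of_isClosed_subset (hc.preimage_isClosed_of_isClosed hT.isClosed
    (isClosed_Iic (a := 1))) Set.inter_subset_left
  obtain ⟨r, ⟨⟨hr1, hr2⟩, hr3⟩, hr4⟩ := hT'.exists_isGreatest
    ⟨0, ⟨⟨le_rfl, zero_le_one⟩, by simpa [sub] using ⟨h0, hu0.le⟩⟩, by simpa using hu0.le⟩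
  have h1 : u (r • z) + r = 1 := by
    by_contra hne
    have h2 : u (r • z) + r < 1 := lt_of_le_of_ne hr3 hne
    have h3 : ContinuousAt (fun r : ℝ => u (r • z) + r) r :=
      (ContinuousAt.comp (f := fun r : ℝ => r • z)
        (h.sm.continuousOn.continuousAt (h.op.mem_nhds hr2.1)) hcont.continuousAt).add
        continuousAt_id
    have h4 : ∀ᶠ t in nhds r, t • z ∈ Ω ∧ u (t • z) + t < 1 :=
      (hcont.continuousAt.eventually (h.op.mem_nhds hr2.1)).and (h3.eventually (gt_mem_nhds h2))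
    obtain ⟨t, ⟨ht1, ht2⟩, ht3⟩ :=
      ((h4.filter_mono (nhdsWithin_le_nhds (s := Set.Ioi r))).and self_mem_nhdsWithin).exists
    have h5 : r < t := ht3
    have h6 := hnn _ ht1
    have h7 := hr1.1
    exact absurd (hr4 ⟨⟨⟨by linarith, by linarith⟩, ht1, by linarith⟩, ht2.le⟩) (not_le.2 h5)
  have h2 : r ≠ 0 := by
    rintro rfl
    rw [zero_smul, add_zero] at h1
    exact hu0.ne h1
  have h3 := lt_of_le_of_ne hr1.1 h2.symm
  refine ⟨r • z, ⟨hr2.1, by linarith⟩, ?_⟩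
  rw [Proj.phi, Proj.lam, show 1 - u (r • z) = r by linarith, inv_smul_smul₀ h2]

theorem Proj.Cap.sm_inv (h : Proj.Cap S u) {Ψ : (Fin n → ℝ) → Fin n → ℝ}
    (hΨ : ∀ x ∈ S, Ψ (Proj.phi u x) = x) (hx : x ∈ S) : ContDiffAt ℝ ∞ Ψ (Proj.phi u x) := by
  have h1 : IsUnit (Proj.jac (Proj.phi u) x).det := by
    rw [h.det_jac hx]
    exact (mul_pos (pow_pos (h.lam_pos hx) _) (h.pos x hx)).ne'.isUnit
  let e : (Fin n → ℝ) ≃L[ℝ] (Fin n → ℝ) :=
    (Matrix.toLinearEquiv (Pi.basisFun ℝ (Fin n)) _ h1).toContinuousLinearEquiv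
  have h2 : HasFDerivAt (Proj.phi u) (e : (Fin n → ℝ) →L[ℝ] (Fin n → ℝ)) x := by
    refine (Proj.hasFDerivAt_jac (h.diff_phi hx)).congr_fderiv ?_
    ext v
    simp [e, Matrix.toLin_eq_toLin']
  have h3 := h.sm_phi.contDiffAt (h.good.op.mem_nhds hx)
  refine (h3.to_localInverse h2 (by simp)).congr_of_eventuallyEq ?_
  exact (h3.hasStrictFDerivAt' h2 (by simp)).localInverse_unique
    (Filter.eventually_of_mem (h.good.op.mem_nhds hx) hΨ)

/-- The projective transformation `(x, z) ↦ (x/(1-z), 1/(1-z))` of a compact cap. -/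
theorem exists_proj (h : Good Ω u) (hc : Convex ℝ Ω) (he : Eqn Ω u 0 1)
    (hK : IsCompact (sub Ω u 1)) (h0 : (0 : Fin n → ℝ) ∈ Ω) (hu0 : u 0 < 1)
    (hnn : ∀ x ∈ Ω, 0 ≤ u x) :
    ∃ w : (Fin n → ℝ) → ℝ, Good Set.univ w ∧ Eqn Set.univ w 1 0 ∧
      (∀ y, ∃ x ∈ Ω, u x < 1 ∧ w y = (1 - u x)⁻¹ ∧ y = w y • x ∧
        0 < 1 - u x + x ⬝ᵥ gr u x ∧ gr w y = (1 - u x + x ⬝ᵥ gr u x)⁻¹ • gr u x) ∧
      ∀ x ∈ Ω, u x < 1 → w ((1 - u x)⁻¹ • x) = (1 - u x)⁻¹ := by
  have hS : IsOpen {x | x ∈ Ω ∧ u x < 1} :=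
    h.sm.continuousOn.isOpen_inter_preimage h.op isOpen_Iio
  have hC : Proj.Cap {x | x ∈ Ω ∧ u x < 1} u := by
    refine ⟨h.mono hS fun x hx => hx.1, fun x hx => hx.2, fun x hx => ?_⟩
    have h1 := h.breg_nonneg hc h0 hx.1
    rw [breg, zero_sub, dotProduct_neg, dotProduct_comm] at h1
    rw [Proj.sig]
    linarith
  choose Ψ hΨ1 hΨ2 using Proj.surj h hK h0 hu0 hnn
  have hΨ : ∀ x ∈ {x | x ∈ Ω ∧ u x < 1}, Ψ (Proj.phi u x) = x := fun x hx =>
    hC.injOn (fun x hx y hy => h.breg_nonneg hc hy.1 hx.1) (hΨ1 _) hx (hΨ2 _)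
  have hsm : Sm Set.univ fun y => Proj.lam u (Ψ y) := by
    intro y _
    have h1 := hC.sm_inv hΨ (hΨ1 y)
    rw [hΨ2] at h1
    exact ((hC.sm_lam.at hS (hΨ1 y)).comp y h1).contDiffWithinAt
  have hwl : ∀ x ∈ {x | x ∈ Ω ∧ u x < 1}, Proj.lam u (Ψ (Proj.phi u x)) = Proj.lam u x :=
    fun x hx => by rw [hΨ x hx]
  have hw : Good Set.univ fun y => Proj.lam u (Ψ y) :=
    ⟨isOpen_univ, hsm, fun y _ => hΨ2 y ▸ hC.posDef_w hsm hwl (hΨ1 y)⟩
  have hp : ∀ y, 0 < 1 * Proj.lam u (Ψ y) + 0 := fun y => by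
    rw [one_mul, add_zero]
    exact hC.lam_pos (hΨ1 y)
  refine ⟨_, hw, fun y _ => ⟨hp y, ?_⟩, fun y => ⟨Ψ y, (hΨ1 y).1, (hΨ1 y).2, rfl, (hΨ2 y).symm,
    hC.pos _ (hΨ1 y), ?_⟩, fun x hx hx' => hwl x ⟨hx, hx'⟩⟩
  · have h1 := hC.eqn_w (fun x hx => he x hx.1) hw hp hwl (hΨ1 y)
    rwa [hΨ2] at h1
  · have h1 := hC.gr_w hsm hwl (hΨ1 y)
    rwa [hΨ2] at h1

end Vale.Agent.P252
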